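import Vale.Agent.P088.R2.H768.W.Cls
import Mathlib.Analysis.SpecialFunctions.Log.Deriv

/-!
# The slow-down in the variables `(φ, r)` and its partial derivatives
-/

open scoped ContDiff Topology
open Set Filter

noncomputable section

namespace Vale.Agent.P088.R2.H768.W

/-- The linear form `a dφ + b dr`. -/
def lf (a b : ℝ) : E2 →L[ℝ] ℝ :=
  a • ContinuousLinearMap.fst ℝ ℝ ℝ + b • ContinuousLinearMap.snd ℝ ℝ ℝ

@[simp] theorem lf_apply (a b : ℝ) (v : E2) : lf a b v = a * v.1 + b * v.2 := by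
  simp [lf]

/-- The point `(T, s)` of `(φ, r)`. -/
def Zc (τ r₁ : ℝ) (z : E2) : E2 := (z.1 / (τ * z.2), Real.log (z.2 / r₁))

/-- `δ = 1 / (τ r₁)`. -/
def dl (τ r₁ : ℝ) : ℝ := (τ * r₁)⁻¹

section

variable {τ r₁ : ℝ}

theorem es_Zc (hr : 0 < r₁) {z : E2} (hz : 0 < z.2) : es (Zc τ r₁ z) = r₁ / z.2 := by
  unfold es Zc
  rw [Real.exp_neg, Real.exp_log (div_pos hz hr), inv_div]

theorem exp_Zc (hr : 0 < r₁) {z : E2} (hz : 0 < z.2) :
    Real.exp (Zc τ r₁ z).2 = z.2 / r₁ := by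
  unfold Zc
  rw [Real.exp_log (div_pos hz hr)]

theorem Zc_sm (hτ : 0 < τ) (hr : 0 < r₁) : ContDiffOn ℝ ∞ (Zc τ r₁) {z | 0 < z.2} := by
  unfold Zc
  refine ContDiffOn.prodMk (ContDiffOn.div contDiff_fst.contDiffOn
    (contDiff_const.mul contDiff_snd).contDiffOn fun z hz => ?_) (ContDiffOn.log
      (contDiff_snd.contDiffOn.div_const r₁) fun z hz => ?_)
  · exact (mul_pos hτ hz).ne'
  · exact (div_pos hz hr).ne'

theorem Zc_hd (hτ : 0 < τ) (hr : 0 < r₁) {z : E2} (hz : 0 < z.2) :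
    HasFDerivAt (Zc τ r₁) ((lf (1 / (τ * z.2)) (-(z.1 / (τ * z.2)) / z.2)).prod
      (lf 0 (1 / z.2))) z := by
  have hz' : z.2 ≠ 0 := hz.ne'
  have h1 : HasFDerivAt (fun z : E2 => z.1) (lf 1 0) z := by
    have := hasFDerivAt_fst (𝕜 := ℝ) (E := ℝ) (F := ℝ) (p := z)
    have e : lf 1 0 = ContinuousLinearMap.fst ℝ ℝ ℝ := by ext <;> simp
    rw [e]; exact this
  have h2 : HasFDerivAt (fun z : E2 => z.2) (lf 0 1) z := by
    have := hasFDerivAt_snd (𝕜 := ℝ) (E := ℝ) (F := ℝ) (p := z)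
    have e : lf 0 1 = ContinuousLinearMap.snd ℝ ℝ ℝ := by ext <;> simp
    rw [e]; exact this
  refine HasFDerivAt.prodMk ?_ ?_
  · have h3 := (hasDerivAt_inv (mul_pos hτ hz).ne').comp_hasFDerivAt z (h2.const_mul τ)
    have h4 := h1.mul h3
    have e : (fun z : E2 => z.1 / (τ * z.2)) = fun z : E2 => z.1 * (τ * z.2)⁻¹ := by
      funext z; rw [div_eq_mul_inv]
    rw [e]
    refine h4.congr_fderiv ?_
    ext
    · simp; try field_simp
    · simp; try field_simp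
  · have h3 := (h2.mul_const (r₁⁻¹)).log (x := z) (by positivity)
    have e : (fun z : E2 => Real.log (z.2 / r₁)) = fun z : E2 => Real.log (z.2 * r₁⁻¹) := by
      funext z; rw [div_eq_mul_inv]
    rw [e]
    refine h3.congr_fderiv ?_
    ext
    · simp
    · simp; try field_simp

theorem fd_eq {H : E2 → ℝ} (w v : E2) : fderiv ℝ H w v = v.1 * dT H w + v.2 * dS H w := by
  have e : v = v.1 • ((1 : ℝ), (0 : ℝ)) + v.2 • ((0 : ℝ), (1 : ℝ)) := by
    ext <;> simp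
  conv_lhs => rw [e]
  rw [map_add, map_smul, map_smul]
  rfl

/-- The chain rule. -/
theorem comp_hd (hτ : 0 < τ) (hr : 0 < r₁) {H : E2 → ℝ} (hH : ContDiff ℝ ∞ H) {z : E2}
    (hz : 0 < z.2) : HasFDerivAt (fun z => H (Zc τ r₁ z))
      (lf (dT H (Zc τ r₁ z) / (τ * z.2))
        ((dS H (Zc τ r₁ z) - z.1 / (τ * z.2) * dT H (Zc τ r₁ z)) / z.2)) z := by
  have h1 := (sm_diff hH (Zc τ r₁ z)).hasFDerivAt.comp z (Zc_hd hτ hr hz)
  refine h1.congr_fderiv ?_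
  ext
  · simp only [ContinuousLinearMap.comp_apply, ContinuousLinearMap.prod_apply, lf_apply,
      ContinuousLinearMap.inl_apply, fd_eq]
    ring
  · simp only [ContinuousLinearMap.comp_apply, ContinuousLinearMap.prod_apply, lf_apply,
      ContinuousLinearMap.inr_apply, fd_eq]
    ring

theorem exs_sm : ContDiff ℝ ∞ fun z : E2 => Real.exp z.2 := Real.contDiff_exp.comp contDiff_snd

/-- `e^s v`. -/
def ev (w : E2) : ℝ := Real.exp w.2 * vv w

theorem ev_sm : ContDiff ℝ ∞ ev := exs_sm.mul vv_sm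

theorem dT_ev (w : E2) : dT ev w = Real.exp w.2 * kh w := by
  have e : ev = fun w => Real.exp w.2 * vv w := rfl
  rw [e, dT_mul exs_sm vv_sm, dT_snd Real.contDiff_exp, dT_vv]
  ring

theorem dS_ev (w : E2) : dS ev w = Real.exp w.2 * (vv w + dS vv w) := by
  have e : ev = fun w => Real.exp w.2 * vv w := rfl
  rw [e, dS_mul exs_sm vv_sm, dS_snd Real.contDiff_exp]
  simp only [Real.deriv_exp]
  ring

/-- The exponent `u = τ r T κ₀`. -/
def uu (τ r₁ : ℝ) (z : E2) : ℝ := τ * r₁ * ev (Zc τ r₁ z)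

theorem uu_hd (hτ : 0 < τ) (hr : 0 < r₁) {z : E2} (hz : 0 < z.2) :
    HasFDerivAt (uu τ r₁) (lf (kh (Zc τ r₁ z)) (τ * (kh (Zc τ r₁ z) * ga (Zc τ r₁ z)))) z := by
  have h1 := (comp_hd hτ hr ev_sm hz).const_mul (τ * r₁)
  refine h1.congr_fderiv ?_
  have e1 := exp_Zc (τ := τ) hr hz
  have e2 := kh_ga (Zc τ r₁ z)
  have e3 : (Zc τ r₁ z).1 = z.1 / (τ * z.2) := rfl
  have hz' : z.2 ≠ 0 := hz.ne'
  have hr' : r₁ ≠ 0 := hr.ne'
  have hτ' : τ ≠ 0 := hτ.ne'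
  ext
  · simp only [ContinuousLinearMap.comp_apply, ContinuousLinearMap.inl_apply,
      _root_.smul_apply, lf_apply, dT_ev, e1, smul_eq_mul]
    field_simp
    ring
  · simp only [ContinuousLinearMap.comp_apply, ContinuousLinearMap.inr_apply,
      _root_.smul_apply, lf_apply, dT_ev, dS_ev, e1, smul_eq_mul]
    rw [e2, e3]
    field_simp

theorem uu_sm (hτ : 0 < τ) (hr : 0 < r₁) : ContDiffOn ℝ ∞ (uu τ r₁) {z | 0 < z.2} :=
  contDiffOn_const.mul (ev_sm.comp_contDiffOn (Zc_sm hτ hr))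

/-- The partial derivatives of the slow-down. -/
def Dp (τ r₁ : ℝ) (i j : ℕ) (z : E2) : ℝ :=
  Real.exp (uu τ r₁ z) * RR τ (dl τ r₁) i j (Zc τ r₁ z)

theorem Dp_sm (hτ : 0 < τ) (hr : 0 < r₁) (i j : ℕ) :
    ContDiffOn ℝ ∞ (Dp τ r₁ i j) {z | 0 < z.2} :=
  (Real.contDiff_exp.comp_contDiffOn (uu_sm hτ hr)).mul
    ((RR_sm i j).comp_contDiffOn (Zc_sm hτ hr))

theorem Dp_hd (hτ : 0 < τ) (hr : 0 < r₁) (i j : ℕ) {z : E2} (hz : 0 < z.2) :
    HasFDerivAt (Dp τ r₁ i j) (lf (Dp τ r₁ (i + 1) j z) (Dp τ r₁ i (j + 1) z)) z := by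
  have h1 := (uu_hd hτ hr hz).exp.mul (comp_hd hτ hr (RR_sm (τ := τ) (δ := dl τ r₁) i j) hz)
  refine h1.congr_fderiv ?_
  have e1 := es_Zc (τ := τ) hr hz
  have e3 : (Zc τ r₁ z).1 = z.1 / (τ * z.2) := rfl
  have hz' : z.2 ≠ 0 := hz.ne'
  have hr' : r₁ ≠ 0 := hr.ne'
  have hτ' : τ ≠ 0 := hτ.ne'
  ext
  · simp only [ContinuousLinearMap.comp_apply, ContinuousLinearMap.inl_apply,
      _root_.add_apply, _root_.smul_apply, lf_apply, smul_eq_mul, Dp]
    rw [RR_left, A1, e1, dl]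
    field_simp
    ring
  · simp only [ContinuousLinearMap.comp_apply, ContinuousLinearMap.inr_apply,
      _root_.add_apply, _root_.smul_apply, lf_apply, smul_eq_mul, Dp]
    rw [RR_right, A2_eq, e1, dl, e3]
    field_simp
    ring

end

end Vale.Agent.P088.R2.H768.W
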