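import Vale.Agent.P088.R2.H768.W.Jet

/-!
# Uniform bounds
-/

open scoped ContDiff Topology
open Set Filter

noncomputable section

namespace Vale.Agent.P088.R2.H768.W

/-- Parameters. -/
def Pm : Type := {q : ℝ × ℝ // (0 ≤ q.1 ∧ q.1 ≤ 1) ∧ (0 ≤ q.2 ∧ q.2 ≤ 1)}

/-- `τ`. -/
def Pm.t (i : Pm) : ℝ := i.1.1

/-- `δ`. -/
def Pm.d (i : Pm) : ℝ := i.1.2

theorem Pm.ht (i : Pm) : |i.t| ≤ 1 := by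
  rw [Pm.t, abs_of_nonneg i.2.1.1]; exact i.2.1.2

theorem Pm.hd (i : Pm) : |i.d| ≤ 1 := by
  rw [Pm.d, abs_of_nonneg i.2.2.1]; exact i.2.2.2

/-- Extraction of a bound from a class. -/
theorem bd_of {w F : Pm → E2 → ℝ} (h : Sm Om hh w F) : ∃ C : ℝ, 0 ≤ C ∧ ∀ τ δ : ℝ,
    ∀ h1 : 0 ≤ τ, ∀ h2 : τ ≤ 1, ∀ h3 : 0 ≤ δ, ∀ h4 : δ ≤ 1, ∀ z ∈ Om,
    |F ⟨(τ, δ), ⟨h1, h2⟩, h3, h4⟩ z| ≤ C * w ⟨(τ, δ), ⟨h1, h2⟩, h3, h4⟩ z := by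
  obtain ⟨C, h0, hC⟩ := h.bound
  exact ⟨C, h0, fun τ δ h1 h2 h3 h4 z hz => hC _ z hz⟩

theorem bd_R (m n : ℕ) (h : 1 ≤ m + n) : ∃ C : ℝ, 0 ≤ C ∧ ∀ τ δ : ℝ, 0 ≤ τ → τ ≤ 1 → 0 ≤ δ →
    δ ≤ 1 → ∀ z ∈ Om, |RR τ δ m n z| ≤ C := by
  obtain ⟨C, h0, hC⟩ := bd_of (Rij (τ := Pm.t) (δ := Pm.d) Pm.ht Pm.hd m n h)
  exact ⟨C, h0, fun τ δ h1 h2 h3 h4 z hz => (hC τ δ h1 h2 h3 h4 z hz).trans_eq (mul_one C)⟩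

theorem bd_R2 (m n : ℕ) (h : 2 ≤ m + n) : ∃ C : ℝ, 0 ≤ C ∧ ∀ τ δ : ℝ, 0 ≤ τ → τ ≤ 1 → 0 ≤ δ →
    δ ≤ 1 → ∀ z ∈ Om, |RR τ δ m n z| ≤ C * wm 2 (-1) z := by
  obtain ⟨C, h0, hC⟩ := bd_of (R2c (τ := Pm.t) (δ := Pm.d) Pm.ht Pm.hd n m h)
  exact ⟨C, h0, fun τ δ h1 h2 h3 h4 z hz => hC τ δ h1 h2 h3 h4 z hz⟩

theorem bd_R3 : ∃ C : ℝ, 0 ≤ C ∧ ∀ τ δ : ℝ, 0 ≤ τ → τ ≤ 1 → 0 ≤ δ →
    δ ≤ 1 → ∀ z ∈ Om, |RR τ δ 3 0 z - kh z * RR τ δ 2 0 z| ≤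
      C * (δ * (wm 2 (-1) z * wm 2 (-1) z)) := by
  have h20 : Sm Om hh (fun _ z => wm 2 (-1) z) fun i : Pm => RR i.t i.d 2 0 :=
    R2c Pm.ht Pm.hd 0 2 (by omega)
  obtain ⟨C, h0, hC⟩ := bd_of (A1d' (δ := Pm.d) h20)
  refine ⟨C, h0, fun τ δ h1 h2 h3 h4 z hz => ?_⟩
  have h5 := hC τ δ h1 h2 h3 h4 z hz
  rw [RR_left 2 0]
  refine h5.trans (mul_le_mul_of_nonneg_left ?_ h0)
  have h6 : |Pm.d ⟨(τ, δ), ⟨h1, h2⟩, h3, h4⟩| = δ := abs_of_nonneg h3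
  rw [h6]

theorem bd_R2' : ∃ C : ℝ, 0 ≤ C ∧ ∀ τ δ : ℝ, 0 ≤ τ → τ ≤ 1 → 0 ≤ δ →
    δ ≤ 1 → ∀ z ∈ Om, |RR τ δ 2 0 z - kh z * RR τ δ 1 0 z| ≤ C * (δ * wm 2 (-1) z) := by
  obtain ⟨C, h0, hC⟩ := bd_of (A1d' (δ := Pm.d) (R10 (τ := Pm.t) Pm.hd))
  refine ⟨C, h0, fun τ δ h1 h2 h3 h4 z hz => ?_⟩
  have h5 := hC τ δ h1 h2 h3 h4 z hz
  rw [RR_left 1 0]
  refine h5.trans (mul_le_mul_of_nonneg_left ?_ h0)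
  have h6 : |Pm.d ⟨(τ, δ), ⟨h1, h2⟩, h3, h4⟩| = δ := abs_of_nonneg h3
  rw [h6, mul_one]

theorem bd_R1 : ∃ C : ℝ, 0 ≤ C ∧ ∀ τ δ : ℝ, 0 ≤ τ → τ ≤ 1 → 0 ≤ δ →
    δ ≤ 1 → ∀ z ∈ Om, |RR τ δ 1 0 z - 1| ≤ C * δ := by
  obtain ⟨C, h0, hC⟩ := bd_of (R10c (τ := Pm.t) (δ := Pm.d) Pm.hd)
  refine ⟨C, h0, fun τ δ h1 h2 h3 h4 z hz => ?_⟩
  have h5 := hC τ δ h1 h2 h3 h4 z hz
  have h6 : |Pm.d ⟨(τ, δ), ⟨h1, h2⟩, h3, h4⟩| = δ := abs_of_nonneg h3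
  rw [h6] at h5
  exact h5

theorem bd_R01 : ∃ C : ℝ, 0 ≤ C ∧ ∀ τ δ : ℝ, 0 ≤ τ → τ ≤ 1 → 0 ≤ δ →
    δ ≤ 1 → ∀ z ∈ Om, |RR τ δ 0 1 z| ≤ C * τ := by
  obtain ⟨C, h0, hC⟩ := bd_of (R01 (τ := Pm.t) (δ := Pm.d) Pm.hd)
  refine ⟨C, h0, fun τ δ h1 h2 h3 h4 z hz => ?_⟩
  have h5 := hC τ δ h1 h2 h3 h4 z hz
  have h6 : |Pm.t ⟨(τ, δ), ⟨h1, h2⟩, h3, h4⟩| = τ := abs_of_nonneg h1
  rw [h6] at h5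
  exact h5

theorem bd_E11 : ∃ C : ℝ, 0 ≤ C ∧ ∀ τ δ : ℝ, 0 ≤ τ → τ ≤ 1 → 0 ≤ δ →
    δ ≤ 1 → ∀ z ∈ Om, |EE τ δ 1 1 z| ≤ C * (τ * δ * es z * δ) := by
  obtain ⟨C, h0, hC⟩ := bd_of (E11c (τ := Pm.t) (δ := Pm.d) Pm.hd)
  refine ⟨C, h0, fun τ δ h1 h2 h3 h4 z hz => ?_⟩
  have h5 := hC τ δ h1 h2 h3 h4 z hz
  have h6 : |Pm.d ⟨(τ, δ), ⟨h1, h2⟩, h3, h4⟩| = δ := abs_of_nonneg h3
  have h7 : |Pm.t ⟨(τ, δ), ⟨h1, h2⟩, h3, h4⟩ * Pm.d ⟨(τ, δ), ⟨h1, h2⟩, h3, h4⟩| = τ * δ :=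
    abs_of_nonneg (mul_nonneg h1 h3)
  rw [h6, h7] at h5
  rw [show τ * δ * es z * δ = τ * δ * (es z * δ) by ring]
  exact h5

theorem bd_E02 : ∃ C : ℝ, 0 ≤ C ∧ ∀ τ δ : ℝ, 0 ≤ τ → τ ≤ 1 → 0 ≤ δ →
    δ ≤ 1 → ∀ z ∈ Om, |EE τ δ 0 2 z| ≤ C * (τ * δ * es z * τ) := by
  obtain ⟨C, h0, hC⟩ := bd_of (E02c (τ := Pm.t) (δ := Pm.d) Pm.ht Pm.hd)
  refine ⟨C, h0, fun τ δ h1 h2 h3 h4 z hz => ?_⟩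
  have h5 := hC τ δ h1 h2 h3 h4 z hz
  have h6 : |Pm.t ⟨(τ, δ), ⟨h1, h2⟩, h3, h4⟩| = τ := abs_of_nonneg h1
  have h7 : |Pm.t ⟨(τ, δ), ⟨h1, h2⟩, h3, h4⟩ * Pm.d ⟨(τ, δ), ⟨h1, h2⟩, h3, h4⟩| = τ * δ :=
    abs_of_nonneg (mul_nonneg h1 h3)
  rw [h6, h7] at h5
  rw [show τ * δ * es z * τ = τ * δ * (es z * τ) by ring]
  exact h5

theorem bd_E3 (m n : ℕ) (h : 3 ≤ m + n) : ∃ C : ℝ, 0 ≤ C ∧ ∀ τ δ : ℝ, 0 ≤ τ → τ ≤ 1 → 0 ≤ δ →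
    δ ≤ 1 → ∀ z ∈ Om, |EE τ δ m n z| ≤ C * (τ * δ * es z * wm 2 (-1) z) := by
  obtain ⟨C, h0, hC⟩ := bd_of (E3c (τ := Pm.t) (δ := Pm.d) Pm.ht Pm.hd n m h)
  refine ⟨C, h0, fun τ δ h1 h2 h3 h4 z hz => ?_⟩
  have h5 := hC τ δ h1 h2 h3 h4 z hz
  have h7 : |Pm.t ⟨(τ, δ), ⟨h1, h2⟩, h3, h4⟩ * Pm.d ⟨(τ, δ), ⟨h1, h2⟩, h3, h4⟩| = τ * δ :=
    abs_of_nonneg (mul_nonneg h1 h3)
  rw [h7] at h5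
  rw [show τ * δ * es z * wm 2 (-1) z = τ * δ * (es z * wm 2 (-1) z) by ring]
  exact h5

theorem bd_ga : ∃ C : ℝ, 0 ≤ C ∧ ∀ z ∈ Om, |ga z| ≤ C := by
  obtain ⟨C, h0, hC⟩ := (sm_ga1 (ι := Unit)).bound
  exact ⟨C, h0, fun z hz => by simpa using hC () z hz⟩

/-- The defect of log convexity. -/
theorem cv_eq (τ δ : ℝ) (z : E2) : RR τ δ 4 0 z * RR τ δ 2 0 z - RR τ δ 3 0 z ^ 2 =
    δ * es z * (dT kh z * (RR τ δ 2 0 z * RR τ δ 2 0 z) +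
      δ * (es z * (RR τ δ 2 0 z * dT (dT (RR τ δ 2 0)) z -
        dT (RR τ δ 2 0) z * dT (RR τ δ 2 0) z))) := by
  have hd := dT_sm (RR_sm (τ := τ) (δ := δ) 2 0)
  have e3 : RR τ δ 3 0 = A1 δ (RR τ δ 2 0) := RR_left 2 0
  have e4 : RR τ δ 4 0 = A1 δ (RR τ δ 3 0) := RR_left 3 0
  have l2 : dT (RR τ δ 3 0) z = dT kh z * RR τ δ 2 0 z + kh z * dT (RR τ δ 2 0) z +
      δ * (es z * dT (dT (RR τ δ 2 0)) z) := by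
    have e1 : A1 δ (RR τ δ 2 0) = fun z => kh z * RR τ δ 2 0 z +
      δ * (es z * dT (RR τ δ 2 0) z) := rfl
    rw [e3, e1, dT_add (kh_sm.mul (RR_sm 2 0)) (contDiff_const.mul (es_sm.mul hd)),
      dT_mul kh_sm (RR_sm 2 0), dT_mul contDiff_const (es_sm.mul hd), dT_mul es_sm hd, dT_es,
      dT_const]
    ring
  rw [e4, A1, l2, e3, A1]
  ring

theorem bd_cv : ∃ C : ℝ, 0 ≤ C ∧ ∀ τ δ : ℝ, 0 ≤ τ → τ ≤ 1 → 0 ≤ δ → δ ≤ 1 → ∀ z ∈ Om,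
    |RR τ δ 4 0 z * RR τ δ 2 0 z - RR τ δ 3 0 z ^ 2| ≤ C * (δ * es z * wm 2 (-1) z) := by
  have h20 : Sm Om hh (fun _ z => wm 2 (-1) z) fun i : Pm => RR i.t i.d 2 0 :=
    R2c Pm.ht Pm.hd 0 2 (by omega)
  have w0 : ∀ (_ : Pm), ∀ z ∈ Om, 0 ≤ wm 2 (-1) z := fun _ z _ => (wm_pos _ _ z).le
  have h1 := ((sm_kh (ι := Pm)).dT hh_pos).mul hh_pos (h20.mul hh_pos h20)
  have h1' := h1.mono (w' := fun _ z => wm 2 (-1) z) hh_pos 1 w0 fun i z _ => by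
    rw [wm_div, wm_mul, wm_mul, one_mul]
    have e : wm (2 - 1 + (2 + 2)) (-1 + (-1 + -1)) z = wm (2 + 2) (-2) z * wm 1 (-1) z := by
      rw [wm_mul]; norm_num
    rw [e]
    exact (mul_le_of_le_one_right (wm_pos _ _ z).le (wm_11 z)).trans (wm_hk 2 (-2) z)
  have h2 := (h20.mul hh_pos ((h20.dT hh_pos).dT hh_pos)).sub hh_pos
    (((h20.dT hh_pos).mul hh_pos (h20.dT hh_pos)).mono hh_pos 1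
      (fun i z _ => mul_nonneg (wm_pos _ _ z).le (by rw [wm_div, wm_div]; exact (wm_pos _ _ z).le))
      fun i z _ => by
        simp only [wm_div, wm_mul, one_mul]
        norm_num)
  have h3 := ((sm_es (ι := Pm)).mul hh_pos h2).smul hh_pos Pm.d
  have h3' := h3.mono (w' := fun _ z => wm 2 (-1) z) hh_pos 4 w0 fun i z hz => by
    have h4 : wm 2 (-1) z * (wm 2 (-1) z / hh z / hh z) = wm 2 (-1) z * wm 0 (-1) z := by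
      rw [wm_div, wm_div]; norm_num
    have h5 : wm 0 (-1) z ≤ 1 := by
      rw [← wm_zero z]; exact wm_up 0 (-1) z
    have h6 : wm 2 (-1) z * wm 0 (-1) z ≤ wm 2 (-1) z :=
      mul_le_of_le_one_right (wm_pos _ _ z).le h5
    have h7 := es_le_four hz
    have h8 := es_pos z
    have h9 : 0 ≤ wm 2 (-1) z * wm 0 (-1) z := mul_nonneg (wm_pos _ _ z).le (wm_pos _ _ z).le
    rw [h4]
    calc |i.d| * (es z * (wm 2 (-1) z * wm 0 (-1) z))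
        ≤ 1 * (es z * (wm 2 (-1) z * wm 0 (-1) z)) :=
          mul_le_mul_of_nonneg_right i.hd (mul_nonneg h8.le h9)
      _ = es z * (wm 2 (-1) z * wm 0 (-1) z) := one_mul _
      _ ≤ 4 * wm 2 (-1) z := mul_le_mul h7 h6 h9 (by norm_num)
  obtain ⟨C, h0, hC⟩ := bd_of (h1'.add h3')
  refine ⟨C, h0, fun τ δ a1 a2 a3 a4 z hz => ?_⟩
  have h5 := hC τ δ a1 a2 a3 a4 z hz
  rw [cv_eq, abs_mul, abs_of_nonneg (mul_nonneg a3 (es_pos z).le)]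
  have h6 := mul_le_mul_of_nonneg_left h5 (mul_nonneg a3 (es_pos z).le)
  calc _ ≤ δ * es z * (C * wm 2 (-1) z) := h6
    _ = C * (δ * es z * wm 2 (-1) z) := by ring

/-- `κ₀ ≤ κ̂`. -/
theorem wm_le_kh (z : E2) : wm 2 (-1) z ≤ kh z := by
  have h1 := An_ge z
  have h2 := k1_pos z
  have h3 : wm 2 (-1) z = wm 2 1 z * ((k1 z)⁻¹ * (k1 z)⁻¹) := by
    have : (k1 z)⁻¹ = wm 0 (-1) z := by simp [wm]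
    rw [this, wm_mul, wm_mul]; norm_num
  rw [h3, kh]
  exact mul_le_mul_of_nonneg_right h1 (by positivity)

theorem kh_le (z : E2) : kh z ≤ 9 / 8 := by
  have h2 := k1_pos z
  have h3 := aa_pos z.2
  have h4 := aa_le z.2
  have h5 : An z ≤ 9 / 8 * (k1 z * k1 z) := by
    rw [An_eq, k1]
    have : 9 / 8 * ((1 + z.1 ^ 2) * (1 + z.1 ^ 2)) -
      (z.1 ^ 4 + (3 - aa z.2) * z.1 ^ 2 + aa z.2) =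
      ((1 - aa z.2) * (z.1 ^ 2 - 3) ^ 2 + aa z.2 * (z.1 ^ 2 + 1) ^ 2) / 8 := by ring
    have h6 : 0 ≤ (1 - aa z.2) * (z.1 ^ 2 - 3) ^ 2 := mul_nonneg (by linarith) (sq_nonneg _)
    have h7 : 0 ≤ aa z.2 * (z.1 ^ 2 + 1) ^ 2 := by positivity
    linarith
  rw [kh, ← mul_inv, ← div_eq_mul_inv, div_le_iff₀ (by positivity)]
  exact h5

/-- `κ̂ ≤ 4 a` for `T² ≤ a`. -/
theorem kh_le_aa (z : E2) (h : z.1 ^ 2 ≤ aa z.2) : kh z ≤ 4 * aa z.2 := by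
  have h2 := k1_pos z
  have h3 := aa_pos z.2
  have h4 := aa_le z.2
  have h6 := one_le_k1 z
  have h5 : An z ≤ 4 * aa z.2 * (k1 z * k1 z) := by
    have h7 : An z ≤ 4 * aa z.2 := by
      rw [An_eq]
      nlinarith [sq_nonneg z.1]
    have h8 : 1 ≤ k1 z * k1 z := by nlinarith
    nlinarith
  rw [kh, ← mul_inv, ← div_eq_mul_inv, div_le_iff₀ (by positivity)]
  exact h5

end Vale.Agent.P088.R2.H768.W
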