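import Vale.Agent.P088.R2.H768.W.Rec

/-!
# Symbol classes of the derivatives of the slow-down
-/

open scoped ContDiff Topology
open Set Filter

noncomputable section

namespace Vale.Agent.P088.R2.H768.W

theorem es_pos (z : E2) : 0 < es z := Real.exp_pos _

theorem es_le_aa {z : E2} (hz : z ∈ Om) : es z ≤ 4 * aa z.2 ^ 2 := exp_le_aa hz

theorem es_le_four {z : E2} (hz : z ∈ Om) : es z ≤ 4 := by
  have h1 := es_le_aa hz
  have h2 := aa_le z.2
  have h3 := aa_pos z.2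
  nlinarith

theorem es_h {z : E2} (hz : z ∈ Om) : es z / hh z ≤ 4 * wm 2 (-1) z := by
  have h1 := es_le_aa hz
  have h2 := aa_le_wm' z
  have h3 := aa_le_h z
  have h4 := hh_pos z
  have h5 := aa_pos z.2
  have h6 := wm_pos 2 (-1) z
  rw [div_le_iff₀ h4]
  calc es z ≤ 4 * (aa z.2 * aa z.2) := by nlinarith
    _ ≤ 4 * (wm 2 (-1) z * hh z) :=
        mul_le_mul_of_nonneg_left (mul_le_mul h2 h3 h5.le h6.le) (by norm_num)
    _ = 4 * wm 2 (-1) z * hh z := by ring

theorem es_h2 {z : E2} (hz : z ∈ Om) : es z * wm (-2) 0 z ≤ 4 * aa z.2 := by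
  have h1 := es_le_aa hz
  have h2 := aa_le_wm z
  have h5 := aa_pos z.2
  have h6 := wm_pos (-2) 0 z
  have h7 : wm 2 0 z * wm (-2) 0 z = 1 := by rw [wm_mul, ← wm_zero z]; norm_num
  calc es z * wm (-2) 0 z ≤ 4 * aa z.2 ^ 2 * wm (-2) 0 z := mul_le_mul_of_nonneg_right h1 h6.le
    _ = 4 * aa z.2 * (aa z.2 * wm (-2) 0 z) := by ring
    _ ≤ 4 * aa z.2 * (wm 2 0 z * wm (-2) 0 z) :=
        mul_le_mul_of_nonneg_left (mul_le_mul_of_nonneg_right h2 h6.le) (by positivity)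
    _ = 4 * aa z.2 := by rw [h7, mul_one]

theorem es_h3 {z : E2} (hz : z ∈ Om) : es z * wm (-3) 0 z ≤ 4 := by
  have h1 := es_h2 hz
  have h3 := aa_le_h z
  have h4 := hh_pos z
  have h : wm (-3) 0 z = wm (-2) 0 z / hh z := by rw [wm_div]; norm_num
  rw [h, ← mul_div_assoc, div_le_iff₀ h4]
  linarith

section

variable {ι : Type} {w F : ι → E2 → ℝ} {τ δ : ι → ℝ}

theorem sm_es : Sm Om hh (fun (_ : ι) z => es z) fun _ z => es z := by
  have h := sm_exp (ι := ι) (-1)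
  have e : ∀ z : E2, Real.exp (-1 * z.2) = es z := fun z => by rw [es]; congr 1; ring
  simp only [e] at h
  exact h

theorem sm_dt (hF : Sm Om hh w F) : Sm Om hh (fun i z => es z * (w i z / hh z))
    fun i z => es z * dT (F i) z := sm_es.mul hh_pos (hF.dT hh_pos)

/-- `A₁ F - κ̂ F`. -/
theorem A1d (hF : Sm Om hh w F) : Sm Om hh (fun i z => |δ i| * (es z * (w i z / hh z)))
    fun i z => A1 (δ i) (F i) z - kh z * F i z :=
  ((sm_dt hF).smul hh_pos δ).congr fun i z => by rw [A1]; ring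

theorem A1d' (hF : Sm Om hh w F) : Sm Om hh (fun i z => |δ i| * (wm 2 (-1) z * w i z))
    fun i z => A1 (δ i) (F i) z - kh z * F i z :=
  (A1d hF).mono hh_pos 4 (fun i z hz => mul_nonneg (abs_nonneg _)
    (mul_nonneg (wm_pos 2 (-1) z).le (hF.w0 i z hz))) fun i z hz => by
      have h1 := es_h hz
      have h2 := hF.w0 i z hz
      have h3 : es z * (w i z / hh z) = es z / hh z * w i z := by ring
      rw [h3]
      calc |δ i| * (es z / hh z * w i z) ≤ |δ i| * (4 * wm 2 (-1) z * w i z) :=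
            mul_le_mul_of_nonneg_left (mul_le_mul_of_nonneg_right h1 h2) (abs_nonneg _)
        _ = 4 * (|δ i| * (wm 2 (-1) z * w i z)) := by ring

theorem A1c (hδ : ∀ i, |δ i| ≤ 1) (hF : Sm Om hh w F) :
    Sm Om hh (fun i z => wm 2 (-1) z * w i z) fun i => A1 (δ i) (F i) := by
  have h1 := (A1d' (δ := δ) hF).mono (w' := fun i z => wm 2 (-1) z * w i z) hh_pos 1
    (fun i z hz => mul_nonneg (wm_pos 2 (-1) z).le (hF.w0 i z hz)) fun i z hz => by
      have h2 := mul_nonneg (wm_pos 2 (-1) z).le (hF.w0 i z hz)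
      rw [one_mul]
      exact mul_le_of_le_one_left h2 (hδ i)
  exact ((sm_kh.mul hh_pos hF).add h1).congr fun i z => by ring

theorem A1c1 (hδ : ∀ i, |δ i| ≤ 1) (hF : Sm Om hh w F) :
    Sm Om hh w fun i => A1 (δ i) (F i) :=
  (A1c hδ hF).mono hh_pos 1 hF.w0 fun i z hz => by
    rw [one_mul]
    exact mul_le_of_le_one_left (hF.w0 i z hz) (wm_21 z)

theorem DDc (hF : Sm Om hh w F) : Sm Om hh w fun i => DD (F i) :=
  hF.dS.sub hh_pos ((sm_be.mul hh_pos (hF.dT hh_pos)).mono hh_pos 1 hF.w0 fun i z _ => by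
    have h := (hh_pos z).ne'
    have e : wm 1 0 z = hh z := by simp [wm]
    rw [e, one_mul, mul_div_assoc', mul_comm (hh z), mul_div_assoc, div_self h, mul_one])

/-- The second part of `A₂`. -/
theorem A2d (hF : Sm Om hh w F) :
    Sm Om hh (fun i z => |τ i * δ i| * (es z * w i z))
      fun i z => A2 (τ i) (δ i) (F i) z - τ i * ga z * A1 (δ i) (F i) z :=
  ((sm_es.mul hh_pos (DDc hF)).smul hh_pos fun i => τ i * δ i).congr fun i z => by
    rw [A2]; ring

theorem A2c (hδ : ∀ i, |δ i| ≤ 1) (hF : Sm Om hh w F) :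
    Sm Om hh (fun i z => |τ i| * w i z) fun i => A2 (τ i) (δ i) (F i) := by
  have h1 := ((sm_ga1.mul hh_pos (A1c1 hδ hF)).smul hh_pos τ)
  have h2 := (A2d (τ := τ) (δ := δ) hF).mono (w' := fun i z => |τ i| * (1 * w i z)) hh_pos 4
    (fun i z hz => mul_nonneg (abs_nonneg _) (mul_nonneg zero_le_one (hF.w0 i z hz)))
    fun i z hz => by
      have h3 := es_le_four hz
      have h4 := hF.w0 i z hz
      have h5 := es_pos z
      rw [abs_mul]
      calc |τ i| * |δ i| * (es z * w i z) ≤ |τ i| * 1 * (4 * w i z) := by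
            refine mul_le_mul (mul_le_mul_of_nonneg_left (hδ i) (abs_nonneg _))
              (mul_le_mul_of_nonneg_right h3 h4) (mul_nonneg h5.le h4)
              (mul_nonneg (abs_nonneg _) zero_le_one)
        _ = 4 * (|τ i| * (1 * w i z)) := by ring
  exact ((h1.add h2).mono hh_pos 1 (fun i z hz => mul_nonneg (abs_nonneg _) (hF.w0 i z hz))
    fun i z _ => by rw [one_mul, one_mul]).congr fun i z => by ring

/-! ### The classes -/

theorem R10c (_ : ∀ i, |δ i| ≤ 1) :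
    Sm Om hh (fun i _ => |δ i|) fun i z => RR (τ i) (δ i) 1 0 z - 1 := by
  have h := (sm_dt (sm_P1 (ι := ι))).smul hh_pos δ
  refine (h.mono hh_pos 4 (fun i z _ => abs_nonneg _) fun i z hz => ?_).congr fun i z => ?_
  · rw [wm_div]
    have := es_h3 hz
    calc |δ i| * (es z * wm (-2 - 1) 0 z) ≤ |δ i| * 4 :=
          mul_le_mul_of_nonneg_left (by norm_num; exact this) (abs_nonneg _)
      _ = 4 * |δ i| := by ring
  · rw [RR_left, RR_zero, A1, kh_Pp, ← dT_Pp]
    ring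

theorem R10 (hδ : ∀ i, |δ i| ≤ 1) : Sm Om hh (fun _ _ => 1) fun i => RR (τ i) (δ i) 1 0 :=
  (((R10c (τ := τ) hδ).mono hh_pos 1 (fun _ _ _ => zero_le_one) fun i _ _ => by
    rw [one_mul]; exact hδ i).add (Sm.one hh_pos 1)).congr fun i z => by ring

theorem Ri0 (hδ : ∀ i, |δ i| ≤ 1) : ∀ n : ℕ,
    Sm Om hh (fun _ z => wm (2 * n) (-n) z) fun i => RR (τ i) (δ i) (n + 1) 0
  | 0 => (R10 hδ).mono hh_pos 1 (fun _ z _ => (wm_pos _ _ z).le) fun i z _ => by
      rw [one_mul]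
      have := wm_zero z
      simp [this]
  | n + 1 => by
      have h := A1c hδ (Ri0 hδ n)
      refine (h.mono hh_pos 1 (fun _ z _ => (wm_pos _ _ z).le) fun i z _ => ?_).congr
        fun i z => ?_
      · rw [wm_mul, one_mul]
        push_cast
        apply le_of_eq
        congr 1 <;> ring
      · rw [RR_left (n + 1) 0]

theorem Ri01 (hδ : ∀ i, |δ i| ≤ 1) : ∀ n : ℕ,
    Sm Om hh (fun _ _ => 1) fun i => RR (τ i) (δ i) (n + 1) 0
  | 0 => R10 hδ
  | n + 1 => (A1c1 hδ (Ri01 hδ n)).congr fun i z => by rw [RR_left (n + 1) 0]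

theorem DD_P1 (z : E2) : DD Pp z = DD (fun z => Pp z - 1) z := by
  unfold DD
  rw [dS_Pp, dT_Pp]

theorem E01c : Sm Om hh (fun i z => |τ i * δ i| * aa z.2)
    fun i z => RR (τ i) (δ i) 0 1 z - τ i * ga z * RR (τ i) (δ i) 1 0 z := by
  have h := (sm_es.mul hh_pos (DDc (sm_P1 (ι := ι)))).smul hh_pos fun i => τ i * δ i
  refine (h.mono hh_pos 4 (fun i z _ => mul_nonneg (abs_nonneg _) (aa_pos z.2).le)
    fun i z hz => ?_).congr fun i z => ?_
  · have := es_h2 hz
    calc |τ i * δ i| * (es z * wm (-2) 0 z) ≤ |τ i * δ i| * (4 * aa z.2) :=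
          mul_le_mul_of_nonneg_left this (abs_nonneg _)
      _ = 4 * (|τ i * δ i| * aa z.2) := by ring
  · rw [RR_right, RR_left, RR_zero, A2, ← DD_P1]
    ring

theorem R01 (hδ : ∀ i, |δ i| ≤ 1) : Sm Om hh (fun i _ => |τ i|) fun i => RR (τ i) (δ i) 0 1 := by
  have h1 := ((sm_ga1.mul hh_pos (R10 (τ := τ) hδ)).smul hh_pos τ)
  have h2 := (E01c (τ := τ) (δ := δ)).mono (w' := fun i _ => |τ i| * (1 * 1)) hh_pos 1
    (fun i z _ => mul_nonneg (abs_nonneg _) (by norm_num)) fun i z _ => by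
      rw [abs_mul, one_mul, one_mul]
      calc |τ i| * |δ i| * aa z.2 ≤ |τ i| * 1 * 1 := by
            refine mul_le_mul (mul_le_mul_of_nonneg_left (hδ i) (abs_nonneg _)) (aa_le z.2)
              (aa_pos z.2).le (mul_nonneg (abs_nonneg _) zero_le_one)
        _ = |τ i| * 1 := by ring
  exact ((h1.add h2).mono hh_pos 1 (fun i z _ => abs_nonneg _)
    fun i z _ => by simp).congr fun i z => by ring

theorem Rj (hτ : ∀ i, |τ i| ≤ 1) (hδ : ∀ i, |δ i| ≤ 1) : ∀ m n : ℕ,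
    Sm Om hh (fun i _ => |τ i|) fun i => RR (τ i) (δ i) m (n + 1)
  | 0, 0 => R01 hδ
  | m + 1, 0 => (A1c1 hδ (Rj hτ hδ m 0)).congr fun i z => by rw [RR_left m 1]
  | m, n + 1 => ((A2c (τ := τ) hδ (Rj hτ hδ m n)).mono hh_pos 1 (fun i _ _ => abs_nonneg _)
      fun i z _ => by rw [one_mul]; exact mul_le_of_le_one_left (abs_nonneg _) (hτ i)).congr
        fun i z => by rw [RR_right m (n + 1)]

theorem Rij (hτ : ∀ i, |τ i| ≤ 1) (hδ : ∀ i, |δ i| ≤ 1) : ∀ m n : ℕ, 1 ≤ m + n →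
    Sm Om hh (fun _ _ => 1) fun i => RR (τ i) (δ i) m n
  | 0, 0, h => by omega
  | m + 1, 0, _ => Ri01 hδ m
  | m, n + 1, _ => (Rj hτ hδ m n).mono hh_pos 1 (fun _ _ _ => zero_le_one) fun i _ _ => by
      rw [one_mul]; exact hτ i

/-- `E_ij`. -/
def EE (τ δ : ℝ) (i j : ℕ) (z : E2) : ℝ := RR τ δ i j z - (τ * ga z) ^ j * RR τ δ (i + j) 0 z

theorem EE_zero (τ δ : ℝ) (i : ℕ) (z : E2) : EE τ δ i 0 z = 0 := by
  simp [EE]

theorem EE_succ (τ δ : ℝ) (i j : ℕ) (z : E2) : EE τ δ i (j + 1) z =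
    τ * δ * (es z * DD (RR τ δ i j) z) + τ * (ga z * EE τ δ (i + 1) j z) := by
  unfold EE
  rw [RR_right, A2, ← RR_left, show i + (j + 1) = i + 1 + j by ring]
  ring

theorem sm_zero {w : ι → E2 → ℝ} (w0 : ∀ i, ∀ z ∈ Om, 0 ≤ w i z) :
    Sm Om hh w fun _ _ => 0 :=
  ⟨w0, fun _ => contDiff_const, fun n => Sy.zero hh_pos n w0⟩

theorem EEc (hτ : ∀ i, |τ i| ≤ 1) (hδ : ∀ i, |δ i| ≤ 1) : ∀ n m : ℕ, 2 ≤ m + n →
    Sm Om hh (fun i z => |τ i * δ i| * (es z * 1)) fun i => EE (τ i) (δ i) m n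
  | 0, m, _ => (sm_zero fun i z _ => mul_nonneg (abs_nonneg _)
      (mul_nonneg (es_pos z).le zero_le_one)).congr fun i z => (EE_zero _ _ _ _).symm
  | n + 1, m, h => by
      have h1 := (sm_es.mul hh_pos (DDc (Rij (τ := τ) hτ hδ m n (by omega)))).smul hh_pos
        fun i => τ i * δ i
      have h2 := ((sm_ga1.mul hh_pos (EEc hτ hδ n (m + 1) (by omega))).smul hh_pos τ).mono
        (w' := fun i z => |τ i * δ i| * (es z * 1)) hh_pos 1
        (fun i z _ => mul_nonneg (abs_nonneg _) (mul_nonneg (es_pos z).le zero_le_one))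
        fun i z _ => by
          have h3 : 0 ≤ |τ i * δ i| * (es z * 1) :=
            mul_nonneg (abs_nonneg _) (mul_nonneg (es_pos z).le zero_le_one)
          rw [one_mul]
          exact mul_le_of_le_one_left h3 (hτ i)
      exact (h1.add h2).congr fun i z => (EE_succ (τ i) (δ i) m n z).symm

theorem E11c (hδ : ∀ i, |δ i| ≤ 1) :
    Sm Om hh (fun i z => |τ i * δ i| * (es z * |δ i|)) fun i => EE (τ i) (δ i) 1 1 := by
  have h1 := (sm_es.mul hh_pos (DDc (R10c (τ := τ) hδ))).smul hh_pos fun i => τ i * δ i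
  refine h1.congr fun i z => ?_
  rw [EE_succ, EE_zero]
  have e : DD (fun z => RR (τ i) (δ i) 1 0 z - 1) z = DD (RR (τ i) (δ i) 1 0) z := by
    unfold DD dS dT
    rw [fderiv_sub_const]
  rw [e]
  ring

theorem E02c (_ : ∀ i, |τ i| ≤ 1) (hδ : ∀ i, |δ i| ≤ 1) :
    Sm Om hh (fun i z => |τ i * δ i| * (es z * |τ i|)) fun i => EE (τ i) (δ i) 0 2 := by
  have w0 : ∀ (i : ι), ∀ z ∈ Om, 0 ≤ |τ i * δ i| * (es z * |τ i|) := fun i z _ =>
    mul_nonneg (abs_nonneg _) (mul_nonneg (es_pos z).le (abs_nonneg _))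
  have h1 := (sm_es.mul hh_pos (DDc (R01 (τ := τ) hδ))).smul hh_pos fun i => τ i * δ i
  have h2 := ((sm_ga1.mul hh_pos (E11c (τ := τ) hδ)).smul hh_pos τ).mono
    (w' := fun i z => |τ i * δ i| * (es z * |τ i|)) hh_pos 1 w0
    fun i z _ => by
      have h3 := w0 i z ‹_›
      rw [one_mul, one_mul]
      calc |τ i| * (|τ i * δ i| * (es z * |δ i|)) = |τ i * δ i| * (es z * |τ i|) * |δ i| := by ring
        _ ≤ |τ i * δ i| * (es z * |τ i|) * 1 := mul_le_mul_of_nonneg_left (hδ i) h3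
        _ = _ := mul_one _
  exact (h1.add h2).congr fun i z => (EE_succ (τ i) (δ i) 0 1 z).symm

theorem es_le_wm {z : E2} (hz : z ∈ Om) : es z ≤ 4 * wm 2 (-1) z := by
  have h1 := es_le_aa hz
  have h2 := aa_le_wm' z
  have h3 := aa_le z.2
  have h5 := aa_pos z.2
  nlinarith

theorem R2c (hτ : ∀ i, |τ i| ≤ 1) (hδ : ∀ i, |δ i| ≤ 1) : ∀ n m : ℕ, 2 ≤ m + n →
    Sm Om hh (fun _ z => wm 2 (-1) z) fun i => RR (τ i) (δ i) m n
  | 0, 0, h => by omega
  | 0, 1, h => by omega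
  | 0, 2, _ => (Ri0 hδ 1).mono hh_pos 1 (fun _ z _ => (wm_pos _ _ z).le) fun i z _ => by simp
  | 0, m + 3, _ => (A1c1 hδ (R2c hτ hδ 0 (m + 2) (by omega))).congr fun i z => by
      rw [RR_left (m + 2) 0]
  | 1, 0, h => by omega
  | 1, 1, _ => by
      have h20 : Sm Om hh (fun _ z => wm 2 (-1) z) fun i => RR (τ i) (δ i) 2 0 :=
        R2c hτ hδ 0 2 (by omega)
      have h1 := ((sm_ga1.mul hh_pos h20).smul hh_pos τ).mono
        (w' := fun _ z => wm 2 (-1) z) hh_pos 1 (fun _ z _ => (wm_pos _ _ z).le)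
        fun i z _ => by
          simp only [one_mul]
          exact mul_le_of_le_one_left (wm_pos _ _ z).le (hτ i)
      have h2 := (E11c (τ := τ) hδ).mono (w' := fun _ z => wm 2 (-1) z) hh_pos 4
        (fun _ z _ => (wm_pos _ _ z).le) fun i z hz => by
          have h3 := es_le_wm hz
          have h4 : |τ i * δ i| ≤ 1 := by
            rw [abs_mul]; exact mul_le_one₀ (hτ i) (abs_nonneg _) (hδ i)
          calc |τ i * δ i| * (es z * |δ i|) ≤ 1 * (es z * 1) :=
                mul_le_mul h4 (mul_le_mul_of_nonneg_left (hδ i) (es_pos z).le)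
                  (mul_nonneg (es_pos z).le (abs_nonneg _)) zero_le_one
            _ ≤ 4 * wm 2 (-1) z := by linarith
      exact (h1.add h2).congr fun i z => by rw [EE]; ring
  | 1, m + 2, _ => (A1c1 hδ (R2c hτ hδ 1 (m + 1) (by omega))).congr fun i z => by
      rw [RR_left (m + 1) 1]
  | 2, 0, _ => by
      have h20 : Sm Om hh (fun _ z => wm 2 (-1) z) fun i => RR (τ i) (δ i) 2 0 :=
        R2c hτ hδ 0 2 (by omega)
      have h1 := ((sm_ga1.mul hh_pos ((sm_ga1.mul hh_pos h20).smul hh_pos τ)).smul hh_pos τ).mono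
        (w' := fun _ z => wm 2 (-1) z) hh_pos 1 (fun _ z _ => (wm_pos _ _ z).le)
        fun i z _ => by
          simp only [one_mul]
          exact (mul_le_of_le_one_left (mul_nonneg (abs_nonneg _) (wm_pos _ _ z).le) (hτ i)).trans
            (mul_le_of_le_one_left (wm_pos _ _ z).le (hτ i))
      have h2 := (E02c (τ := τ) hτ hδ).mono (w' := fun _ z => wm 2 (-1) z) hh_pos 4
        (fun _ z _ => (wm_pos _ _ z).le) fun i z hz => by
          have h3 := es_le_wm hz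
          have h4 : |τ i * δ i| ≤ 1 := by
            rw [abs_mul]; exact mul_le_one₀ (hτ i) (abs_nonneg _) (hδ i)
          calc |τ i * δ i| * (es z * |τ i|) ≤ 1 * (es z * 1) :=
                mul_le_mul h4 (mul_le_mul_of_nonneg_left (hτ i) (es_pos z).le)
                  (mul_nonneg (es_pos z).le (abs_nonneg _)) zero_le_one
            _ ≤ 4 * wm 2 (-1) z := by linarith
      exact (h1.add h2).congr fun i z => by rw [EE]; ring
  | 2, m + 1, _ => (A1c1 hδ (R2c hτ hδ 2 m (by omega))).congr fun i z => by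
      rw [RR_left m 2]
  | n + 3, m, _ => ((A2c (τ := τ) hδ (R2c hτ hδ (n + 2) m (by omega))).mono hh_pos 1
      (fun _ z _ => (wm_pos _ _ z).le) fun i z _ => by
        rw [one_mul]; exact mul_le_of_le_one_left (wm_pos _ _ z).le (hτ i)).congr
        fun i z => by rw [RR_right m (n + 2)]

theorem E3c (hτ : ∀ i, |τ i| ≤ 1) (hδ : ∀ i, |δ i| ≤ 1) : ∀ n m : ℕ, 3 ≤ m + n →
    Sm Om hh (fun i z => |τ i * δ i| * (es z * wm 2 (-1) z)) fun i => EE (τ i) (δ i) m n
  | 0, m, _ => (sm_zero fun i z _ => mul_nonneg (abs_nonneg _)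
      (mul_nonneg (es_pos z).le (wm_pos _ _ z).le)).congr fun i z => (EE_zero _ _ _ _).symm
  | n + 1, m, h => by
      have h1 := (sm_es.mul hh_pos (DDc (R2c (τ := τ) hτ hδ n m (by omega)))).smul hh_pos
        fun i => τ i * δ i
      have w0 : ∀ (i : ι), ∀ z ∈ Om, 0 ≤ |τ i * δ i| * (es z * wm 2 (-1) z) :=
        fun i z _ => mul_nonneg (abs_nonneg _) (mul_nonneg (es_pos z).le (wm_pos _ _ z).le)
      have h2 := ((sm_ga1.mul hh_pos (E3c hτ hδ n (m + 1) (by omega))).smul hh_pos τ).mono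
        (w' := fun i z => |τ i * δ i| * (es z * wm 2 (-1) z)) hh_pos 1 w0
        fun i z hz => by
          simp only [one_mul]
          exact mul_le_of_le_one_left (w0 i z hz) (hτ i)
      exact (h1.add h2).congr fun i z => (EE_succ (τ i) (δ i) m n z).symm

end

end Vale.Agent.P088.R2.H768.W
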