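import Vale.Agent.P088.R2.H768.W.Bnd

/-!
# Pointwise facts about the slow-down in the variables `(T, s)`
-/

open scoped ContDiff Topology
open Set Filter

noncomputable section

namespace Vale.Agent.P088.R2.H768.W

theorem bd_Ri0 (n : ℕ) (h : 3 ≤ n) : ∃ C : ℝ, 0 ≤ C ∧ ∀ τ δ : ℝ, 0 ≤ τ → τ ≤ 1 → 0 ≤ δ →
    δ ≤ 1 → ∀ z ∈ Om, |RR τ δ n 0 z| ≤ C * (wm 2 (-1) z * wm 2 (-1) z) := by
  have h20 : Sm Om hh (fun _ z => wm 2 (-1) z) fun i : Pm => RR i.t i.d 2 0 :=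
    R2c Pm.ht Pm.hd 0 2 (by omega)
  have key : ∀ k : ℕ, Sm Om hh (fun _ z => wm 2 (-1) z * wm 2 (-1) z)
      fun i : Pm => RR i.t i.d (k + 3) 0 := by
    intro k
    induction k with
    | zero => exact (A1c Pm.hd h20).congr fun i z => by rw [RR_left 2 0]
    | succ k ih => exact (A1c1 Pm.hd ih).congr fun i z => by rw [RR_left (k + 3) 0]
  obtain ⟨k, rfl⟩ : ∃ k, n = k + 3 := ⟨n - 3, by omega⟩
  obtain ⟨C, h0, hC⟩ := bd_of (key k)
  exact ⟨C, h0, fun τ δ h1 h2 h3 h4 z hz => hC τ δ h1 h2 h3 h4 z hz⟩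

/-- The facts at a point. -/
structure Cor (C : ℝ) (Cb : ℕ → ℕ → ℝ) (τ δ : ℝ) (w : E2) : Prop where
  a : |RR τ δ 1 0 w - 1| ≤ C * δ
  b : |RR τ δ 2 0 w - kh w * RR τ δ 1 0 w| ≤ C * (δ * wm 2 (-1) w)
  c : |RR τ δ 3 0 w - kh w * RR τ δ 2 0 w| ≤ C * (δ * (wm 2 (-1) w * wm 2 (-1) w))
  d : |RR τ δ 0 1 w| ≤ C * τ
  e11 : |EE τ δ 1 1 w| ≤ C * (τ * δ * es w * δ)
  e02 : |EE τ δ 0 2 w| ≤ C * (τ * δ * es w * τ)
  g : |ga w| ≤ C
  v : |RR τ δ 4 0 w * RR τ δ 2 0 w - RR τ δ 3 0 w ^ 2| ≤ C * (δ * es w * wm 2 (-1) w)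
  r : ∀ m n, 1 ≤ m + n → |RR τ δ m n w| ≤ Cb m n
  r2 : ∀ m n, 2 ≤ m + n → |RR τ δ m n w| ≤ Cb m n * wm 2 (-1) w
  r3 : ∀ n, 3 ≤ n → |RR τ δ n 0 w| ≤ Cb n 0 * (wm 2 (-1) w * wm 2 (-1) w)
  e3 : ∀ m n, 3 ≤ m + n → |EE τ δ m n w| ≤ Cb m n * (τ * δ * es w * wm 2 (-1) w)

theorem cor : ∃ (C : ℝ) (Cb : ℕ → ℕ → ℝ), 1 ≤ C ∧ (∀ m n, 0 ≤ Cb m n) ∧ ∀ τ δ : ℝ, 0 ≤ τ →
    τ ≤ 1 → 0 ≤ δ → δ ≤ 1 → ∀ w ∈ Om, Cor C Cb τ δ w := by
  obtain ⟨C1, c1, h1⟩ := bd_R1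
  obtain ⟨C2, c2, h2⟩ := bd_R2'
  obtain ⟨C3, c3, h3⟩ := bd_R3
  obtain ⟨C4, c4, h4⟩ := bd_R01
  obtain ⟨C5, c5, h5⟩ := bd_E11
  obtain ⟨C6, c6, h6⟩ := bd_E02
  obtain ⟨C7, c7, h7⟩ := bd_ga
  obtain ⟨C8, c8, h8⟩ := bd_cv
  choose D1 d1 k1' using bd_R
  choose D2 d2 k2 using bd_R2
  choose D3 d3 k3 using bd_Ri0
  choose D4 d4 k4 using bd_E3
  set C : ℝ := 1 + C1 + C2 + C3 + C4 + C5 + C6 + C7 + C8 with hC
  set Cb : ℕ → ℕ → ℝ := fun m n => (if h : 1 ≤ m + n then D1 m n h else 0) +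
    (if h : 2 ≤ m + n then D2 m n h else 0) + (if h : 3 ≤ m then D3 m h else 0) +
    (if h : 3 ≤ m + n then D4 m n h else 0) with hCb
  have p1 : ∀ m n, 0 ≤ (if h : 1 ≤ m + n then D1 m n h else 0) := fun m n => by
    split_ifs with h
    · exact d1 m n h
    · exact le_rfl
  have p2 : ∀ m n, 0 ≤ (if h : 2 ≤ m + n then D2 m n h else 0) := fun m n => by
    split_ifs with h
    · exact d2 m n h
    · exact le_rfl
  have p3 : ∀ m, 0 ≤ (if h : 3 ≤ m then D3 m h else 0) := fun m => by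
    split_ifs with h
    · exact d3 m h
    · exact le_rfl
  have p4 : ∀ m n, 0 ≤ (if h : 3 ≤ m + n then D4 m n h else 0) := fun m n => by
    split_ifs with h
    · exact d4 m n h
    · exact le_rfl
  have q1 : ∀ m n (h : 1 ≤ m + n), D1 m n h ≤ Cb m n := fun m n h => by
    have := p2 m n; have := p3 m; have := p4 m n
    simp only [hCb, dif_pos h]; linarith
  have q2 : ∀ m n (h : 2 ≤ m + n), D2 m n h ≤ Cb m n := fun m n h => by
    have := p1 m n; have := p3 m; have := p4 m n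
    simp only [hCb, dif_pos h]; linarith
  have q3 : ∀ m n (h : 3 ≤ m), D3 m h ≤ Cb m n := fun m n h => by
    have := p1 m n; have := p2 m n; have := p4 m n
    simp only [hCb, dif_pos h]; linarith
  have q4 : ∀ m n (h : 3 ≤ m + n), D4 m n h ≤ Cb m n := fun m n h => by
    have := p1 m n; have := p2 m n; have := p3 m
    simp only [hCb, dif_pos h]; linarith
  refine ⟨C, Cb, by linarith, fun m n => ?_, fun τ δ a1 a2 a3 a4 w hw => ?_⟩
  · have := p1 m n; have := p2 m n; have := p3 m; have := p4 m n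
    simp only [hCb]; linarith
  have hw0 := (wm_pos 2 (-1) w).le
  have he := (es_pos w).le
  exact {
    a := (h1 τ δ a1 a2 a3 a4 w hw).trans (mul_le_mul_of_nonneg_right (by linarith) a3)
    b := (h2 τ δ a1 a2 a3 a4 w hw).trans (mul_le_mul_of_nonneg_right (by linarith) (by positivity))
    c := (h3 τ δ a1 a2 a3 a4 w hw).trans (mul_le_mul_of_nonneg_right (by linarith) (by positivity))
    d := (h4 τ δ a1 a2 a3 a4 w hw).trans (mul_le_mul_of_nonneg_right (by linarith) a1)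
    e11 := (h5 τ δ a1 a2 a3 a4 w hw).trans
      (mul_le_mul_of_nonneg_right (by linarith) (by positivity))
    e02 := (h6 τ δ a1 a2 a3 a4 w hw).trans
      (mul_le_mul_of_nonneg_right (by linarith) (by positivity))
    g := (h7 w hw).trans (by linarith)
    v := (h8 τ δ a1 a2 a3 a4 w hw).trans
      (mul_le_mul_of_nonneg_right (by linarith) (by positivity))
    r := fun m n h => (k1' m n h τ δ a1 a2 a3 a4 w hw).trans (q1 m n h)
    r2 := fun m n h => (k2 m n h τ δ a1 a2 a3 a4 w hw).trans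
      (mul_le_mul_of_nonneg_right (q2 m n h) hw0)
    r3 := fun n h => (k3 n h τ δ a1 a2 a3 a4 w hw).trans
      (mul_le_mul_of_nonneg_right (q3 n 0 h) (by positivity))
    e3 := fun m n h => (k4 m n h τ δ a1 a2 a3 a4 w hw).trans
      (mul_le_mul_of_nonneg_right (q4 m n h) (by positivity)) }

section

variable {C : ℝ} {Cb : ℕ → ℕ → ℝ} {τ δ : ℝ} {w : E2}

theorem Cor.R10_ge (h : Cor C Cb τ δ w) {ε : ℝ} (hs : C * δ ≤ ε) :
    1 - ε ≤ RR τ δ 1 0 w ∧ RR τ δ 1 0 w ≤ 1 + ε := by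
  have := abs_le.1 (h.a.trans hs)
  constructor <;> linarith [this.1, this.2]

theorem Cor.R20_ge (h : Cor C Cb τ δ w) {ε : ℝ} (hs : C * δ ≤ ε) :
    kh w * RR τ δ 1 0 w - ε * wm 2 (-1) w ≤ RR τ δ 2 0 w ∧
      RR τ δ 2 0 w ≤ kh w * RR τ δ 1 0 w + ε * wm 2 (-1) w := by
  have h1 : C * (δ * wm 2 (-1) w) ≤ ε * wm 2 (-1) w := by
    rw [← mul_assoc]; exact mul_le_mul_of_nonneg_right hs (wm_pos _ _ w).le
  have := abs_le.1 (h.b.trans h1)
  constructor <;> linarith [this.1, this.2]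

theorem Cor.R20_lo (h : Cor C Cb τ δ w) (hs : C * δ ≤ 1 / 100) :
    wm 2 (-1) w ≤ 2 * RR τ δ 2 0 w := by
  have h1 := h.R10_ge hs
  have h2 := h.R20_ge hs
  have h3 := wm_le_kh w
  have h4 := wm_pos 2 (-1) w
  nlinarith [h1.1, h2.1, h1.2]

theorem Cor.R20_pos (h : Cor C Cb τ δ w) (hs : C * δ ≤ 1 / 100) : 0 < RR τ δ 2 0 w := by
  have := h.R20_lo hs
  have h4 := wm_pos 2 (-1) w
  linarith

/-- `κ ≤ 6/5`, and more precisely `κ ≤ (1 + 3 / 100) κ̂`. -/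
theorem Cor.kap_le (h : Cor C Cb τ δ w) (hs : C * δ ≤ 1 / 100) :
    RR τ δ 2 0 w ≤ 103 / 100 * kh w * RR τ δ 1 0 w := by
  have h1 := h.R10_ge hs
  have h2 := h.R20_ge hs
  have h3 := wm_le_kh w
  have h4 := kh_pos w
  have h5 : 1 / 100 * wm 2 (-1) w ≤ 3 / 100 * kh w * RR τ δ 1 0 w := by
    nlinarith [h1.1, h1.2]
  linarith [h2.2]

theorem Cor.kap_ge (h : Cor C Cb τ δ w) (hs : C * δ ≤ 1 / 100) :
    1 / 2 * aa w.2 * RR τ δ 1 0 w ≤ RR τ δ 2 0 w := by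
  have h1 := h.R10_ge hs
  have h2 := h.R20_lo hs
  have h3 := aa_le_wm' w
  have h4 := aa_pos w.2
  have h6 := h.R20_ge hs
  have h7 := wm_le_kh w
  have h8 := wm_pos 2 (-1) w
  nlinarith [h1.1, h1.2, h6.1]

theorem Cor.R30_nn (h : Cor C Cb τ δ w) (hs : C * δ ≤ 1 / 100) : 0 ≤ RR τ δ 3 0 w := by
  have h1 := h.R20_lo hs
  have h2 := wm_le_kh w
  have h3 := wm_pos 2 (-1) w
  have h4 := (abs_le.1 h.c).1
  have h5 : C * (δ * (wm 2 (-1) w * wm 2 (-1) w)) ≤ 1 / 100 * (wm 2 (-1) w * wm 2 (-1) w) := by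
    rw [← mul_assoc]; exact mul_le_mul_of_nonneg_right hs (by positivity)
  have h6 : wm 2 (-1) w * (1 / 2 * wm 2 (-1) w) ≤ kh w * RR τ δ 2 0 w :=
    mul_le_mul h2 (by linarith) (by positivity) (kh_pos w).le
  have h7 : 0 < wm 2 (-1) w * wm 2 (-1) w := mul_pos h3 h3
  linarith

theorem Cor.R30_le (h : Cor C Cb τ δ w) (hs : C * δ ≤ 1 / 100) :
    RR τ δ 3 0 w ≤ 6 / 5 * RR τ δ 2 0 w := by
  have h1 := h.R20_lo hs
  have h2 := kh_le w
  have h3 := wm_pos 2 (-1) w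
  have h4 := (abs_le.1 h.c).2
  have h0 := h.R20_pos hs
  have h5 : C * (δ * (wm 2 (-1) w * wm 2 (-1) w)) ≤ 1 / 100 * (wm 2 (-1) w * 1) := by
    rw [← mul_assoc]
    exact mul_le_mul hs (mul_le_mul_of_nonneg_left (wm_21 w) h3.le) (by positivity) (by norm_num)
  have h6 : kh w * RR τ δ 2 0 w ≤ 9 / 8 * RR τ δ 2 0 w := mul_le_mul_of_nonneg_right h2 h0.le
  linarith

/-- `|D11| ≤ C τ D20`. -/
theorem Cor.om (h : Cor C Cb τ δ w) (hw : w ∈ Om) (h0 : 0 ≤ C) (a1 : 0 ≤ τ) (a3 : 0 ≤ δ)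
    (a4 : δ ≤ 1) (hs : C * δ ≤ 1 / 100) :
    |RR τ δ 1 1 w| ≤ 9 * C * τ * RR τ δ 2 0 w := by
  have e : RR τ δ 1 1 w = τ * ga w * RR τ δ 2 0 w + EE τ δ 1 1 w := by
    unfold EE; ring
  have h2 := h.R20_lo hs
  have h3 := h.R20_pos hs
  have h4 := es_le_wm hw
  have h5 := es_pos w
  rw [e]
  calc |τ * ga w * RR τ δ 2 0 w + EE τ δ 1 1 w|
      ≤ |τ * ga w * RR τ δ 2 0 w| + |EE τ δ 1 1 w| := abs_add_le _ _
    _ ≤ τ * C * RR τ δ 2 0 w + C * τ * (8 * RR τ δ 2 0 w) := by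
        refine add_le_add ?_ (h.e11.trans ?_)
        · rw [abs_mul, abs_mul, abs_of_nonneg a1, abs_of_pos h3]
          exact mul_le_mul_of_nonneg_right (mul_le_mul_of_nonneg_left h.g a1) h3.le
        · have h6 : τ * δ * es w * δ ≤ τ * (8 * RR τ δ 2 0 w) := by
            have h7 : δ * es w * δ ≤ 8 * RR τ δ 2 0 w := by
              have h8 : δ * δ ≤ 1 := by nlinarith
              calc δ * es w * δ = δ * δ * es w := by ring
                _ ≤ 1 * es w := mul_le_mul_of_nonneg_right h8 h5.le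
                _ ≤ 8 * RR τ δ 2 0 w := by linarith
            calc τ * δ * es w * δ = τ * (δ * es w * δ) := by ring
              _ ≤ _ := mul_le_mul_of_nonneg_left h7 a1
          calc C * (τ * δ * es w * δ) ≤ C * (τ * (8 * RR τ δ 2 0 w)) :=
                mul_le_mul_of_nonneg_left h6 h0
            _ = _ := by ring
    _ = 9 * C * τ * RR τ δ 2 0 w := by ring

/-- `D02 D20 - D11²`. -/
theorem Cor.s0 (h : Cor C Cb τ δ w) (hw : w ∈ Om) (h0 : 1 ≤ C) (a1 : 0 ≤ τ) (a3 : 0 ≤ δ)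
    (a4 : δ ≤ 1) (hs : C * δ ≤ 1 / 100) :
    |RR τ δ 0 2 w * RR τ δ 2 0 w - RR τ δ 1 1 w ^ 2| ≤
      11 * C ^ 2 * τ * (τ * δ * es w) * RR τ δ 2 0 w := by
  have h2 := h.R20_lo hs
  have h3 := h.R20_pos hs
  have h4 := es_le_wm hw
  have h5 := es_pos w
  have e : RR τ δ 0 2 w * RR τ δ 2 0 w - RR τ δ 1 1 w ^ 2 =
      EE τ δ 0 2 w * RR τ δ 2 0 w - (τ * ga w * RR τ δ 2 0 w + RR τ δ 1 1 w) * EE τ δ 1 1 w := by
    unfold EE; ring
  have hom := h.om hw (by linarith) a1 a3 a4 hs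
  have hρ : 0 ≤ τ * δ * es w := by positivity
  have h6 : |τ * ga w * RR τ δ 2 0 w + RR τ δ 1 1 w| ≤ 10 * C * τ * RR τ δ 2 0 w := by
    calc _ ≤ |τ * ga w * RR τ δ 2 0 w| + |RR τ δ 1 1 w| := abs_add_le _ _
      _ ≤ τ * C * RR τ δ 2 0 w + 9 * C * τ * RR τ δ 2 0 w := by
          refine add_le_add ?_ hom
          rw [abs_mul, abs_mul, abs_of_nonneg a1, abs_of_pos h3]
          exact mul_le_mul_of_nonneg_right (mul_le_mul_of_nonneg_left h.g a1) h3.le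
      _ = _ := by ring
  rw [e]
  calc _ ≤ |EE τ δ 0 2 w * RR τ δ 2 0 w| +
        |(τ * ga w * RR τ δ 2 0 w + RR τ δ 1 1 w) * EE τ δ 1 1 w| := abs_sub _ _
    _ ≤ C * (τ * δ * es w * τ) * RR τ δ 2 0 w +
        10 * C * τ * RR τ δ 2 0 w * (C * (τ * δ * es w)) := by
        rw [abs_mul, abs_mul, abs_of_pos h3]
        refine add_le_add (mul_le_mul_of_nonneg_right h.e02 h3.le)
          (mul_le_mul h6 (h.e11.trans ?_) (abs_nonneg _) (by positivity))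
        exact mul_le_mul_of_nonneg_left (mul_le_of_le_one_right hρ a4) (by linarith)
    _ = (C + 10 * C ^ 2) * (τ * (τ * δ * es w) * RR τ δ 2 0 w) := by ring
    _ ≤ (11 * C ^ 2) * (τ * (τ * δ * es w) * RR τ δ 2 0 w) :=
        mul_le_mul_of_nonneg_right (by nlinarith) (by positivity)
    _ = _ := by ring

/-- The third and higher derivatives. -/
theorem Cor.hij (h : Cor C Cb τ δ w) (hb : ∀ m n, 0 ≤ Cb m n) (hw : w ∈ Om) (h0 : 1 ≤ C)
    (a1 : 0 ≤ τ) (a2 : τ ≤ 1) (a3 : 0 ≤ δ) (a4 : δ ≤ 1) (hs : C * δ ≤ 1 / 100) (m n : ℕ)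
    (hmn : 3 ≤ m + n) :
    |RR τ δ m n w - RR τ δ (m + n) 0 w * (RR τ δ 1 1 w / RR τ δ 2 0 w) ^ n| ≤
      (2 * Cb m n + 4 * C * n * (9 * C) ^ n * Cb (m + n) 0) * (τ * δ * es w) * RR τ δ 2 0 w := by
  have h2 := h.R20_lo hs
  have h3 := h.R20_pos hs
  have h5 := es_pos w
  have hρ : 0 ≤ τ * δ * es w := by positivity
  have hw0 := wm_pos 2 (-1) w
  have hom := h.om hw (by linarith) a1 a3 a4 hs
  have e : RR τ δ m n w - RR τ δ (m + n) 0 w * (RR τ δ 1 1 w / RR τ δ 2 0 w) ^ n =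
      EE τ δ m n w + RR τ δ (m + n) 0 w *
        ((τ * ga w) ^ n - (RR τ δ 1 1 w / RR τ δ 2 0 w) ^ n) := by
    unfold EE; ring
  have e1 : τ * ga w - RR τ δ 1 1 w / RR τ δ 2 0 w = -(EE τ δ 1 1 w / RR τ δ 2 0 w) := by
    unfold EE
    field_simp
    ring
  have h7 : |τ * ga w - RR τ δ 1 1 w / RR τ δ 2 0 w| ≤ C * (τ * δ * es w) / RR τ δ 2 0 w := by
    rw [e1, abs_neg, abs_div, abs_of_pos h3]
    refine div_le_div_of_nonneg_right (h.e11.trans ?_) h3.le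
    exact mul_le_mul_of_nonneg_left (mul_le_of_le_one_right hρ a4) (by linarith)
  have h8 : |τ * ga w| ≤ 9 * C := by
    rw [abs_mul, abs_of_nonneg a1]
    have := h.g
    have h9 := abs_nonneg (ga w)
    nlinarith
  have h9 : |RR τ δ 1 1 w / RR τ δ 2 0 w| ≤ 9 * C := by
    rw [abs_div, abs_of_pos h3, div_le_iff₀ h3]
    refine hom.trans (mul_le_mul_of_nonneg_right ?_ h3.le)
    nlinarith
  have h10 : |(τ * ga w) ^ n - (RR τ δ 1 1 w / RR τ δ 2 0 w) ^ n| ≤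
      C * (τ * δ * es w) / RR τ δ 2 0 w * n * (9 * C) ^ n := by
    refine (abs_pow_sub_pow_le _ _ n).trans ?_
    have h11 : (max |τ * ga w| |RR τ δ 1 1 w / RR τ δ 2 0 w|) ^ (n - 1) ≤ (9 * C) ^ n := by
      refine (pow_le_pow_left₀ (le_max_of_le_left (abs_nonneg _)) (max_le h8 h9) _).trans ?_
      exact pow_le_pow_right₀ (by linarith) (by omega)
    have h12 : 0 ≤ C * (τ * δ * es w) / RR τ δ 2 0 w := by positivity
    exact mul_le_mul (mul_le_mul_of_nonneg_right h7 (Nat.cast_nonneg n)) h11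
      (pow_nonneg (le_max_of_le_left (abs_nonneg _)) _) (by positivity)
  have h13 := h.e3 m n hmn
  have h14 := h.r3 (m + n) hmn
  rw [e]
  calc _ ≤ |EE τ δ m n w| + |RR τ δ (m + n) 0 w *
        ((τ * ga w) ^ n - (RR τ δ 1 1 w / RR τ δ 2 0 w) ^ n)| := abs_add_le _ _
    _ ≤ Cb m n * (τ * δ * es w * wm 2 (-1) w) + Cb (m + n) 0 * (wm 2 (-1) w * wm 2 (-1) w) *
        (C * (τ * δ * es w) / RR τ δ 2 0 w * n * (9 * C) ^ n) := by
        rw [abs_mul]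
        refine add_le_add h13 (mul_le_mul h14 h10 (abs_nonneg _) ?_)
        have := hb (m + n) 0
        positivity
    _ ≤ Cb m n * (τ * δ * es w * (2 * RR τ δ 2 0 w)) + Cb (m + n) 0 *
        (2 * RR τ δ 2 0 w * (2 * RR τ δ 2 0 w)) *
        (C * (τ * δ * es w) / RR τ δ 2 0 w * n * (9 * C) ^ n) := by
        have b1 := hb (m + n) 0
        have b2 := hb m n
        refine add_le_add (mul_le_mul_of_nonneg_left (mul_le_mul_of_nonneg_left h2 hρ) b2)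
          (mul_le_mul_of_nonneg_right (mul_le_mul_of_nonneg_left
            (mul_le_mul h2 h2 hw0.le (by positivity)) b1) (by positivity))
    _ = _ := by
        field_simp
        ring

end

end Vale.Agent.P088.R2.H768.W
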