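import Vale.Agent.P088.R2.H768.W.Slow

/-!
# Existence of the slow-down
-/

open scoped ContDiff Topology
open Set Filter

noncomputable section

namespace Vale.Agent.P088.R2.H768.W

/-- The constants of `IsSlow`. -/
def Cb2 (C : ℝ) (Cb : ℕ → ℕ → ℝ) (m n : ℕ) : ℝ :=
  1 + 2 * Cb m n + (2 * Cb m n + 4 * C * n * (9 * C) ^ n * Cb (m + n) 0)

section

variable {C : ℝ} {Cb : ℕ → ℕ → ℝ} {ε N c' τ r₁ L : ℝ}

theorem mem_Om (hr : 0 < r₁) {z : E2} (hz : 0 < z.2) (h : r₁ * Real.exp (-1) ≤ z.2) :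
    Zc τ r₁ z ∈ Om := by
  by_contra h1
  have h2 : (Zc τ r₁ z).2 < -1 := not_le.1 h1
  exact absurd ((in_or hr hz).1 h2) (not_lt.2 h)

theorem Cb2_ge1 (hC : 1 ≤ C) (hCb : ∀ m n, 0 ≤ Cb m n) (m n : ℕ) : 1 ≤ Cb2 C Cb m n := by
  have h1 := hCb m n
  have h2 := hCb (m + n) 0
  have h3 : 0 ≤ 4 * C * n * (9 * C) ^ n * Cb (m + n) 0 := by positivity
  unfold Cb2; linarith

theorem Cb2_ge2 (hC : 1 ≤ C) (hCb : ∀ m n, 0 ≤ Cb m n) (m n : ℕ) :
    2 * Cb m n ≤ Cb2 C Cb m n := by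
  have h1 := hCb m n
  have h2 := hCb (m + n) 0
  have h3 : 0 ≤ 4 * C * n * (9 * C) ^ n * Cb (m + n) 0 := by positivity
  unfold Cb2; linarith

theorem Cb2_ge3 (hCb : ∀ m n, 0 ≤ Cb m n) (m n : ℕ) :
    2 * Cb m n + 4 * C * n * (9 * C) ^ n * Cb (m + n) 0 ≤ Cb2 C Cb m n := by
  have h1 := hCb m n
  unfold Cb2; linarith

theorem slow_of (hC : 1 ≤ C) (hCb : ∀ m n, 0 ≤ Cb m n)
    (hcor : ∀ τ δ : ℝ, 0 ≤ τ → τ ≤ 1 → 0 ≤ δ → δ ≤ 1 → ∀ w ∈ Om, Cor C Cb τ δ w)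
    (hε : 0 < ε) (hτ : 0 < τ) (hτ1 : 12 * C ^ 2 * τ ≤ ε) (hτ2 : τ ≤ 1) (hr : 0 < r₁)
    (hd1 : C * dl τ r₁ ≤ 1 / 100) (hd2 : 4 * C * dl τ r₁ ≤ ε) (hc : 0 < c') (hL : 4 ≤ L)
    (hN : N = Real.exp L) (hr1 : r₁ = c' * N / 2) (hB : 4 * L ≤ τ * r₁)
    (hcv : 3 * C ≤ ε * N * τ) :
    IsSlow ε N c' τ r₁ (Cb2 C Cb) (uu τ r₁) (Dp τ r₁) := by
  have hdl : 0 < dl τ r₁ := inv_pos.2 (mul_pos hτ hr)
  have hdl1 : dl τ r₁ ≤ 1 := by nlinarith
  have cr : ∀ {z : E2}, 0 < z.2 → r₁ * Real.exp (-1) ≤ z.2 →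
      Zc τ r₁ z ∈ Om ∧ Cor C Cb τ (dl τ r₁) (Zc τ r₁ z) := fun {z} hz h =>
    ⟨mem_Om hr hz h, hcor τ (dl τ r₁) hτ.le hτ2 hdl.le hdl1 _ (mem_Om hr hz h)⟩
  have hE : ∀ z, 0 < Real.exp (uu τ r₁ z) := fun z => Real.exp_pos _
  have hG0 : ∀ z : E2, 0 < z.2 → 0 < Dp τ r₁ 1 0 z := by
    intro z hz
    rcases lt_or_ge z.2 (r₁ * Real.exp (-1)) with h | h
    · rw [Dp_in hτ hr _ _ hz h]; simp [Real.exp_pos]
    · have h1 := ((cr hz h).2.R10_ge hd1).1
      exact mul_pos (hE z) (by linarith)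
  have hg0 : ∀ z : E2, 0 < z.2 → 0 < Dp τ r₁ 2 0 z := by
    intro z hz
    rcases lt_or_ge z.2 (r₁ * Real.exp (-1)) with h | h
    · rw [Dp_in hτ hr _ _ hz h]; simp [Real.exp_pos]
    · exact mul_pos (hE z) ((cr hz h).2.R20_pos hd1)
  have hkap : ∀ z : E2, 0 < z.2 → Dp τ r₁ 2 0 z ≤ 6 / 5 * Dp τ r₁ 1 0 z := by
    intro z hz
    rcases lt_or_ge z.2 (r₁ * Real.exp (-1)) with h | h
    · rw [Dp_in hτ hr _ _ hz h, Dp_in hτ hr _ _ hz h]
      have := Real.exp_pos z.1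
      simp only [if_true]; linarith
    · have h1 := ((cr hz h).2.R10_ge hd1).1
      have h2 := (cr hz h).2.kap_le hd1
      have h3 := kh_le (Zc τ r₁ z)
      have h4 : RR τ (dl τ r₁) 2 0 (Zc τ r₁ z) ≤ 6 / 5 * RR τ (dl τ r₁) 1 0 (Zc τ r₁ z) := by
        refine h2.trans (mul_le_mul_of_nonneg_right ?_ (by linarith))
        linarith
      calc Dp τ r₁ 2 0 z ≤ Real.exp (uu τ r₁ z) * (6 / 5 * RR τ (dl τ r₁) 1 0 (Zc τ r₁ z)) :=
            mul_le_mul_of_nonneg_left h4 (hE z).le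
        _ = 6 / 5 * Dp τ r₁ 1 0 z := by rw [Dp]; ring
  -- `E ≤ (100/99) G` and `E R20 = g`
  have hEG : ∀ z : E2, 0 < z.2 → r₁ * Real.exp (-1) ≤ z.2 →
      Real.exp (uu τ r₁ z) ≤ 100 / 99 * Dp τ r₁ 1 0 z := by
    intro z hz h
    have h1 := ((cr hz h).2.R10_ge hd1).1
    have h2 := mul_le_mul_of_nonneg_left h1 (hE z).le
    rw [Dp]; linarith
  have hC0 : 0 ≤ C := by linarith
  have hCC : C ≤ C ^ 2 := by nlinarith
  refine
  { sm := fun i j => Dp_sm hτ hr i j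
    hd := fun i j z hz => Dp_hd hτ hr i j hz
    usm := uu_sm hτ hr
    inn := fun i j z hz h => Dp_in hτ hr i j hz h
    uinn := fun z hz h => uu_in hτ hr hz h
    u_form := fun z hz => ⟨k0 (Zc τ r₁ z), (aa_ge_min hr hz).trans (aa_le_k0 _), k0_le _,
      uu_eq hτ hr hz⟩
    u_dist := ?_
    psi_pos := fun z hz => mul_pos (hE z) (by rw [RR_zero]; exact Pp_pos _)
    G_pos := hG0
    g_pos := hg0
    G_u := ?_
    kap_le := hkap
    kap_ge := ?_
    psi := ?_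
    mu := ?_
    om := ?_
    s0 := ?_
    hij := ?_
    lam_nn := ?_
    lam_le := ?_
    conv := ?_
    bd1 := ?_
    bd2 := ?_
    slow := fun z hz => slow_key hτ hr hc hL hN hr1 hB hd1 hz
      (fun h => hcor τ (dl τ r₁) hτ.le hτ2 hdl.le hdl1 _ h) (hG0 z hz) (hg0 z hz) (hkap z hz) }
  · -- u_dist
    intro z hz
    have h1 := k0_dist (Zc τ r₁ z)
    have h2 := k0_le (Zc τ r₁ z)
    have e3 : z.1 = τ * z.2 * (Zc τ r₁ z).1 := by
      have : (Zc τ r₁ z).1 = z.1 / (τ * z.2) := rfl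
      rw [this]; field_simp
    have hp : 0 < τ * z.2 := mul_pos hτ hz
    rw [uu_eq hτ hr hz]
    have e4 : k0 (Zc τ r₁ z) * z.1 - z.1 =
        -(τ * z.2 * ((Zc τ r₁ z).1 * (1 - k0 (Zc τ r₁ z)))) := by
      conv_lhs => rw [e3]
      ring
    rw [e4, abs_neg, abs_mul, abs_of_pos hp, abs_mul, abs_of_nonneg (a := 1 - _) (by linarith)]
    calc τ * z.2 * (|(Zc τ r₁ z).1| * (1 - k0 (Zc τ r₁ z))) ≤ τ * z.2 * (1 / 2) :=
          mul_le_mul_of_nonneg_left h1 hp.le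
      _ = τ * z.2 / 2 := by ring
  · -- G_u
    intro z hz
    rcases lt_or_ge z.2 (r₁ * Real.exp (-1)) with h | h
    · rw [Dp_in hτ hr _ _ hz h, uu_in hτ hr hz h]
      have := Real.exp_pos z.1
      simp only [if_true, sub_self, abs_zero]
      positivity
    · have h1 := (cr hz h).2.a
      have e : Dp τ r₁ 1 0 z - Real.exp (uu τ r₁ z) =
          Real.exp (uu τ r₁ z) * (RR τ (dl τ r₁) 1 0 (Zc τ r₁ z) - 1) := by rw [Dp]; ring
      rw [e, abs_mul, abs_of_pos (hE z), mul_comm]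
      exact mul_le_mul_of_nonneg_right (h1.trans (by linarith)) (hE z).le
  · -- kap_ge
    intro z hz
    have hmin : min 1 √(r₁ / z.2) ≤ 1 := min_le_left _ _
    rcases lt_or_ge z.2 (r₁ * Real.exp (-1)) with h | h
    · rw [Dp_in hτ hr _ _ hz h, Dp_in hτ hr _ _ hz h]
      have := Real.exp_pos z.1
      simp only [if_true]
      nlinarith
    · have h1 := (cr hz h).2.kap_ge hd1
      have h2 := aa_ge_min (τ := τ) hr hz
      have h3 := ((cr hz h).2.R10_ge hd1).1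
      calc 1 / 4 * min 1 √(r₁ / z.2) * Dp τ r₁ 1 0 z
          = 1 / 2 * (1 / 2 * min 1 √(r₁ / z.2)) * Dp τ r₁ 1 0 z := by ring
        _ ≤ 1 / 2 * aa (Zc τ r₁ z).2 * Dp τ r₁ 1 0 z :=
            mul_le_mul_of_nonneg_right (mul_le_mul_of_nonneg_left h2 (by norm_num)) (hG0 z hz).le
        _ = Real.exp (uu τ r₁ z) * (1 / 2 * aa (Zc τ r₁ z).2 *
            RR τ (dl τ r₁) 1 0 (Zc τ r₁ z)) := by rw [Dp]; ring
        _ ≤ _ := mul_le_mul_of_nonneg_left h1 (hE z).le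
  · -- psi
    intro z hz
    rcases lt_or_ge z.2 (r₁ * Real.exp (-1)) with h | h
    · rw [Dp_in hτ hr _ _ hz h, Dp_in hτ hr _ _ hz h, Dp_in hτ hr _ _ hz h]
      have := Real.exp_pos z.1
      simp only [if_true]
      rw [show Real.exp z.1 * Real.exp z.1 - Real.exp z.1 ^ 2 = 0 by ring, abs_zero]
      positivity
    · have c := (cr hz h).2
      set w := Zc τ r₁ z
      have h1 := c.R10_ge hd1
      have e : Dp τ r₁ 2 0 z * Dp τ r₁ 0 0 z - Dp τ r₁ 1 0 z ^ 2 = Real.exp (uu τ r₁ z) ^ 2 *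
          ((RR τ (dl τ r₁) 2 0 w - kh w * RR τ (dl τ r₁) 1 0 w) * Pp w -
            RR τ (dl τ r₁) 1 0 w * (RR τ (dl τ r₁) 1 0 w - 1)) := by
        have h2 := kh_Pp w
        rw [Dp, Dp, Dp, RR_zero]
        linear_combination (Real.exp (uu τ r₁ z) ^ 2 * RR τ (dl τ r₁) 1 0 w) * h2
      have h3 : |(RR τ (dl τ r₁) 2 0 w - kh w * RR τ (dl τ r₁) 1 0 w) * Pp w| ≤
          C * dl τ r₁ := by
        have h4 : wm 2 (-1) w * Pp w ≤ 1 := by
          rw [← kh_Pp w]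
          exact mul_le_mul_of_nonneg_right (wm_le_kh w) (Pp_pos w).le
        rw [abs_mul, abs_of_pos (Pp_pos w)]
        calc _ ≤ C * (dl τ r₁ * wm 2 (-1) w) * Pp w :=
              mul_le_mul_of_nonneg_right c.b (Pp_pos w).le
          _ = C * dl τ r₁ * (wm 2 (-1) w * Pp w) := by ring
          _ ≤ C * dl τ r₁ * 1 := mul_le_mul_of_nonneg_left h4 (by positivity)
          _ = _ := mul_one _
      have h5 : |RR τ (dl τ r₁) 1 0 w * (RR τ (dl τ r₁) 1 0 w - 1)| ≤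
          101 / 100 * (C * dl τ r₁) := by
        rw [abs_mul, abs_of_nonneg (by linarith : 0 ≤ RR τ (dl τ r₁) 1 0 w)]
        exact mul_le_mul (by linarith) c.a (abs_nonneg _) (by norm_num)
      have h6 : |(RR τ (dl τ r₁) 2 0 w - kh w * RR τ (dl τ r₁) 1 0 w) * Pp w -
            RR τ (dl τ r₁) 1 0 w * (RR τ (dl τ r₁) 1 0 w - 1)| ≤ 3 * (C * dl τ r₁) :=
        (abs_sub _ _).trans (by nlinarith [mul_nonneg hC0 hdl.le])
      have h7 := hEG z hz h
      rw [e, abs_mul, abs_of_pos (pow_pos (hE z) 2)]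
      have h8 : Real.exp (uu τ r₁ z) ^ 2 ≤ (100 / 99 * Dp τ r₁ 1 0 z) ^ 2 :=
        pow_le_pow_left₀ (hE z).le h7 2
      have h9 : 0 < Dp τ r₁ 1 0 z ^ 2 := pow_pos (hG0 z hz) 2
      calc _ ≤ (100 / 99 * Dp τ r₁ 1 0 z) ^ 2 * (3 * (C * dl τ r₁)) :=
            mul_le_mul h8 h6 (abs_nonneg _) (by positivity)
        _ = (100 / 99) ^ 2 * 3 * (C * dl τ r₁) * Dp τ r₁ 1 0 z ^ 2 := by ring
        _ ≤ ε * Dp τ r₁ 1 0 z ^ 2 := by
            refine mul_le_mul_of_nonneg_right ?_ h9.le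
            have := mul_nonneg hC0 hdl.le
            nlinarith
  · -- mu
    intro z hz
    rcases lt_or_ge z.2 (r₁ * Real.exp (-1)) with h | h
    · rw [Dp_in hτ hr _ _ hz h, Dp_in hτ hr _ _ hz h]
      have := Real.exp_pos z.1
      simp only [one_ne_zero, if_false, if_true, abs_zero]
      positivity
    · have c := (cr hz h).2
      have h7 := hEG z hz h
      have h8 := hG0 z hz
      rw [Dp, abs_mul, abs_of_pos (hE z)]
      calc Real.exp (uu τ r₁ z) * |RR τ (dl τ r₁) 0 1 (Zc τ r₁ z)|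
          ≤ 100 / 99 * Dp τ r₁ 1 0 z * (C * τ) :=
            mul_le_mul h7 c.d (abs_nonneg _) (by positivity)
        _ = 100 / 99 * (C * τ) * Dp τ r₁ 1 0 z := by ring
        _ ≤ ε * Dp τ r₁ 1 0 z := by
            refine mul_le_mul_of_nonneg_right ?_ h8.le
            nlinarith
  · -- om
    intro z hz
    rcases lt_or_ge z.2 (r₁ * Real.exp (-1)) with h | h
    · rw [Dp_in hτ hr _ _ hz h, Dp_in hτ hr _ _ hz h]
      have := Real.exp_pos z.1
      simp only [one_ne_zero, if_false, if_true, abs_zero]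
      positivity
    · have c := cr hz h
      have h1 := c.2.om c.1 hC0 hτ.le hdl.le hdl1 hd1
      have h2 := c.2.R20_pos hd1
      rw [Dp, abs_mul, abs_of_pos (hE z)]
      calc Real.exp (uu τ r₁ z) * |RR τ (dl τ r₁) 1 1 (Zc τ r₁ z)|
          ≤ Real.exp (uu τ r₁ z) * (9 * C * τ * RR τ (dl τ r₁) 2 0 (Zc τ r₁ z)) :=
            mul_le_mul_of_nonneg_left h1 (hE z).le
        _ = 9 * C * τ * Dp τ r₁ 2 0 z := by rw [Dp]; ring
        _ ≤ ε * Dp τ r₁ 2 0 z := by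
            refine mul_le_mul_of_nonneg_right ?_ (hg0 z hz).le
            nlinarith
  · -- s0
    intro z hz
    rcases lt_or_ge z.2 (r₁ * Real.exp (-1)) with h | h
    · rw [Dp_in hτ hr _ _ hz h, Dp_in hτ hr _ _ hz h, Dp_in hτ hr _ _ hz h, Dp_in hτ hr _ _ hz h]
      have := Real.exp_pos z.1
      simp only [one_ne_zero, OfNat.ofNat_ne_zero, if_false, if_true]
      rw [show (0 : ℝ) * Real.exp z.1 - 0 ^ 2 = 0 by ring, abs_zero]
      positivity
    · have c := cr hz h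
      have h1 := c.2.s0 c.1 hC hτ.le hdl.le hdl1 hd1
      rw [tdl_es hτ hr hz] at h1
      have h2 := c.2.R20_pos hd1
      have h7 := hEG z hz h
      have e : Dp τ r₁ 0 2 z * Dp τ r₁ 2 0 z - Dp τ r₁ 1 1 z ^ 2 = Real.exp (uu τ r₁ z) ^ 2 *
          (RR τ (dl τ r₁) 0 2 (Zc τ r₁ z) * RR τ (dl τ r₁) 2 0 (Zc τ r₁ z) -
            RR τ (dl τ r₁) 1 1 (Zc τ r₁ z) ^ 2) := by rw [Dp, Dp, Dp]; ring
      have hGg : 0 < Dp τ r₁ 1 0 z * Dp τ r₁ 2 0 z / z.2 :=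
        div_pos (mul_pos (hG0 z hz) (hg0 z hz)) hz
      rw [e, abs_mul, abs_of_pos (pow_pos (hE z) 2)]
      calc _ ≤ Real.exp (uu τ r₁ z) ^ 2 *
            (11 * C ^ 2 * τ * (1 / z.2) * RR τ (dl τ r₁) 2 0 (Zc τ r₁ z)) :=
            mul_le_mul_of_nonneg_left h1 (by positivity)
        _ = 11 * C ^ 2 * τ * (1 / z.2) * Dp τ r₁ 2 0 z * Real.exp (uu τ r₁ z) := by
            rw [Dp]; ring
        _ ≤ 11 * C ^ 2 * τ * (1 / z.2) * Dp τ r₁ 2 0 z * (100 / 99 * Dp τ r₁ 1 0 z) := by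
            refine mul_le_mul_of_nonneg_left h7 ?_
            have := (hg0 z hz).le
            positivity
        _ = 1100 / 99 * (C ^ 2 * τ) * (Dp τ r₁ 1 0 z * Dp τ r₁ 2 0 z / z.2) := by ring
        _ ≤ ε * (Dp τ r₁ 1 0 z * Dp τ r₁ 2 0 z / z.2) := by
            refine mul_le_mul_of_nonneg_right ?_ hGg.le
            have : 0 < C ^ 2 * τ := by positivity
            linarith
  · -- hij
    intro i j z hz hij
    have hg := hg0 z hz
    rcases lt_or_ge z.2 (r₁ * Real.exp (-1)) with h | h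
    · have h1 : Dp τ r₁ i j z - Dp τ r₁ (i + j) 0 z * (Dp τ r₁ 1 1 z / Dp τ r₁ 2 0 z) ^ j = 0 := by
        rw [Dp_in hτ hr _ _ hz h, Dp_in hτ hr _ _ hz h, Dp_in hτ hr _ _ hz h]
        rcases Nat.eq_zero_or_pos j with hj | hj
        · subst hj; simp
        · simp [hj.ne']
      rw [h1, abs_zero]
      have := Cb2_ge1 hC hCb i j
      positivity
    · have c := cr hz h
      have h1 := c.2.hij hCb c.1 hC hτ.le hτ2 hdl.le hdl1 hd1 i j hij
      rw [tdl_es hτ hr hz] at h1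
      have h2 := c.2.R20_pos hd1
      have hE' := (hE z).ne'
      have e0 : Dp τ r₁ 1 1 z / Dp τ r₁ 2 0 z =
          RR τ (dl τ r₁) 1 1 (Zc τ r₁ z) / RR τ (dl τ r₁) 2 0 (Zc τ r₁ z) := by
        rw [Dp, Dp, mul_div_mul_left _ _ hE']
      have e : Dp τ r₁ i j z - Dp τ r₁ (i + j) 0 z * (Dp τ r₁ 1 1 z / Dp τ r₁ 2 0 z) ^ j =
          Real.exp (uu τ r₁ z) * (RR τ (dl τ r₁) i j (Zc τ r₁ z) -
            RR τ (dl τ r₁) (i + j) 0 (Zc τ r₁ z) *
            (RR τ (dl τ r₁) 1 1 (Zc τ r₁ z) / RR τ (dl τ r₁) 2 0 (Zc τ r₁ z)) ^ j) := by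
        rw [e0, Dp, Dp]; ring
      rw [e, abs_mul, abs_of_pos (hE z)]
      calc _ ≤ Real.exp (uu τ r₁ z) * ((2 * Cb i j + 4 * C * j * (9 * C) ^ j * Cb (i + j) 0) *
            (1 / z.2) * RR τ (dl τ r₁) 2 0 (Zc τ r₁ z)) :=
            mul_le_mul_of_nonneg_left h1 (hE z).le
        _ = (2 * Cb i j + 4 * C * j * (9 * C) ^ j * Cb (i + j) 0) * (Dp τ r₁ 2 0 z / z.2) := by
            rw [Dp]; ring
        _ ≤ _ := mul_le_mul_of_nonneg_right (Cb2_ge3 hCb i j) (by positivity)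
  · -- lam_nn
    intro z hz
    rcases lt_or_ge z.2 (r₁ * Real.exp (-1)) with h | h
    · rw [Dp_in hτ hr _ _ hz h]
      simp [Real.exp_nonneg]
    · exact mul_nonneg (hE z).le ((cr hz h).2.R30_nn hd1)
  · -- lam_le
    intro z hz
    rcases lt_or_ge z.2 (r₁ * Real.exp (-1)) with h | h
    · rw [Dp_in hτ hr _ _ hz h, Dp_in hτ hr _ _ hz h]
      have := Real.exp_pos z.1
      simp only [if_true]; linarith
    · have h1 := (cr hz h).2.R30_le hd1
      calc Dp τ r₁ 3 0 z ≤ Real.exp (uu τ r₁ z) * (6 / 5 * RR τ (dl τ r₁) 2 0 (Zc τ r₁ z)) :=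
            mul_le_mul_of_nonneg_left h1 (hE z).le
        _ = 6 / 5 * Dp τ r₁ 2 0 z := by rw [Dp]; ring
  · -- conv
    intro z hz
    rcases lt_or_ge z.2 (r₁ * Real.exp (-1)) with h | h
    · rw [Dp_in hτ hr _ _ hz h, Dp_in hτ hr _ _ hz h, Dp_in hτ hr _ _ hz h, Dp_in hτ hr _ _ hz h]
      have := Real.exp_pos z.1
      have hN0 : 0 < N := by rw [hN]; exact Real.exp_pos _
      simp only [if_true]
      rw [show Real.exp z.1 * Real.exp z.1 - Real.exp z.1 ^ 2 = 0 by ring, abs_zero]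
      positivity
    · have c := (cr hz h).2
      have h1 := c.v
      rw [dl_es hτ hr hz] at h1
      have h2 := c.R20_lo hd1
      have h3 := c.R20_pos hd1
      have h7 := hEG z hz h
      have hG := hG0 z hz
      have hg := hg0 z hz
      have e : Dp τ r₁ 4 0 z * Dp τ r₁ 2 0 z - Dp τ r₁ 3 0 z ^ 2 = Real.exp (uu τ r₁ z) ^ 2 *
          (RR τ (dl τ r₁) 4 0 (Zc τ r₁ z) * RR τ (dl τ r₁) 2 0 (Zc τ r₁ z) -
            RR τ (dl τ r₁) 3 0 (Zc τ r₁ z) ^ 2) := by rw [Dp, Dp, Dp]; ring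
      have h8 : 1 / (τ * z.2) * (3 * C) ≤ ε * (N / z.2) := by
        rw [div_mul_eq_mul_div, one_mul, div_le_iff₀ (mul_pos hτ hz)]
        calc 3 * C ≤ ε * N * τ := hcv
          _ = ε * (N / z.2) * (τ * z.2) := by field_simp
      rw [e, abs_mul, abs_of_pos (pow_pos (hE z) 2)]
      calc _ ≤ Real.exp (uu τ r₁ z) ^ 2 * (C * (1 / (τ * z.2) * wm 2 (-1) (Zc τ r₁ z))) :=
            mul_le_mul_of_nonneg_left h1 (by positivity)
        _ ≤ Real.exp (uu τ r₁ z) ^ 2 * (C * (1 / (τ * z.2) *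
            (2 * RR τ (dl τ r₁) 2 0 (Zc τ r₁ z)))) := by
            refine mul_le_mul_of_nonneg_left (mul_le_mul_of_nonneg_left
              (mul_le_mul_of_nonneg_left h2 (by positivity)) hC0) (by positivity)
        _ = 2 * C * (1 / (τ * z.2)) * Dp τ r₁ 2 0 z * Real.exp (uu τ r₁ z) := by
            rw [Dp]; ring
        _ ≤ 2 * C * (1 / (τ * z.2)) * Dp τ r₁ 2 0 z * (100 / 99 * Dp τ r₁ 1 0 z) :=
            mul_le_mul_of_nonneg_left h7 (by positivity)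
        _ = 200 / 297 * (1 / (τ * z.2) * (3 * C)) * (Dp τ r₁ 1 0 z * Dp τ r₁ 2 0 z) := by ring
        _ ≤ 1 * (1 / (τ * z.2) * (3 * C)) * (Dp τ r₁ 1 0 z * Dp τ r₁ 2 0 z) := by
            refine mul_le_mul_of_nonneg_right (mul_le_mul_of_nonneg_right (by norm_num) ?_) ?_
            · positivity
            · positivity
        _ ≤ ε * (N / z.2) * (Dp τ r₁ 1 0 z * Dp τ r₁ 2 0 z) := by
            rw [one_mul]
            exact mul_le_mul_of_nonneg_right h8 (by positivity)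
  · -- bd1
    intro i j z hz hij
    have h8 := hG0 z hz
    have hb := Cb2_ge1 hC hCb i j
    rcases lt_or_ge z.2 (r₁ * Real.exp (-1)) with h | h
    · have h9 : |Dp τ r₁ i j z| ≤ Dp τ r₁ 1 0 z := by
        rw [Dp_in hτ hr _ _ hz h, Dp_in hτ hr _ _ hz h]
        by_cases hj : j = 0
        · simp [hj]
        · simp [hj, Real.exp_nonneg]
      exact h9.trans (le_mul_of_one_le_left h8.le hb)
    · have c := (cr hz h).2
      have h7 := hEG z hz h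
      have h0 := hCb i j
      rw [Dp, abs_mul, abs_of_pos (hE z)]
      calc Real.exp (uu τ r₁ z) * |RR τ (dl τ r₁) i j (Zc τ r₁ z)|
          ≤ 100 / 99 * Dp τ r₁ 1 0 z * Cb i j :=
            mul_le_mul h7 (c.r i j hij) (abs_nonneg _) (by positivity)
        _ = 100 / 99 * Cb i j * Dp τ r₁ 1 0 z := by ring
        _ ≤ _ := mul_le_mul_of_nonneg_right ((by linarith : 100 / 99 * Cb i j ≤ 2 * Cb i j).trans
            (Cb2_ge2 hC hCb i j)) h8.le
  · -- bd2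
    intro i j z hz hij
    have h8 := hg0 z hz
    have hb := Cb2_ge1 hC hCb i j
    rcases lt_or_ge z.2 (r₁ * Real.exp (-1)) with h | h
    · have h9 : |Dp τ r₁ i j z| ≤ Dp τ r₁ 2 0 z := by
        rw [Dp_in hτ hr _ _ hz h, Dp_in hτ hr _ _ hz h]
        by_cases hj : j = 0
        · simp [hj]
        · simp [hj, Real.exp_nonneg]
      exact h9.trans (le_mul_of_one_le_left h8.le hb)
    · have c := (cr hz h).2
      have h2 := c.R20_lo hd1
      have h0 := hCb i j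
      rw [Dp, abs_mul, abs_of_pos (hE z)]
      calc Real.exp (uu τ r₁ z) * |RR τ (dl τ r₁) i j (Zc τ r₁ z)|
          ≤ Real.exp (uu τ r₁ z) * (Cb i j * (2 * RR τ (dl τ r₁) 2 0 (Zc τ r₁ z))) :=
            mul_le_mul_of_nonneg_left ((c.r2 i j hij).trans
              (mul_le_mul_of_nonneg_left h2 h0)) (hE z).le
        _ = 2 * Cb i j * Dp τ r₁ 2 0 z := by rw [Dp]; ring
        _ ≤ _ := mul_le_mul_of_nonneg_right (Cb2_ge2 hC hCb i j) h8.le

end

/-- Existence of the slow-down; the constants `Cb` are absolute. -/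
theorem slow : ∃ Cb : ℕ → ℕ → ℝ, ∀ c' ε : ℝ, 0 < c' → 0 < ε → ∃ C₀ N₀ : ℝ, 0 < C₀ ∧ 1 ≤ N₀ ∧
    ∀ N : ℝ, N₀ ≤ N → 0 < C₀ * Real.log N / N ∧ C₀ * Real.log N / N ≤ ε ∧
      IsSlow ε N c' (C₀ * Real.log N / N) (c' * N / 2) Cb
        (uu (C₀ * Real.log N / N) (c' * N / 2)) (Dp (C₀ * Real.log N / N) (c' * N / 2)) := by
  obtain ⟨C, Cb, hC, hCb, hcor⟩ := cor
  refine ⟨Cb2 C Cb, fun c' ε hc hε => ?_⟩
  -- `τ₀`: the bound for `τ`
  set t0 : ℝ := min 1 (ε / (12 * C ^ 2)) with ht0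
  have hC2 : 0 < 12 * C ^ 2 := by positivity
  have t0p : 0 < t0 := lt_min one_pos (by positivity)
  set C0 : ℝ := 8 / c' with hC0
  have C0p : 0 < C0 := by positivity
  set L0 : ℝ := 4 + 25 * C + C / ε + 3 * C / (ε * C0) + 2 * C0 / t0 with hL0
  have hC' : 0 < C := by linarith
  have g1 : 0 < C / ε := by positivity
  have g2 : 0 < 3 * C / (ε * C0) := by positivity
  have g3 : 0 < 2 * C0 / t0 := by positivity
  refine ⟨C0, Real.exp L0, C0p, Real.one_le_exp (by linarith), fun N hN => ?_⟩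
  have hN0 : 0 < N := (Real.exp_pos _).trans_le hN
  set L := Real.log N with hLd
  have hL : L0 ≤ L := (Real.le_log_iff_exp_le hN0).2 hN
  have hNL : N = Real.exp L := (Real.exp_log hN0).symm
  have hL4 : 4 ≤ L := by linarith
  have hLp : 0 < L := by linarith
  have hquad : L ^ 2 / 2 ≤ N := by
    have := Real.quadratic_le_exp_of_nonneg hLp.le
    rw [hNL]; linarith
  set τ := C0 * L / N with hτd
  have hτ : 0 < τ := by positivity
  have hτt : τ ≤ t0 := by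
    have h1 : 2 * C0 / t0 ≤ L := by linarith
    rw [div_le_iff₀ t0p] at h1
    rw [hτd, div_le_iff₀ hN0]
    have h2 : C0 * L ≤ t0 * (L ^ 2 / 2) := by nlinarith
    exact h2.trans (mul_le_mul_of_nonneg_left hquad t0p.le)
  have hτ1 : 12 * C ^ 2 * τ ≤ ε := by
    have h1 : τ ≤ ε / (12 * C ^ 2) := hτt.trans (min_le_right _ _)
    rw [le_div_iff₀ hC2] at h1
    linarith
  have hτ2 : τ ≤ 1 := hτt.trans (min_le_left _ _)
  have hr : 0 < c' * N / 2 := by positivity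
  have hτr : τ * (c' * N / 2) = 4 * L := by
    rw [hτd, hC0]; field_simp; norm_num
  have hdl : dl τ (c' * N / 2) = (4 * L)⁻¹ := by rw [dl, hτr]
  have hd1 : C * dl τ (c' * N / 2) ≤ 1 / 100 := by
    rw [hdl, ← div_eq_mul_inv, div_le_div_iff₀ (by positivity) (by norm_num)]
    linarith
  have hd2 : 4 * C * dl τ (c' * N / 2) ≤ ε := by
    have h1 : C / ε ≤ L := by linarith
    rw [div_le_iff₀ hε] at h1
    rw [hdl, ← div_eq_mul_inv, div_le_iff₀ (by positivity)]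
    linarith
  have hcv : 3 * C ≤ ε * N * τ := by
    have h1 : 3 * C / (ε * C0) ≤ L := by linarith
    rw [div_le_iff₀ (by positivity)] at h1
    have h2 : ε * N * τ = L * (ε * C0) := by rw [hτd]; field_simp
    rw [h2]; exact h1
  refine ⟨hτ, ?_, slow_of hC hCb hcor hε hτ hτ1 hτ2 hr hd1 hd2 hc hL4 hNL rfl hτr.ge hcv⟩
  have h12 : 1 ≤ 12 * C ^ 2 := by nlinarith
  exact (le_mul_of_one_le_left hτ.le h12).trans hτ1

end Vale.Agent.P088.R2.H768.W
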