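import Vale.Agent.P088.R2.H657.W.Far2
import Vale.Agent.P088.R2.H768.W.Exi

/-!
# P088: the bridge from `IsSlow` to the chain rule and the rank one structure of the far zone

`Ds a i j` are the partial derivatives of `Ψ_a`; `G = D₁₀`, `g = D₂₀`, `ω = D₁₁ / D₂₀`,
`λ = D₃₀ / D₂₀`, `λ₂ = D₄₀ / D₂₀` at `(φ, r)`.
-/

open Set Filter
open scoped ContDiff Topology

noncomputable section

namespace Vale.Agent.P088.R2.H768.FarI

open Vale.Agent.P088.R2.H657.W Vale.Agent.P088.R2.H644.Sy Vale.Agent.P088.R2.H768.W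

variable {α E : Type*}

/-- Curried partial derivatives. -/
def cD (Ds : α → ℕ → ℕ → ℝ × ℝ → ℝ) (a : α) (i j : ℕ) (f s : ℝ) : ℝ := Ds a i j (f, s)

/-- `D_ij` along `(φ, r)`. -/
def gD (Ds : α → ℕ → ℕ → ℝ × ℝ → ℝ) (φ r : α → E → ℝ) (i j : ℕ) (a : α) (z : E) : ℝ :=
  Ds a i j (φ a z, r a z)

/-- `ω`. -/
def gom (Ds : α → ℕ → ℕ → ℝ × ℝ → ℝ) (φ r : α → E → ℝ) (a : α) (z : E) : ℝ :=
  gD Ds φ r 1 1 a z / gD Ds φ r 2 0 a z

/-- `λ`. -/
def glam (Ds : α → ℕ → ℕ → ℝ × ℝ → ℝ) (φ r : α → E → ℝ) (a : α) (z : E) : ℝ :=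
  gD Ds φ r 3 0 a z / gD Ds φ r 2 0 a z

/-- `λ₂`. -/
def glam2 (Ds : α → ℕ → ℕ → ℝ × ℝ → ℝ) (φ r : α → E → ℝ) (a : α) (z : E) : ℝ :=
  gD Ds φ r 4 0 a z / gD Ds φ r 2 0 a z

variable {U : α → Set E} {φ r : α → E → ℝ} {Ds : α → ℕ → ℕ → ℝ × ℝ → ℝ} {u : α → ℝ × ℝ → ℝ}
  {N τ r₁ : α → ℝ} {ε c' : ℝ} {Cb : ℕ → ℕ → ℝ} {k : ℕ}

/-- **(a)** The data of the chain rule. -/
theorem fc_of [NormedAddCommGroup E] [NormedSpace ℝ E] (sl : ∀ a, IsSlow ε (N a) c' (τ a) (r₁ a) Cb (u a) (Ds a))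
    (op : ∀ a, IsOpen (U a)) (r0 : ∃ c > 0, ∀ a, ∀ z ∈ U a, c ≤ r a z)
    (sφ : ∀ a, ContDiffOn ℝ ∞ (φ a) (U a))
    (dφ : Sf U r (fun _ _ => 1) (k + 3) (fun a => fderiv ℝ (φ a))) (dr : Sf U r r (k + 4) r) :
    Fc U φ r (gD Ds φ r 1 0) (cD Ds) k := by
  have hr : ∀ a, ∀ z ∈ U a, 0 < r a z := by
    obtain ⟨c, hc, h⟩ := r0
    exact fun a z hz => hc.trans_le (h a z hz)
  exact
  { op := op
    r0 := r0
    sφ := sφ
    dφ := dφ
    dr := dr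
    G0 := fun a z hz => (sl a).G_pos _ (hr a z hz)
    sD := fun a i j => ((sl a).sm i j).comp ((sφ a).prodMk (dr.sm a)) fun z hz => hr a z hz
    dD := fun a i j z hz => (sl a).hd i j _ (hr a z hz)
    bD := fun i j hij => ⟨Cb i j, fun a z hz => (sl a).bd1 i j _ (hr a z hz) hij⟩ }

section pt

variable (sl : ∀ a, IsSlow ε (N a) c' (τ a) (r₁ a) Cb (u a) (Ds a))
  (hr : ∀ a, ∀ z ∈ U a, 0 < r a z)

include sl hr

theorem G_pos {a : α} {z : E} (hz : z ∈ U a) : 0 < gD Ds φ r 1 0 a z :=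
  (sl a).G_pos _ (hr a z hz)

theorem g_pos {a : α} {z : E} (hz : z ∈ U a) : 0 < gD Ds φ r 2 0 a z :=
  (sl a).g_pos _ (hr a z hz)

theorem g_le {a : α} {z : E} (hz : z ∈ U a) : gD Ds φ r 2 0 a z ≤ 6 / 5 * gD Ds φ r 1 0 a z :=
  (sl a).kap_le _ (hr a z hz)

theorem om_le {a : α} {z : E} (hz : z ∈ U a) : |gom Ds φ r a z| ≤ ε := by
  have h1 := (sl a).om (φ a z, r a z) (hr a z hz)
  have h2 := g_pos (φ := φ) sl hr hz
  rw [gom, abs_div, abs_of_pos h2, div_le_iff₀ h2]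
  exact h1

theorem lam_nn {a : α} {z : E} (hz : z ∈ U a) : 0 ≤ glam Ds φ r a z :=
  div_nonneg ((sl a).lam_nn _ (hr a z hz)) (g_pos (φ := φ) sl hr hz).le

theorem lam_le {a : α} {z : E} (hz : z ∈ U a) : glam Ds φ r a z ≤ 6 / 5 := by
  rw [glam, div_le_iff₀ (g_pos (φ := φ) sl hr hz)]
  exact (sl a).lam_le _ (hr a z hz)

theorem lam_abs {a : α} {z : E} (hz : z ∈ U a) : |glam Ds φ r a z| ≤ 6 / 5 := by
  rw [abs_of_nonneg (lam_nn sl hr hz)]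
  exact lam_le sl hr hz

theorem mu_le {a : α} {z : E} (hz : z ∈ U a) :
    |gD Ds φ r 0 1 a z| ≤ ε * gD Ds φ r 1 0 a z := (sl a).mu _ (hr a z hz)

/-- Log convexity up to `ε (N / r) G`. -/
theorem cv_abs {a : α} {z : E} (hz : z ∈ U a) :
    |gD Ds φ r 2 0 a z * (glam Ds φ r a z ^ 2 - glam2 Ds φ r a z)| ≤
      ε * (N a / r a z) * gD Ds φ r 1 0 a z := by
  have h1 := (sl a).conv (φ a z, r a z) (hr a z hz)
  have h2 := g_pos (φ := φ) sl hr hz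
  have e : gD Ds φ r 2 0 a z * (glam Ds φ r a z ^ 2 - glam2 Ds φ r a z) =
      -(gD Ds φ r 4 0 a z * gD Ds φ r 2 0 a z - gD Ds φ r 3 0 a z ^ 2) / gD Ds φ r 2 0 a z := by
    rw [glam, glam2]
    field_simp
    ring
  rw [e, abs_div, abs_neg, abs_of_pos h2, div_le_iff₀ h2]
  refine h1.trans (le_of_eq ?_)
  show ε * (N a / r a z) * (gD Ds φ r 1 0 a z * gD Ds φ r 2 0 a z) = _
  ring

theorem cv_le {a : α} {z : E} (hz : z ∈ U a) :
    gD Ds φ r 2 0 a z * (glam Ds φ r a z ^ 2 - glam2 Ds φ r a z) ≤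
      ε * (N a / r a z) * gD Ds φ r 1 0 a z := (le_abs_self _).trans (cv_abs sl hr hz)

/-- The window. -/
theorem g_sq {a : α} {z : E} (hz : z ∈ U a) :
    gD Ds φ r 2 0 a z ^ 2 ≤
      c' * (gD Ds φ r 1 0 a z / r a z) * (N a + gD Ds φ r 1 0 a z) ^ 2 := by
  have h1 := (sl a).slow (φ a z, r a z) (hr a z hz)
  have h2 := hr a z hz
  have e : c' * (gD Ds φ r 1 0 a z / r a z) * (N a + gD Ds φ r 1 0 a z) ^ 2 =
      c' * (gD Ds φ r 1 0 a z * (N a + gD Ds φ r 1 0 a z) ^ 2) / r a z := by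
    field_simp
  rw [e, le_div_iff₀ h2]
  exact h1

/-- The window for every larger slope. -/
theorem g_sq' (hc : 0 ≤ c') (hN : ∀ a, 0 ≤ N a) {M : ℝ} {a : α} {z : E} (hz : z ∈ U a)
    (hM : N a ≤ M) : gD Ds φ r 2 0 a z ^ 2 ≤
      c' * (gD Ds φ r 1 0 a z / r a z) * (M + gD Ds φ r 1 0 a z) ^ 2 := by
  refine (g_sq sl hr hz).trans ?_
  have h2 := hr a z hz
  have h3 := (G_pos (φ := φ) sl hr hz).le
  have h4 := hN a
  refine mul_le_mul_of_nonneg_left (pow_le_pow_left₀ (by linarith) (by linarith) 2) ?_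
  positivity

/-- The second derivatives. -/
theorem r2_abs (hε : 0 ≤ ε) (p q : ℕ) (h : p + q = 2) {a : α} {z : E} (hz : z ∈ U a) :
    |gD Ds φ r p q a z - gD Ds φ r 2 0 a z * gom Ds φ r a z ^ q| ≤
      ε * (gD Ds φ r 1 0 a z / r a z) := by
  have h2 := g_pos (φ := φ) sl hr hz
  have h3 := (G_pos (φ := φ) sl hr hz).le
  have h4 := hr a z hz
  have h0 : 0 ≤ ε * (gD Ds φ r 1 0 a z / r a z) := by positivity
  have hq : q = 0 ∨ q = 1 ∨ q = 2 := by omega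
  rcases hq with hq | hq | hq
  · subst hq
    obtain rfl : p = 2 := by omega
    simpa using h0
  · subst hq
    obtain rfl : p = 1 := by omega
    have e : gD Ds φ r 1 1 a z - gD Ds φ r 2 0 a z * gom Ds φ r a z ^ 1 = 0 := by
      rw [gom, pow_one, mul_div_cancel₀ _ h2.ne', sub_self]
    rw [e, abs_zero]
    exact h0
  · subst hq
    obtain rfl : p = 0 := by omega
    have h5 := (sl a).s0 (φ a z, r a z) h4
    have e : gD Ds φ r 0 2 a z - gD Ds φ r 2 0 a z * gom Ds φ r a z ^ 2 =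
        (gD Ds φ r 0 2 a z * gD Ds φ r 2 0 a z - gD Ds φ r 1 1 a z ^ 2) / gD Ds φ r 2 0 a z := by
      rw [gom]
      field_simp
    rw [e, abs_div, abs_of_pos h2, div_le_iff₀ h2]
    refine h5.trans (le_of_eq ?_)
    show ε * (gD Ds φ r 1 0 a z * gD Ds φ r 2 0 a z / r a z) = _
    ring

/-- The derivatives of order at least three, relative form. -/
theorem r3_rel (p q : ℕ) (h : 3 ≤ p + q) {a : α} {z : E} (hz : z ∈ U a) :
    |gD Ds φ r p q a z - gD Ds φ r (p + q) 0 a z * gom Ds φ r a z ^ q| ≤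
      Cb p q * (gD Ds φ r 2 0 a z / r a z) := (sl a).hij p q _ (hr a z hz) h

theorem r3_abs (hC : ∀ i j, 0 ≤ Cb i j) (p q : ℕ) (h : 3 ≤ p + q) {a : α} {z : E}
    (hz : z ∈ U a) :
    |gD Ds φ r p q a z - gD Ds φ r (p + q) 0 a z * gom Ds φ r a z ^ q| ≤
      6 / 5 * Cb p q * (gD Ds φ r 1 0 a z / r a z) := by
  refine (r3_rel sl hr p q h hz).trans ?_
  have h1 := g_le (φ := φ) sl hr hz
  have h2 := hr a z hz
  have h3 := div_le_div_of_nonneg_right h1 h2.le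
  calc Cb p q * (gD Ds φ r 2 0 a z / r a z) ≤ Cb p q * (6 / 5 * gD Ds φ r 1 0 a z / r a z) :=
        mul_le_mul_of_nonneg_left h3 (hC p q)
    _ = _ := by ring

end pt

/-- **(b)** The rank one structure. -/
theorem rk_of [NormedAddCommGroup E] [NormedSpace ℝ E] (hε : 0 ≤ ε) (hC : ∀ i j, 0 ≤ Cb i j)
    (sl : ∀ a, IsSlow ε (N a) c' (τ a) (r₁ a) Cb (u a) (Ds a))
    (hr : ∀ a, ∀ z ∈ U a, 0 < r a z) :
    Rk U φ r (gD Ds φ r 1 0) (cD Ds) (gD Ds φ r 2 0) (gom Ds φ r) (glam Ds φ r)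
      (glam2 Ds φ r) where
  w1 := ⟨ε, hε, fun a z hz => by rw [mul_one]; exact om_le sl hr hz⟩
  r2 p q h := ⟨ε, hε, fun a z hz => (r2_abs sl hr hε p q h hz).trans (le_of_eq (by
    rw [rG, div_eq_mul_inv]))⟩
  r3 p q h := ⟨6 / 5 * Cb p q, mul_nonneg (by norm_num) (hC p q), fun a z hz => by
    have h1 := r3_abs (φ := φ) sl hr hC p q h.ge hz
    have h2 := (g_pos (φ := φ) sl hr hz).ne'
    beta_reduce
    have e : Fd (cD Ds) φ r p q a z - glam Ds φ r a z * gD Ds φ r 2 0 a z * gom Ds φ r a z ^ q =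
        gD Ds φ r p q a z - gD Ds φ r (p + q) 0 a z * gom Ds φ r a z ^ q := by
      rw [glam, div_mul_cancel₀ _ h2, h]; rfl
    rw [e, rG, ← div_eq_mul_inv]
    exact h1⟩
  r4 p q h := ⟨6 / 5 * Cb p q, mul_nonneg (by norm_num) (hC p q), fun a z hz => by
    have h1 := r3_abs (φ := φ) sl hr hC p q (by omega) hz
    have h2 := (g_pos (φ := φ) sl hr hz).ne'
    beta_reduce
    have e : Fd (cD Ds) φ r p q a z - glam2 Ds φ r a z * gD Ds φ r 2 0 a z * gom Ds φ r a z ^ q =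
        gD Ds φ r p q a z - gD Ds φ r (p + q) 0 a z * gom Ds φ r a z ^ q := by
      rw [glam2, div_mul_cancel₀ _ h2, h]; rfl
    rw [e, rG, ← div_eq_mul_inv]
    exact h1⟩

/-- Existence with nonnegative absolute constants. -/
theorem slow_nn : ∃ Cb : ℕ → ℕ → ℝ, (∀ i j, 0 ≤ Cb i j) ∧ ∀ c' ε : ℝ, 0 < c' → 0 < ε →
    ∃ C₀ N₀ : ℝ, 0 < C₀ ∧ 1 ≤ N₀ ∧ ∀ N : ℝ, N₀ ≤ N → 0 < C₀ * Real.log N / N ∧
      C₀ * Real.log N / N ≤ ε ∧ IsSlow ε N c' (C₀ * Real.log N / N) (c' * N / 2) Cb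
        (uu (C₀ * Real.log N / N) (c' * N / 2)) (Dp (C₀ * Real.log N / N) (c' * N / 2)) := by
  obtain ⟨Cb, h⟩ := slow
  refine ⟨fun i j => |Cb i j|, fun i j => abs_nonneg _, fun c' ε hc hε => ?_⟩
  obtain ⟨C₀, N₀, h1, h2, h3⟩ := h c' ε hc hε
  refine ⟨C₀, N₀, h1, h2, fun N hN => ?_⟩
  obtain ⟨a1, a2, s⟩ := h3 N hN
  exact ⟨a1, a2, { s with
    hij := fun i j z hz hij => (s.hij i j z hz hij).trans (mul_le_mul_of_nonneg_right
      (le_abs_self _) (div_nonneg (s.g_pos z hz).le hz.le))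
    bd1 := fun i j z hz hij => (s.bd1 i j z hz hij).trans (mul_le_mul_of_nonneg_right
      (le_abs_self _) (s.G_pos z hz).le)
    bd2 := fun i j z hz hij => (s.bd2 i j z hz hij).trans (mul_le_mul_of_nonneg_right
      (le_abs_self _) (s.g_pos z hz).le) }⟩

end Vale.Agent.P088.R2.H768.FarI
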