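import Vale.Agent.P088.R2.H768.W.Sym
import Mathlib.Analysis.SpecialFunctions.SmoothTransition
import Mathlib.Analysis.SpecialFunctions.ExpDeriv
import Mathlib.Analysis.SpecialFunctions.Sqrt

/-!
# The functions of the slow-down
-/

open scoped ContDiff Topology
open Set Filter

noncomputable section

namespace Vale.Agent.P088.R2.H768.W

/-- `1` for `s ≤ -1`, `2 e^{s/2}` for `s ≥ 0`. -/
def pp (s : ℝ) : ℝ := 1 + Real.smoothTransition (s + 1) * (2 * Real.exp (s / 2) - 1)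

/-- `km = 1 / pp`. -/
def aa (s : ℝ) : ℝ := (pp s)⁻¹

/-- The domain `s ≥ -1`. -/
def Om : Set E2 := {z | -1 ≤ z.2}

theorem half_exp {s : ℝ} (hs : -1 ≤ s) : 1 < 2 * Real.exp (s / 2) := by
  have h1 : Real.exp (-(1 / 2)) ≤ Real.exp (s / 2) := Real.exp_le_exp.2 (by linarith)
  have h2 : (1 : ℝ) - 1 / 2 < Real.exp (-(1 / 2)) := by
    have := Real.add_one_lt_exp (x := -(1 / 2 : ℝ)) (by norm_num)
    linarith
  linarith

theorem pp_ge (s : ℝ) : 1 ≤ pp s := by
  unfold pp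
  rcases lt_or_ge s (-1) with h | h
  · rw [Real.smoothTransition.zero_of_nonpos (by linarith)]
    simp
  · have h1 := Real.smoothTransition.nonneg (s + 1)
    have h2 := half_exp h
    nlinarith

theorem pp_pos (s : ℝ) : 0 < pp s := one_pos.trans_le (pp_ge s)

theorem pp_one {s : ℝ} (h : s ≤ -1) : pp s = 1 := by
  unfold pp
  rw [Real.smoothTransition.zero_of_nonpos (by linarith)]
  simp

theorem pp_exp {s : ℝ} (h : 0 ≤ s) : pp s = 2 * Real.exp (s / 2) := by
  unfold pp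
  rw [Real.smoothTransition.one_of_one_le (by linarith)]
  ring

theorem pp_le {s : ℝ} (h : -1 ≤ s) : pp s ≤ 2 * Real.exp (s / 2) := by
  unfold pp
  have h1 := Real.smoothTransition.le_one (s + 1)
  have h2 := half_exp h
  nlinarith

theorem exp_le_pp {s : ℝ} (_ : -1 ≤ s) : Real.exp (s / 2) ≤ pp s := by
  rcases le_total s 0 with h0 | h0
  · have h1 : Real.exp (s / 2) ≤ 1 := Real.exp_le_one_iff.2 (by linarith)
    linarith [pp_ge s]
  · rw [pp_exp h0]
    linarith [Real.exp_pos (s / 2)]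

theorem aa_pos (s : ℝ) : 0 < aa s := inv_pos.2 (pp_pos s)

theorem aa_le (s : ℝ) : aa s ≤ 1 := inv_le_one_of_one_le₀ (pp_ge s)

theorem aa_one {s : ℝ} (h : s ≤ -1) : aa s = 1 := by rw [aa, pp_one h, inv_one]

theorem aa_exp {s : ℝ} (h : 0 ≤ s) : aa s = Real.exp (-(s / 2)) / 2 := by
  rw [aa, pp_exp h, Real.exp_neg]
  have := Real.exp_pos (s / 2)
  field_simp

/-- `e^{-s} ≤ 4 a²` for `s ≥ -1`. -/
theorem exp_le_aa {s : ℝ} (h : -1 ≤ s) : Real.exp (-s) ≤ 4 * aa s ^ 2 := by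
  have h1 := pp_le h
  have h2 : (pp s) ^ 2 ≤ 4 * Real.exp s := by
    have h3 : Real.exp (s / 2) ^ 2 = Real.exp s := by
      rw [← Real.exp_nat_mul]; congr 1; push_cast; ring
    have h4 := pp_pos s
    have h5 := Real.exp_pos (s / 2)
    nlinarith
  rw [aa, inv_pow, Real.exp_neg, inv_eq_one_div, inv_eq_one_div, ← mul_div_assoc,
    div_le_div_iff₀ (Real.exp_pos s) (pow_pos (pp_pos s) 2)]
  linarith

/-- `h = √(T² + a)`. -/
def hh (z : E2) : ℝ := √(z.1 ^ 2 + aa z.2)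

theorem hh_arg (z : E2) : 0 < z.1 ^ 2 + aa z.2 := by
  have := aa_pos z.2
  positivity

theorem hh_pos (z : E2) : 0 < hh z := Real.sqrt_pos.2 (hh_arg z)

theorem hh_sq (z : E2) : hh z ^ 2 = z.1 ^ 2 + aa z.2 := Real.sq_sqrt (hh_arg z).le

theorem abs_T_le (z : E2) : |z.1| ≤ hh z :=
  Real.abs_le_sqrt (by linarith [aa_pos z.2])

theorem aa_le_hh (z : E2) : aa z.2 ≤ hh z ^ 2 := by
  rw [hh_sq]; nlinarith [sq_nonneg z.1]

/-- `1 + T²`. -/
def k1 (z : E2) : ℝ := 1 + z.1 ^ 2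

theorem k1_pos (z : E2) : 0 < k1 z := by unfold k1; positivity

theorem one_le_k1 (z : E2) : 1 ≤ k1 z := by unfold k1; nlinarith [sq_nonneg z.1]

theorem hh_le_k1 (z : E2) : hh z ^ 2 ≤ k1 z := by
  rw [hh_sq, k1]; linarith [aa_le z.2]

theorem aa_k1_le (z : E2) : aa z.2 * k1 z ≤ hh z ^ 2 := by
  rw [hh_sq, k1]
  nlinarith [aa_le z.2, sq_nonneg z.1]

section one

theorem dT_snd {g : ℝ → ℝ} (hg : ContDiff ℝ ∞ g) : dT (fun z : E2 => g z.2) = fun _ => 0 := by
  funext z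
  have h1 : HasFDerivAt g (fderiv ℝ g z.2) z.2 :=
    ((hg.differentiable (by simp)) z.2).hasFDerivAt
  have h := h1.comp z (hasFDerivAt_snd (𝕜 := ℝ) (E := ℝ) (F := ℝ) (p := z))
  have h2 : fderiv ℝ (fun z : E2 => g z.2) z = _ := h.fderiv
  rw [dT, h2]
  simp

theorem dS_snd {g : ℝ → ℝ} (hg : ContDiff ℝ ∞ g) :
    dS (fun z : E2 => g z.2) = fun z => deriv g z.2 := by
  funext z
  have h1 : HasFDerivAt g (fderiv ℝ g z.2) z.2 :=
    ((hg.differentiable (by simp)) z.2).hasFDerivAt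
  have h := h1.comp z (hasFDerivAt_snd (𝕜 := ℝ) (E := ℝ) (F := ℝ) (p := z))
  have h2 : fderiv ℝ (fun z : E2 => g z.2) z = _ := h.fderiv
  rw [dS, h2]
  simp

theorem dT_fst : dT (fun z : E2 => z.1) = fun _ => 1 := by
  funext z
  have h2 : fderiv ℝ (fun z : E2 => z.1) z = _ :=
    (hasFDerivAt_fst (𝕜 := ℝ) (E := ℝ) (F := ℝ) (p := z)).fderiv
  rw [dT, h2]
  simp

theorem dS_fst : dS (fun z : E2 => z.1) = fun _ => 0 := by
  funext z
  have h2 : fderiv ℝ (fun z : E2 => z.1) z = _ :=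
    (hasFDerivAt_fst (𝕜 := ℝ) (E := ℝ) (F := ℝ) (p := z)).fderiv
  rw [dS, h2]
  simp

variable {ι : Type}

/-- Functions of `s`. -/
theorem Sy.snd {u : E2 → ℝ} (u0 : ∀ z ∈ Om, 0 ≤ u z) (n : ℕ) {g : ι → ℝ → ℝ}
    (hg : ∀ i, ContDiff ℝ ∞ (g i)) (h1 : ∃ C : ℝ, ∀ i, ∀ z ∈ Om, |g i z.2| ≤ C * u z)
    (h2 : Sy Om hh n (fun (_ : ι) => u) fun i z => deriv (g i) z.2) :
    Sy Om hh (n + 1) (fun (_ : ι) => u) fun i z => g i z.2 := by
  refine ⟨h1, ?_, ?_⟩
  · rw [show (fun i : ι => dT fun z : E2 => g i z.2) = fun _ _ => 0 from by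
      funext i; exact dT_snd (hg i)]
    exact Sy.zero hh_pos n fun i z hz => div_nonneg (u0 z hz) (hh_pos z).le
  · rw [show (fun i : ι => dS fun z : E2 => g i z.2) = fun i z => deriv (g i) z.2 from by
      funext i; exact dS_snd (hg i)]
    exact h2

theorem sm_exp (c : ℝ) : Sm Om hh (fun (_ : ι) z => Real.exp (c * z.2))
    fun _ z => Real.exp (c * z.2) := by
  have key : ∀ (n : ℕ) (K : ℝ), Sy Om hh n (fun (_ : ι) z => Real.exp (c * z.2))
      fun _ z => K * Real.exp (c * z.2) := by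
    intro n
    induction n with
    | zero =>
      intro K
      refine ⟨|K|, fun i z _ => ?_⟩
      rw [abs_mul, abs_of_pos (Real.exp_pos _)]
    | succ n ih =>
      intro K
      refine Sy.snd (g := fun _ s => K * Real.exp (c * s)) (fun z _ => (Real.exp_pos _).le) n
        (fun i => contDiff_const.mul (Real.contDiff_exp.comp (contDiff_const.mul contDiff_id)))
        ⟨|K|, fun i z _ => by rw [abs_mul, abs_of_pos (Real.exp_pos _)]⟩ ?_
      have e : ∀ s : ℝ, deriv (fun s => K * Real.exp (c * s)) s =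
          (K * c) * Real.exp (c * s) := by
        intro s
        have h1 : HasDerivAt (fun s : ℝ => c * s) c s := by
          simpa using (hasDerivAt_id s).const_mul c
        rw [(h1.exp.const_mul K).deriv]
        ring
      simp only [e]
      exact ih (K * c)
  refine ⟨fun i z _ => (Real.exp_pos _).le, fun i => Real.contDiff_exp.comp
    (contDiff_const.mul contDiff_snd), fun n => ?_⟩
  simpa using key n 1

/-- `g = 0` for `s < -1`, `g` constant for `s > 0`. -/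
structure Qc (g : ℝ → ℝ) : Prop where
  sm : ContDiff ℝ ∞ g
  lt : ∀ s, s < -1 → g s = 0
  gt : ∃ c, ∀ s, 0 < s → g s = c

theorem Qc.deriv {g : ℝ → ℝ} (h : Qc g) : Qc (deriv g) := by
  refine ⟨?_, fun s hs => ?_, 0, fun s hs => ?_⟩
  · have := (contDiff_infty_iff_deriv.1 h.sm).2
    exact this
  · have : g =ᶠ[𝓝 s] fun _ => 0 := by
      filter_upwards [Iio_mem_nhds hs] with t ht using h.lt t ht
    rw [this.deriv_eq]
    simp
  · obtain ⟨c, hc⟩ := h.gt
    have : g =ᶠ[𝓝 s] fun _ => c := by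
      filter_upwards [Ioi_mem_nhds hs] with t ht using hc t ht
    rw [this.deriv_eq]
    simp

theorem Qc.bound {g : ℝ → ℝ} (h : Qc g) : ∃ C : ℝ, ∀ s, |g s| ≤ C := by
  obtain ⟨c, hc⟩ := h.gt
  obtain ⟨M, hM⟩ := (isCompact_Icc (a := (-1 : ℝ)) (b := 0)).exists_bound_of_continuousOn
    h.sm.continuous.continuousOn
  refine ⟨max |c| M, fun s => ?_⟩
  rcases lt_or_ge s (-1) with h1 | h1
  · rw [h.lt s h1, abs_zero]
    exact (abs_nonneg c).trans (le_max_left _ _)
  · rcases lt_or_ge 0 s with h2 | h2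
    · rw [hc s h2]
      exact le_max_left _ _
    · exact (hM s ⟨h1, h2⟩).trans (le_max_right _ _)

theorem Qc.sm' {g : ℝ → ℝ} (h : Qc g) : Sm Om hh (fun (_ : ι) _ => 1) fun _ z => g z.2 := by
  have key : ∀ (n : ℕ) {g : ℝ → ℝ}, Qc g →
      Sy Om hh n (fun (_ : ι) _ => 1) fun _ z => g z.2 := by
    intro n
    induction n with
    | zero =>
      intro g h
      obtain ⟨C, hC⟩ := h.bound
      exact ⟨C, fun i z _ => by simpa using hC z.2⟩
    | succ n ih =>
      intro g h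
      obtain ⟨C, hC⟩ := h.bound
      exact Sy.snd (g := fun _ => g) (fun _ _ => zero_le_one) n (fun _ => h.sm)
        ⟨C, fun i z _ => by simpa using hC z.2⟩ (ih h.deriv)
  exact ⟨fun _ _ _ => zero_le_one, fun _ => h.sm.comp contDiff_snd, fun n => key n h⟩

theorem rho_Qc : Qc fun s => Real.smoothTransition (s + 1) :=
  ⟨Real.smoothTransition.contDiff.comp (contDiff_id.add contDiff_const),
    fun s hs => Real.smoothTransition.zero_of_nonpos (by linarith),
    1, fun s hs => Real.smoothTransition.one_of_one_le (by linarith)⟩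

/-- `p - 1`. -/
theorem sm_pp1 : Sm Om hh (fun (_ : ι) z => Real.exp (z.2 / 2)) fun _ z => pp z.2 - 1 := by
  have h1 := (sm_exp (ι := ι) (1 / 2)).rsmul hh_pos 2
  have h2 : Sm Om hh (fun (_ : ι) z => Real.exp (1 / 2 * z.2)) fun _ _ => (1 : ℝ) :=
    (Sm.one hh_pos 1).mono hh_pos 2 (fun _ _ _ => (Real.exp_pos _).le) fun i z hz => by
      have := half_exp hz
      rw [show 1 / 2 * z.2 = z.2 / 2 by ring]
      exact this.le
  have h3 := (rho_Qc.sm' (ι := ι)).mul hh_pos (h1.sub hh_pos h2)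
  refine (h3.mono hh_pos 1 (fun _ z _ => (Real.exp_pos (z.2 / 2)).le) fun i z _ => ?_).congr
    fun i z => ?_
  · rw [one_mul, one_mul]
    exact le_of_eq (by congr 1; ring)
  · rw [pp, show 1 / 2 * z.2 = z.2 / 2 by ring]
    ring

theorem sm_pp : Sm Om hh (fun (_ : ι) z => pp z.2) fun _ z => pp z.2 := by
  have h1 : Sm Om hh (fun (_ : ι) z => pp z.2) fun _ _ => (1 : ℝ) :=
    (Sm.one hh_pos 1).mono hh_pos 1 (fun _ z _ => (pp_pos z.2).le) fun i z _ => by
      rw [one_mul]; exact pp_ge z.2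
  have h2 : Sm Om hh (fun (_ : ι) z => pp z.2) fun _ z => pp z.2 - 1 :=
    sm_pp1.mono hh_pos 1 (fun _ z _ => (pp_pos z.2).le) fun i z hz => by
      rw [one_mul]; exact exp_le_pp hz
  exact (h1.add h2).congr fun i z => by ring

theorem sm_aa : Sm Om hh (fun (_ : ι) z => aa z.2) fun _ z => aa z.2 :=
  sm_pp.inv hh_pos (fun _ z => (pp_pos z.2).ne') (fun _ z _ => pp_pos z.2) one_pos
    fun _ z _ => by rw [one_mul, abs_of_pos (pp_pos z.2)]

theorem sm_T : Sm Om hh (fun (_ : ι) z => hh z) fun _ z => z.1 := by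
  refine ⟨fun _ z _ => (hh_pos z).le, fun _ => contDiff_fst, fun n => ?_⟩
  cases n with
  | zero => exact ⟨1, fun _ z _ => by rw [one_mul]; exact abs_T_le z⟩
  | succ n =>
    refine ⟨⟨1, fun _ z _ => by rw [one_mul]; exact abs_T_le z⟩, ?_, ?_⟩
    · rw [show (fun _ : ι => dT fun z : E2 => z.1) = fun _ _ => 1 from by
        funext i; exact dT_fst]
      exact Sy.const hh_pos n (fun _ => 1) (fun i z _ => div_nonneg (hh_pos z).le (hh_pos z).le)
        ⟨1, fun i z _ => by rw [div_self (hh_pos z).ne']; simp⟩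
    · rw [show (fun _ : ι => dS fun z : E2 => z.1) = fun _ _ => 0 from by
        funext i; exact dS_fst]
      exact Sy.zero hh_pos n fun i z _ => (hh_pos z).le

end one

end Vale.Agent.P088.R2.H768.W
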