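import Vale.Agent.P088.R2.H768.W.Fun

/-!
# The functions of the slow-down, part 2: symbol classes
-/

open scoped ContDiff Topology
open Set Filter

noncomputable section

namespace Vale.Agent.P088.R2.H768.W

/-- The weight `h ^ m * K ^ k`. -/
def wm (m k : ℤ) (z : E2) : ℝ := hh z ^ m * k1 z ^ k

theorem wm_pos (m k : ℤ) (z : E2) : 0 < wm m k z :=
  mul_pos (zpow_pos (hh_pos z) m) (zpow_pos (k1_pos z) k)

theorem wm_mul (m k m' k' : ℤ) (z : E2) : wm m k z * wm m' k' z = wm (m + m') (k + k') z := by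
  unfold wm
  rw [zpow_add₀ (hh_pos z).ne', zpow_add₀ (k1_pos z).ne']
  ring

theorem wm_div (m k : ℤ) (z : E2) : wm m k z / hh z = wm (m - 1) k z := by
  unfold wm
  rw [zpow_sub₀ (hh_pos z).ne', zpow_one]
  ring

theorem wm_zero (z : E2) : wm 0 0 z = 1 := by simp [wm]

theorem wm_inv (m k : ℤ) (z : E2) : (wm m k z)⁻¹ = wm (-m) (-k) z := by
  unfold wm
  rw [mul_inv, zpow_neg, zpow_neg]

/-- `K ≥ 1`. -/
theorem wm_up (m k : ℤ) (z : E2) : wm m k z ≤ wm m (k + 1) z := by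
  have h : wm m (k + 1) z = wm m k z * wm 0 1 z := by rw [wm_mul, add_zero]
  have h1 : 1 ≤ wm 0 1 z := by simpa [wm] using one_le_k1 z
  rw [h]
  exact le_mul_of_one_le_right (wm_pos m k z).le h1

/-- `h² ≤ K`. -/
theorem wm_hk (m k : ℤ) (z : E2) : wm (m + 2) k z ≤ wm m (k + 1) z := by
  have h : wm m (k + 1) z = wm m k z * wm 0 1 z := by rw [wm_mul, add_zero]
  have h2 : wm (m + 2) k z = wm m k z * wm 2 0 z := by rw [wm_mul, add_zero]
  rw [h, h2]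
  refine mul_le_mul_of_nonneg_left ?_ (wm_pos m k z).le
  have := hh_le_k1 z
  simpa [wm] using this

/-- `h ≤ K`. -/
theorem wm_hk1 (m k : ℤ) (z : E2) : wm (m + 1) k z ≤ wm m (k + 1) z := by
  have h : wm m (k + 1) z = wm m k z * wm 0 1 z := by rw [wm_mul, add_zero]
  have h2 : wm (m + 1) k z = wm m k z * wm 1 0 z := by rw [wm_mul, add_zero]
  rw [h, h2]
  refine mul_le_mul_of_nonneg_left ?_ (wm_pos m k z).le
  have h3 := hh_le_k1 z
  have h4 := one_le_k1 z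
  have h5 : hh z ≤ k1 z := by nlinarith [hh_pos z]
  simpa [wm] using h5

theorem aa_le_wm (z : E2) : aa z.2 ≤ wm 2 0 z := by
  have := aa_le_hh z
  simpa [wm] using this

theorem aa_le_wm' (z : E2) : aa z.2 ≤ wm 2 (-1) z := by
  have h1 := aa_k1_le z
  have h2 := k1_pos z
  have h : wm 2 (-1) z = hh z ^ 2 / k1 z := by
    unfold wm
    rw [zpow_neg_one, ← div_eq_mul_inv]
    norm_cast
  rw [h, le_div_iff₀ h2]
  exact h1

theorem aa_le_h (z : E2) : aa z.2 ≤ hh z := by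
  have h1 := aa_le_hh z
  have h2 := aa_le z.2
  have h3 := aa_pos z.2
  have h4 := hh_pos z
  nlinarith

section

variable {ι : Type}

theorem sm_T1 : Sm Om hh (fun (_ : ι) z => wm 1 0 z) fun _ z => z.1 :=
  sm_T.mono hh_pos 1 (fun _ z _ => (wm_pos 1 0 z).le) fun _ z _ => by simp [wm]

theorem sm_T2 : Sm Om hh (fun (_ : ι) z => wm 2 0 z) fun _ z => z.1 ^ 2 :=
  ((sm_T1.mul hh_pos sm_T1).mono hh_pos 1 (fun _ z _ => (wm_pos 2 0 z).le) fun _ z _ => by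
    rw [wm_mul, one_mul]; norm_num).congr fun _ z => by ring

theorem sm_aa1 : Sm Om hh (fun (_ : ι) _ => 1) fun _ z => aa z.2 :=
  sm_aa.mono hh_pos 1 (fun _ _ _ => zero_le_one) fun _ z _ => by
    rw [one_mul]; exact aa_le z.2

theorem sm_aa2 : Sm Om hh (fun (_ : ι) z => wm 2 0 z) fun _ z => aa z.2 :=
  sm_aa.mono hh_pos 1 (fun _ z _ => (wm_pos 2 0 z).le) fun _ z _ => by
    rw [one_mul]; exact aa_le_wm z

theorem sm_one01 : Sm Om hh (fun (_ : ι) z => wm 0 1 z) fun _ _ => (1 : ℝ) :=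
  (Sm.one hh_pos 1).mono hh_pos 1 (fun _ z _ => (wm_pos 0 1 z).le) fun _ z _ => by
    have := one_le_k1 z
    simpa [wm] using this

theorem sm_T2' : Sm Om hh (fun (_ : ι) z => wm 0 1 z) fun _ z => z.1 ^ 2 :=
  sm_T2.mono hh_pos 1 (fun _ z _ => (wm_pos 0 1 z).le) fun _ z _ => by
    rw [one_mul]; exact wm_hk 0 0 z

theorem sm_k1 : Sm Om hh (fun (_ : ι) z => wm 0 1 z) fun _ z => k1 z :=
  (sm_one01.add sm_T2').congr fun _ z => by rw [k1]

/-- `T² + a`. -/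
theorem sm_q : Sm Om hh (fun (_ : ι) z => wm 2 0 z) fun _ z => z.1 ^ 2 + aa z.2 :=
  sm_T2.add sm_aa2

/-- `1 - a`. -/
theorem sm_th : Sm Om hh (fun (_ : ι) _ => 1) fun _ z => 1 - aa z.2 :=
  (Sm.one hh_pos 1).sub hh_pos sm_aa1

/-- `A = T⁴ + (3 - a) T² + a`. -/
def An (z : E2) : ℝ := k1 z * (z.1 ^ 2 + aa z.2) + 2 * ((1 - aa z.2) * z.1 ^ 2)

theorem An_eq (z : E2) : An z = z.1 ^ 4 + (3 - aa z.2) * z.1 ^ 2 + aa z.2 := by
  unfold An k1; ring

theorem An_ge (z : E2) : wm 2 1 z ≤ An z := by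
  have h1 : wm 2 1 z = k1 z * (z.1 ^ 2 + aa z.2) := by
    unfold wm
    rw [zpow_one, ← hh_sq]
    norm_cast
    ring
  rw [h1, An]
  have := aa_le z.2
  have h2 : 0 ≤ (1 - aa z.2) * z.1 ^ 2 := mul_nonneg (by linarith) (sq_nonneg _)
  linarith

theorem An_pos (z : E2) : 0 < An z := (wm_pos 2 1 z).trans_le (An_ge z)

theorem sm_An : Sm Om hh (fun (_ : ι) z => wm 2 1 z) fun _ z => An z := by
  have h1 : Sm Om hh (fun (_ : ι) z => wm 2 1 z) fun _ z => k1 z * (z.1 ^ 2 + aa z.2) :=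
    (sm_k1.mul hh_pos sm_q).mono hh_pos 1 (fun _ z _ => (wm_pos 2 1 z).le) fun _ z _ => by
      rw [wm_mul, one_mul]; norm_num
  have h2 : Sm Om hh (fun (_ : ι) z => wm 2 1 z) fun _ z => 2 * ((1 - aa z.2) * z.1 ^ 2) :=
    ((sm_th.mul hh_pos sm_T2).rsmul hh_pos 2).mono hh_pos 1 (fun _ z _ => (wm_pos 2 1 z).le)
      fun _ z _ => by rw [one_mul, one_mul]; exact wm_up 2 0 z
  exact h1.add h2

theorem sm_k1i : Sm Om hh (fun (_ : ι) z => wm 0 (-1) z) fun _ z => (k1 z)⁻¹ :=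
  (sm_k1.inv hh_pos (fun _ z => (k1_pos z).ne') (fun _ z _ => wm_pos 0 1 z) one_pos
    (fun _ z _ => by rw [one_mul, abs_of_pos (k1_pos z)]; simp [wm])).mono hh_pos 1
    (fun _ z _ => (wm_pos 0 (-1) z).le) fun _ z _ => by rw [wm_inv, one_mul]; norm_num

theorem sm_Ani : Sm Om hh (fun (_ : ι) z => wm (-2) (-1) z) fun _ z => (An z)⁻¹ :=
  (sm_An.inv hh_pos (fun _ z => (An_pos z).ne') (fun _ z _ => wm_pos 2 1 z) one_pos
    (fun _ z _ => by rw [one_mul, abs_of_pos (An_pos z)]; exact An_ge z)).mono hh_pos 1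
    (fun _ z _ => (wm_pos (-2) (-1) z).le) fun _ z _ => by rw [wm_inv, one_mul]

/-- `κ̂`. -/
def kh (z : E2) : ℝ := An z * ((k1 z)⁻¹ * (k1 z)⁻¹)

/-- `P = 1 / κ̂`. -/
def Pp (z : E2) : ℝ := k1 z * k1 z * (An z)⁻¹

theorem kh_pos (z : E2) : 0 < kh z := by
  have h1 := An_pos z
  have h2 := k1_pos z
  unfold kh; positivity

theorem Pp_pos (z : E2) : 0 < Pp z := by
  have h1 := An_pos z
  have h2 := k1_pos z
  unfold Pp; positivity

theorem kh_Pp (z : E2) : kh z * Pp z = 1 := by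
  have h1 := (An_pos z).ne'
  have h2 := (k1_pos z).ne'
  unfold kh Pp
  field_simp

theorem sm_kh : Sm Om hh (fun (_ : ι) z => wm 2 (-1) z) fun _ z => kh z :=
  (sm_An.mul hh_pos (sm_k1i.mul hh_pos sm_k1i)).mono hh_pos 1
    (fun _ z _ => (wm_pos 2 (-1) z).le) fun _ z _ => by
      rw [wm_mul, wm_mul, one_mul]; norm_num

theorem sm_Pp : Sm Om hh (fun (_ : ι) z => wm (-2) 1 z) fun _ z => Pp z :=
  ((sm_k1.mul hh_pos sm_k1).mul hh_pos sm_Ani).mono hh_pos 1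
    (fun _ z _ => (wm_pos (-2) 1 z).le) fun _ z _ => by
      rw [wm_mul, wm_mul, one_mul]; norm_num

theorem Pp_sub (z : E2) : Pp z - 1 = (1 - aa z.2) * ((1 - z.1 ^ 2) * (An z)⁻¹) := by
  have h1 := (An_pos z).ne'
  unfold Pp
  field_simp
  unfold An k1
  ring

/-- `P - 1`. -/
theorem sm_P1 : Sm Om hh (fun (_ : ι) z => wm (-2) 0 z) fun _ z => Pp z - 1 :=
  ((sm_th.mul hh_pos ((sm_one01.sub hh_pos sm_T2').mul hh_pos sm_Ani)).mono hh_pos 1
    (fun _ z _ => (wm_pos (-2) 0 z).le) fun _ z _ => by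
      rw [wm_mul, one_mul, one_mul]; norm_num).congr fun _ z => (Pp_sub z).symm

theorem dT_Pp : dT Pp = dT fun z => Pp z - 1 := by
  funext z
  unfold dT
  rw [fderiv_sub_const]

theorem dS_Pp : dS Pp = dS fun z => Pp z - 1 := by
  funext z
  unfold dS
  rw [fderiv_sub_const]

/-- `a'`. -/
def aa' (s : ℝ) : ℝ := deriv aa s

theorem aa_sm : ContDiff ℝ ∞ aa := by
  have h : ContDiff ℝ ∞ fun s : ℝ => (fun z : E2 => aa z.2) ((0 : ℝ), s) :=
    ((sm_aa (ι := Unit)).sm ()).comp (contDiff_const.prodMk contDiff_id)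
  exact h

theorem sm_aa' : Sm Om hh (fun (_ : ι) z => aa z.2) fun _ z => aa' z.2 :=
  sm_aa.dS.congr fun _ z => by rw [dS_snd aa_sm]; rfl

/-- `v = T κ₀`. -/
def vv (z : E2) : ℝ := z.1 * ((z.1 ^ 2 + aa z.2) * (k1 z)⁻¹)

/-- `γ / T`. -/
def gt (z : E2) : ℝ :=
  Pp z * (-(2 * ((1 - aa z.2) * (z.1 ^ 2 * ((k1 z)⁻¹ * (k1 z)⁻¹)))) + aa' z.2 * (k1 z)⁻¹)

/-- `γ = β - T`. -/
def ga (z : E2) : ℝ := z.1 * gt z

/-- `β`. -/
def be (z : E2) : ℝ := z.1 + ga z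

theorem sm_gt : Sm Om hh (fun (_ : ι) z => wm 0 (-1) z) fun _ z => gt z := by
  have h1 : Sm Om hh (fun (_ : ι) z => wm 2 (-2) z)
      fun _ z => -(2 * ((1 - aa z.2) * (z.1 ^ 2 * ((k1 z)⁻¹ * (k1 z)⁻¹)))) :=
    (((sm_th.mul hh_pos (sm_T2.mul hh_pos (sm_k1i.mul hh_pos sm_k1i))).rsmul hh_pos 2).neg
      hh_pos).mono hh_pos 1 (fun _ z _ => (wm_pos 2 (-2) z).le) fun _ z _ => by
        rw [wm_mul, wm_mul, one_mul, one_mul]; norm_num
  have h2 : Sm Om hh (fun (_ : ι) z => wm 2 (-2) z) fun _ z => aa' z.2 * (k1 z)⁻¹ :=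
    (sm_aa'.mul hh_pos sm_k1i).mono hh_pos 1 (fun _ z _ => (wm_pos 2 (-2) z).le)
      fun _ z _ => by
        rw [one_mul]
        have h3 : wm 2 (-2) z = wm 2 (-1) z * wm 0 (-1) z := by rw [wm_mul]; norm_num
        rw [h3]
        exact mul_le_mul_of_nonneg_right (aa_le_wm' z) (wm_pos 0 (-1) z).le
  exact (sm_Pp.mul hh_pos (h1.add h2)).mono hh_pos 1 (fun _ z _ => (wm_pos 0 (-1) z).le)
    fun _ z _ => by rw [wm_mul, one_mul]; norm_num

theorem sm_ga : Sm Om hh (fun (_ : ι) z => wm 1 (-1) z) fun _ z => ga z :=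
  (sm_T1.mul hh_pos sm_gt).mono hh_pos 1 (fun _ z _ => (wm_pos 1 (-1) z).le) fun _ z _ => by
    rw [wm_mul, one_mul]; norm_num

theorem wm_11 (z : E2) : wm 1 (-1) z ≤ 1 := by
  rw [← wm_zero z]
  exact wm_hk1 0 (-1) z

theorem wm_21 (z : E2) : wm 2 (-1) z ≤ 1 := by
  rw [← wm_zero z]
  exact wm_hk 0 (-1) z

theorem sm_ga1 : Sm Om hh (fun (_ : ι) _ => 1) fun _ z => ga z :=
  sm_ga.mono hh_pos 1 (fun _ _ _ => zero_le_one) fun _ z _ => by rw [one_mul]; exact wm_11 z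

theorem sm_kh1 : Sm Om hh (fun (_ : ι) _ => 1) fun _ z => kh z :=
  sm_kh.mono hh_pos 1 (fun _ _ _ => zero_le_one) fun _ z _ => by rw [one_mul]; exact wm_21 z

theorem sm_be : Sm Om hh (fun (_ : ι) z => wm 1 0 z) fun _ z => be z :=
  sm_T1.add (sm_ga.mono hh_pos 1 (fun _ z _ => (wm_pos 1 0 z).le) fun _ z _ => by
    rw [one_mul]; exact wm_up 1 (-1) z)

theorem sm_vv : Sm Om hh (fun (_ : ι) z => wm 3 (-1) z) fun _ z => vv z :=
  (sm_T1.mul hh_pos (sm_q.mul hh_pos sm_k1i)).mono hh_pos 1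
    (fun _ z _ => (wm_pos 3 (-1) z).le) fun _ z _ => by
      rw [wm_mul, wm_mul, one_mul]; norm_num

end

end Vale.Agent.P088.R2.H768.W
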