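import Vale.Agent.P088.R2.H768.W.Fun2

/-!
# The recursion for the derivatives of the slow-down
-/

open scoped ContDiff Topology
open Set Filter

noncomputable section

namespace Vale.Agent.P088.R2.H768.W

/-! ### Smoothness -/

theorem An_sm : ContDiff ℝ ∞ An := (sm_An (ι := Unit)).sm ()
theorem kh_sm : ContDiff ℝ ∞ kh := (sm_kh (ι := Unit)).sm ()
theorem Pp_sm : ContDiff ℝ ∞ Pp := (sm_Pp (ι := Unit)).sm ()
theorem ga_sm : ContDiff ℝ ∞ ga := (sm_ga (ι := Unit)).sm ()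
theorem be_sm : ContDiff ℝ ∞ be := (sm_be (ι := Unit)).sm ()
theorem vv_sm : ContDiff ℝ ∞ vv := (sm_vv (ι := Unit)).sm ()
theorem q_sm : ContDiff ℝ ∞ fun z : E2 => z.1 ^ 2 + aa z.2 := (sm_q (ι := Unit)).sm ()
theorem k1_sm : ContDiff ℝ ∞ k1 := (sm_k1 (ι := Unit)).sm ()
theorem k1i_sm : ContDiff ℝ ∞ fun z : E2 => (k1 z)⁻¹ := (sm_k1i (ι := Unit)).sm ()
theorem T_sm : ContDiff ℝ ∞ fun z : E2 => z.1 := contDiff_fst
theorem aas_sm : ContDiff ℝ ∞ fun z : E2 => aa z.2 := aa_sm.comp contDiff_snd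

/-- `e^{-s}`. -/
def es (z : E2) : ℝ := Real.exp (-z.2)

theorem es_sm : ContDiff ℝ ∞ es := Real.contDiff_exp.comp contDiff_snd.neg

theorem dT_es : dT es = fun _ => 0 :=
  dT_snd (g := fun s => Real.exp (-s)) (Real.contDiff_exp.comp contDiff_neg)

theorem dS_es : dS es = fun z => -es z := by
  have h := dS_snd (g := fun s => Real.exp (-s)) (Real.contDiff_exp.comp contDiff_neg)
  have e : (fun z : E2 => (fun s => Real.exp (-s)) z.2) = es := rfl
  rw [e] at h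
  rw [h]
  funext z
  have h1 : HasDerivAt (fun s : ℝ => Real.exp (-s)) (Real.exp (-z.2) * -1) z.2 :=
    (hasDerivAt_neg z.2).exp
  rw [h1.deriv, es]
  ring

/-! ### Derivatives of `v` -/

theorem dT_q : dT (fun z : E2 => z.1 ^ 2 + aa z.2) = fun z => 2 * z.1 := by
  have e : (fun z : E2 => z.1 ^ 2 + aa z.2) = fun z => z.1 * z.1 + aa z.2 := by
    funext z; ring
  rw [e, dT_add (T_sm.mul T_sm) aas_sm, dT_snd aa_sm, dT_mul T_sm T_sm, dT_fst]
  funext z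
  ring

theorem dS_q : dS (fun z : E2 => z.1 ^ 2 + aa z.2) = fun z => aa' z.2 := by
  have e : (fun z : E2 => z.1 ^ 2 + aa z.2) = fun z => z.1 * z.1 + aa z.2 := by
    funext z; ring
  rw [e, dS_add (T_sm.mul T_sm) aas_sm, dS_snd aa_sm, dS_mul T_sm T_sm, dS_fst]
  funext z
  simp [aa']

theorem dT_k1 : dT k1 = fun z => 2 * z.1 := by
  have e : k1 = fun z : E2 => 1 + z.1 * z.1 := by funext z; rw [k1]; ring
  rw [e, dT_add contDiff_const (T_sm.mul T_sm), dT_const, dT_mul T_sm T_sm, dT_fst]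
  funext z
  ring

theorem dS_k1 : dS k1 = fun _ => 0 := by
  have e : k1 = fun z : E2 => 1 + z.1 * z.1 := by funext z; rw [k1]; ring
  rw [e, dS_add contDiff_const (T_sm.mul T_sm), dS_const, dS_mul T_sm T_sm, dS_fst]
  funext z
  ring

theorem dT_vv : dT vv = kh := by
  have e : vv = fun z : E2 => z.1 * ((z.1 ^ 2 + aa z.2) * (k1 z)⁻¹) := rfl
  rw [e, dT_mul T_sm (q_sm.mul k1i_sm), dT_fst, dT_mul q_sm k1i_sm, dT_q,
    dT_inv k1_sm (fun z => (k1_pos z).ne'), dT_k1]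
  funext z
  have h := (k1_pos z).ne'
  simp only [kh, An]
  field_simp
  unfold k1
  ring

theorem dS_vv : dS vv = fun z => z.1 * (aa' z.2 * (k1 z)⁻¹) := by
  have e : vv = fun z : E2 => z.1 * ((z.1 ^ 2 + aa z.2) * (k1 z)⁻¹) := rfl
  rw [e, dS_mul T_sm (q_sm.mul k1i_sm), dS_fst, dS_mul q_sm k1i_sm, dS_q,
    dS_inv k1_sm (fun z => (k1_pos z).ne'), dS_k1]
  funext z
  ring

/-- `κ̂ γ = v + v_s - T κ̂`. -/
theorem kh_ga (z : E2) : kh z * ga z = vv z + dS vv z - z.1 * kh z := by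
  rw [dS_vv, ga, gt]
  have h1 := kh_Pp z
  have h2 := (k1_pos z).ne'
  have : kh z * (z.1 * (Pp z * (-(2 * ((1 - aa z.2) * (z.1 ^ 2 * ((k1 z)⁻¹ * (k1 z)⁻¹)))) +
      aa' z.2 * (k1 z)⁻¹))) = z.1 * (-(2 * ((1 - aa z.2) * (z.1 ^ 2 * ((k1 z)⁻¹ * (k1 z)⁻¹)))) +
      aa' z.2 * (k1 z)⁻¹) := by
    linear_combination (z.1 * (-(2 * ((1 - aa z.2) * (z.1 ^ 2 * ((k1 z)⁻¹ * (k1 z)⁻¹)))) +
      aa' z.2 * (k1 z)⁻¹)) * h1
  rw [this, vv, kh, An]
  field_simp
  unfold k1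
  ring

/-- `∂_T (κ̂ γ) = κ̂_s - T κ̂_T`. -/
theorem dT_kh_ga (z : E2) : dT kh z * ga z + kh z * dT ga z = dS kh z - z.1 * dT kh z := by
  have h1 := dT_mul kh_sm ga_sm
  have e : (fun z => kh z * ga z) = fun z => vv z + (dS vv z + -1 * (z.1 * kh z)) := by
    funext z; rw [kh_ga]; ring
  have h2 : dT (fun z => vv z + (dS vv z + -1 * (z.1 * kh z))) z =
      kh z + (dS kh z + -1 * (kh z + z.1 * dT kh z)) := by
    rw [dT_add vv_sm ((dS_sm vv_sm).add (contDiff_const.mul (T_sm.mul kh_sm))),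
      dT_add (dS_sm vv_sm) (contDiff_const.mul (T_sm.mul kh_sm)),
      dT_mul contDiff_const (T_sm.mul kh_sm), dT_mul T_sm kh_sm, dT_fst, dT_const, dT_vv,
      dT_dS vv_sm, dT_vv]
    ring
  rw [e] at h1
  have h3 := congrFun h1 z
  rw [h2] at h3
  linarith

/-! ### Operators -/

/-- `A₁ F = κ̂ F + δ e^{-s} F_T`. -/
def A1 (δ : ℝ) (F : E2 → ℝ) (z : E2) : ℝ := kh z * F z + δ * (es z * dT F z)

/-- `F_s - β F_T`. -/
def DD (F : E2 → ℝ) (z : E2) : ℝ := dS F z - be z * dT F z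

/-- `A₂`. -/
def A2 (τ δ : ℝ) (F : E2 → ℝ) (z : E2) : ℝ :=
  τ * (ga z * A1 δ F z) + τ * δ * (es z * DD F z)

section

variable {τ δ : ℝ} {F : E2 → ℝ}

theorem A1_sm (hF : ContDiff ℝ ∞ F) : ContDiff ℝ ∞ (A1 δ F) :=
  (kh_sm.mul hF).add (contDiff_const.mul (es_sm.mul (dT_sm hF)))

theorem DD_sm (hF : ContDiff ℝ ∞ F) : ContDiff ℝ ∞ (DD F) :=
  (dS_sm hF).sub (be_sm.mul (dT_sm hF))

theorem A2_sm (hF : ContDiff ℝ ∞ F) : ContDiff ℝ ∞ (A2 τ δ F) :=
  (contDiff_const.mul (ga_sm.mul (A1_sm hF))).add (contDiff_const.mul (es_sm.mul (DD_sm hF)))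

/-- Another form of `A₂`. -/
theorem A2_eq (τ δ : ℝ) (F : E2 → ℝ) (z : E2) : A2 τ δ F z =
    τ * (kh z * ga z) * F z + τ * δ * (es z * (dS F z + -1 * (z.1 * dT F z))) := by
  unfold A2 A1 DD be
  ring

theorem A1_A2 (hF : ContDiff ℝ ∞ F) : A1 δ (A2 τ δ F) = A2 τ δ (A1 δ F) := by
  have e2 : A2 τ δ F = fun z => τ * (kh z * ga z) * F z +
      τ * δ * (es z * (dS F z + -1 * (z.1 * dT F z))) := by
    funext z; exact A2_eq τ δ F z
  have hd := dT_sm hF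
  have hs := dS_sm hF
  have s1 : ContDiff ℝ ∞ fun z : E2 => -1 * (z.1 * dT F z) :=
    contDiff_const.mul (T_sm.mul hd)
  have s2 : ContDiff ℝ ∞ fun z => dS F z + -1 * (z.1 * dT F z) := hs.add s1
  have s3 : ContDiff ℝ ∞ fun z => τ * (kh z * ga z) := contDiff_const.mul (kh_sm.mul ga_sm)
  funext z
  have l1 : dT (A2 τ δ F) z = τ * (dT kh z * ga z + kh z * dT ga z) * F z +
      τ * (kh z * ga z) * dT F z + τ * δ * (es z * (dT (dS F) z - dT F z - z.1 * dT (dT F) z)) := by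
    rw [e2, dT_add (s3.mul hF) (contDiff_const.mul (es_sm.mul s2)), dT_mul s3 hF,
      dT_mul contDiff_const (kh_sm.mul ga_sm), dT_mul kh_sm ga_sm,
      dT_mul contDiff_const (es_sm.mul s2), dT_mul es_sm s2, dT_add hs s1,
      dT_mul contDiff_const (T_sm.mul hd), dT_mul T_sm hd, dT_fst, dT_es, dT_const, dT_const,
      dT_const]
    ring
  have l2 : dT (A1 δ F) z = dT kh z * F z + kh z * dT F z + δ * (es z * dT (dT F) z) := by
    have e1 : A1 δ F = fun z => kh z * F z + δ * (es z * dT F z) := rfl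
    rw [e1, dT_add (kh_sm.mul hF) (contDiff_const.mul (es_sm.mul hd)), dT_mul kh_sm hF,
      dT_mul contDiff_const (es_sm.mul hd), dT_mul es_sm hd, dT_es, dT_const]
    ring
  have l3 : dS (A1 δ F) z = dS kh z * F z + kh z * dS F z +
      δ * (-es z * dT F z + es z * dS (dT F) z) := by
    have e1 : A1 δ F = fun z => kh z * F z + δ * (es z * dT F z) := rfl
    rw [e1, dS_add (kh_sm.mul hF) (contDiff_const.mul (es_sm.mul hd)), dS_mul kh_sm hF,
      dS_mul contDiff_const (es_sm.mul hd), dS_mul es_sm hd, dS_es, dS_const]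
    ring
  have l4 : A1 δ (A2 τ δ F) z = kh z * A2 τ δ F z + δ * (es z * dT (A2 τ δ F) z) := rfl
  rw [l4, l1, A2_eq, A2_eq, l2, l3, dT_kh_ga, dT_dS hF]
  unfold A1
  ring

/-- `R_ij`. -/
def RR (τ δ : ℝ) (i j : ℕ) : E2 → ℝ := (A2 τ δ)^[j] ((A1 δ)^[i] Pp)

theorem RR_zero : RR τ δ 0 0 = Pp := rfl

theorem RR_sm (i j : ℕ) : ContDiff ℝ ∞ (RR τ δ i j) := by
  induction j with
  | zero =>
    induction i with
    | zero => exact Pp_sm
    | succ i ih =>
      unfold RR at ih ⊢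
      rw [Function.iterate_zero, id, Function.iterate_succ_apply']
      exact A1_sm ih
  | succ j ih =>
    unfold RR
    rw [Function.iterate_succ_apply']
    exact A2_sm ih

theorem RR_right (i j : ℕ) : RR τ δ i (j + 1) = A2 τ δ (RR τ δ i j) := by
  unfold RR
  rw [Function.iterate_succ_apply']

theorem RR_left (i j : ℕ) : RR τ δ (i + 1) j = A1 δ (RR τ δ i j) := by
  induction j with
  | zero =>
    unfold RR
    rw [Function.iterate_zero, id, id, Function.iterate_succ_apply']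
  | succ j ih => rw [RR_right, ih, RR_right, A1_A2 (RR_sm i j)]

end

end Vale.Agent.P088.R2.H768.W
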