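import Vale.Agent.P088.R2.H768.W.Core
import Mathlib.Analysis.SpecialFunctions.Pow.Real

/-!
# The slow-down: `IsSlow` and its existence

`D i j = ∂_φ^i ∂_r^j Ψ`, `Ψ = D 0 0`, `G = D 1 0`, `g = κ G = D 2 0`, `κ = D20 / D10`,
`ω = D11 / D20`, `p = D30 / D20`.
-/

open scoped ContDiff Topology
open Set Filter

noncomputable section

namespace Vale.Agent.P088.R2.H768.W

/-- The contract of the slow-down. -/
structure IsSlow (ε N c' τ r₁ : ℝ) (Cb : ℕ → ℕ → ℝ) (u : E2 → ℝ) (D : ℕ → ℕ → E2 → ℝ) :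
    Prop where
  sm : ∀ i j, ContDiffOn ℝ ∞ (D i j) {z | 0 < z.2}
  hd : ∀ i j z, 0 < z.2 → HasFDerivAt (D i j) (lf (D (i + 1) j z) (D i (j + 1) z)) z
  usm : ContDiffOn ℝ ∞ u {z | 0 < z.2}
  inn : ∀ i j z, 0 < z.2 → z.2 < r₁ * Real.exp (-1) →
    D i j z = if j = 0 then Real.exp z.1 else 0
  uinn : ∀ z, 0 < z.2 → z.2 < r₁ * Real.exp (-1) → u z = z.1
  u_form : ∀ z, 0 < z.2 → ∃ k, 1 / 2 * min 1 √(r₁ / z.2) ≤ k ∧ k ≤ 1 ∧ u z = k * z.1
  u_dist : ∀ z, 0 < z.2 → |u z - z.1| ≤ τ * z.2 / 2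
  psi_pos : ∀ z, 0 < z.2 → 0 < D 0 0 z
  G_pos : ∀ z, 0 < z.2 → 0 < D 1 0 z
  g_pos : ∀ z, 0 < z.2 → 0 < D 2 0 z
  G_u : ∀ z, 0 < z.2 → |D 1 0 z - Real.exp (u z)| ≤ ε * Real.exp (u z)
  kap_le : ∀ z, 0 < z.2 → D 2 0 z ≤ 6 / 5 * D 1 0 z
  kap_ge : ∀ z, 0 < z.2 → 1 / 4 * min 1 √(r₁ / z.2) * D 1 0 z ≤ D 2 0 z
  psi : ∀ z, 0 < z.2 → |D 2 0 z * D 0 0 z - D 1 0 z ^ 2| ≤ ε * D 1 0 z ^ 2
  mu : ∀ z, 0 < z.2 → |D 0 1 z| ≤ ε * D 1 0 z
  om : ∀ z, 0 < z.2 → |D 1 1 z| ≤ ε * D 2 0 z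
  s0 : ∀ z, 0 < z.2 → |D 0 2 z * D 2 0 z - D 1 1 z ^ 2| ≤ ε * (D 1 0 z * D 2 0 z / z.2)
  hij : ∀ i j z, 0 < z.2 → 3 ≤ i + j →
    |D i j z - D (i + j) 0 z * (D 1 1 z / D 2 0 z) ^ j| ≤ Cb i j * (D 2 0 z / z.2)
  lam_nn : ∀ z, 0 < z.2 → 0 ≤ D 3 0 z
  lam_le : ∀ z, 0 < z.2 → D 3 0 z ≤ 6 / 5 * D 2 0 z
  conv : ∀ z, 0 < z.2 → |D 4 0 z * D 2 0 z - D 3 0 z ^ 2| ≤ ε * (N / z.2) * (D 1 0 z * D 2 0 z)
  bd1 : ∀ i j z, 0 < z.2 → 1 ≤ i + j → |D i j z| ≤ Cb i j * D 1 0 z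
  bd2 : ∀ i j z, 0 < z.2 → 2 ≤ i + j → |D i j z| ≤ Cb i j * D 2 0 z
  slow : ∀ z, 0 < z.2 → D 2 0 z ^ 2 * z.2 ≤ c' * (D 1 0 z * (N + D 1 0 z) ^ 2)

/-! ### The inner region -/

theorem aa'_in {s : ℝ} (h : s < -1) : aa' s = 0 := by
  have : aa =ᶠ[𝓝 s] fun _ => 1 := by
    filter_upwards [Iio_mem_nhds h] with t ht using aa_one (le_of_lt ht)
  rw [aa', this.deriv_eq]
  simp

theorem kh_in {w : E2} (h : w.2 < -1) : kh w = 1 := by
  have h1 := (k1_pos w).ne'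
  have h2 : An w = k1 w * k1 w := by
    rw [An, aa_one h.le, k1]; ring
  rw [kh, h2]
  field_simp

theorem Pp_in {w : E2} (h : w.2 < -1) : Pp w = 1 := by
  have h1 := kh_Pp w
  rwa [kh_in h, one_mul] at h1

theorem ga_in {w : E2} (h : w.2 < -1) : ga w = 0 := by
  rw [ga, gt, aa'_in h, aa_one h.le]
  ring

theorem isOpen_in : IsOpen {w : E2 | w.2 < -1} := isOpen_lt continuous_snd continuous_const

theorem dT_loc {F : E2 → ℝ} {c : ℝ} (h : ∀ w : E2, w.2 < -1 → F w = c) {w : E2}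
    (hw : w.2 < -1) : dT F w = 0 ∧ dS F w = 0 := by
  have : F =ᶠ[𝓝 w] fun _ => c := by
    filter_upwards [isOpen_in.mem_nhds hw] with t ht using h t ht
  unfold dT dS
  rw [this.fderiv_eq]
  simp

theorem RR_in (τ δ : ℝ) (j i : ℕ) : ∀ w : E2, w.2 < -1 →
    RR τ δ i j w = if j = 0 then 1 else 0 := by
  induction j with
  | zero =>
    induction i with
    | zero => intro w hw; rw [RR_zero, Pp_in hw]; simp
    | succ i ih =>
      intro w hw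
      simp only [if_true] at ih ⊢
      rw [RR_left, A1, (dT_loc ih hw).1, ih w hw, kh_in hw]
      ring
  | succ j ih =>
    intro w hw
    have h1 := dT_loc ih hw
    rw [RR_right, A2, DD, h1.1, h1.2, ga_in hw]
    simp

/-! ### The exponent -/

/-- `k₀ = (T² + a) / (1 + T²)`. -/
def k0 (w : E2) : ℝ := (w.1 ^ 2 + aa w.2) * (k1 w)⁻¹

theorem k0_le (w : E2) : k0 w ≤ 1 := by
  have h1 := k1_pos w
  have h2 := aa_le w.2
  rw [k0, ← div_eq_mul_inv, div_le_one h1, k1]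
  linarith

theorem aa_le_k0 (w : E2) : aa w.2 ≤ k0 w := by
  have h1 := k1_pos w
  have h2 := aa_le w.2
  rw [k0, ← div_eq_mul_inv, le_div_iff₀ h1, k1]
  nlinarith [sq_nonneg w.1]

theorem k0_dist (w : E2) : |w.1| * (1 - k0 w) ≤ 1 / 2 := by
  have h1 := k1_pos w
  have h2 := aa_le w.2
  have h3 := aa_pos w.2
  have e : 1 - k0 w = (1 - aa w.2) * (k1 w)⁻¹ := by
    rw [k0]
    field_simp
    unfold k1
    ring
  rw [e, ← mul_assoc, ← div_eq_mul_inv, div_le_iff₀ h1, k1, ← sq_abs w.1]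
  have h4 := abs_nonneg w.1
  nlinarith [sq_nonneg (|w.1| - 1)]

section

variable {τ r₁ : ℝ}

theorem uu_eq (hτ : 0 < τ) (hr : 0 < r₁) {z : E2} (hz : 0 < z.2) :
    uu τ r₁ z = k0 (Zc τ r₁ z) * z.1 := by
  have e1 := exp_Zc (τ := τ) hr hz
  have e3 : (Zc τ r₁ z).1 = z.1 / (τ * z.2) := rfl
  have e4 : vv (Zc τ r₁ z) = (Zc τ r₁ z).1 * k0 (Zc τ r₁ z) := rfl
  rw [uu, ev, e1, e4, e3]
  have hz' : z.2 ≠ 0 := hz.ne'
  have hr' : r₁ ≠ 0 := hr.ne'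
  have hτ' : τ ≠ 0 := hτ.ne'
  field_simp

theorem aa_ge_min (hr : 0 < r₁) {z : E2} (hz : 0 < z.2) :
    1 / 2 * min 1 √(r₁ / z.2) ≤ aa (Zc τ r₁ z).2 := by
  have h0 : 0 ≤ √(r₁ / z.2) := Real.sqrt_nonneg _
  rcases lt_or_ge (Zc τ r₁ z).2 (-1) with h | h
  · rw [aa_one h.le]
    have := min_le_left 1 √(r₁ / z.2)
    linarith
  · have h1 := exp_le_aa h
    have h2 : Real.exp (-(Zc τ r₁ z).2) = r₁ / z.2 := es_Zc hr hz
    rw [h2] at h1
    have h3 := aa_pos (Zc τ r₁ z).2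
    have h4 : √(r₁ / z.2) ≤ 2 * aa (Zc τ r₁ z).2 := by
      rw [show 2 * aa (Zc τ r₁ z).2 = √((2 * aa (Zc τ r₁ z).2) ^ 2) from
        (Real.sqrt_sq (by linarith)).symm]
      exact Real.sqrt_le_sqrt (by linarith)
    have := min_le_right 1 √(r₁ / z.2)
    linarith

theorem in_or (hr : 0 < r₁) {z : E2} (hz : 0 < z.2) :
    ((Zc τ r₁ z).2 < -1 ↔ z.2 < r₁ * Real.exp (-1)) := by
  have h1 := exp_Zc (τ := τ) hr hz
  rw [← Real.exp_lt_exp, h1, div_lt_iff₀ hr, mul_comm]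

theorem k0_in {w : E2} (h : w.2 < -1) : k0 w = 1 := by
  have h1 := (k1_pos w).ne'
  rw [k0, aa_one h.le, k1, add_comm (w.1 ^ 2)]
  rw [k1] at h1
  exact mul_inv_cancel₀ h1

theorem uu_in (hτ : 0 < τ) (hr : 0 < r₁) {z : E2} (hz : 0 < z.2)
    (h : z.2 < r₁ * Real.exp (-1)) : uu τ r₁ z = z.1 := by
  rw [uu_eq hτ hr hz, k0_in ((in_or hr hz).2 h), one_mul]

theorem Dp_in (hτ : 0 < τ) (hr : 0 < r₁) (i j : ℕ) {z : E2} (hz : 0 < z.2)
    (h : z.2 < r₁ * Real.exp (-1)) : Dp τ r₁ i j z = if j = 0 then Real.exp z.1 else 0 := by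
  rw [Dp, uu_in hτ hr hz h, RR_in _ _ j i _ ((in_or hr hz).2 h)]
  split_ifs <;> simp

/-- `δ e^{-s} = 1 / (τ r)`. -/
theorem dl_es (hτ : 0 < τ) (hr : 0 < r₁) {z : E2} (hz : 0 < z.2) :
    dl τ r₁ * es (Zc τ r₁ z) = 1 / (τ * z.2) := by
  rw [es_Zc hr hz, dl]
  have hz' : z.2 ≠ 0 := hz.ne'
  have hr' : r₁ ≠ 0 := hr.ne'
  have hτ' : τ ≠ 0 := hτ.ne'
  field_simp

theorem tdl_es (hτ : 0 < τ) (hr : 0 < r₁) {z : E2} (hz : 0 < z.2) :
    τ * dl τ r₁ * es (Zc τ r₁ z) = 1 / z.2 := by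
  rw [mul_assoc, dl_es hτ hr hz]
  have hz' : z.2 ≠ 0 := hz.ne'
  have hτ' : τ ≠ 0 := hτ.ne'
  field_simp

end

/-- The largeness of the exponent in the outer part. -/
theorem uu_large {τ r₁ L : ℝ} (hτ : 0 < τ) (hr : 0 < r₁) (hL : 4 ≤ L) (hB : 4 * L ≤ τ * r₁)
    {z : E2} (hz : 0 < z.2) (hs : 0 ≤ (Zc τ r₁ z).2)
    (hT : aa (Zc τ r₁ z).2 ≤ (Zc τ r₁ z).1 ^ 2) :
    L + (Zc τ r₁ z).2 ≤ |uu τ r₁ z| := by
  set w := Zc τ r₁ z with hw
  have e1 : Real.exp w.2 = z.2 / r₁ := exp_Zc hr hz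
  have e4 : vv w = w.1 * k0 w := rfl
  have h1 := k1_pos w
  have ha := aa_pos w.2
  have ha1 := aa_le w.2
  have hk : 0 < k0 w := ha.trans_le (aa_le_k0 w)
  have e5 : |uu τ r₁ z| = τ * r₁ * (Real.exp w.2 * (|w.1| * k0 w)) := by
    have : uu τ r₁ z = τ * r₁ * (Real.exp w.2 * (w.1 * k0 w)) := by
      rw [uu, ev, ← hw, e4]
    rw [this, abs_mul, abs_of_pos (mul_pos hτ hr), abs_mul, abs_of_pos (Real.exp_pos _),
      abs_mul, abs_of_pos hk]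
  set b := √(aa w.2) with hb
  have hb0 : 0 < b := Real.sqrt_pos.2 ha
  have hb2 : b ^ 2 = aa w.2 := Real.sq_sqrt ha.le
  have hb1 : b ≤ 1 := by nlinarith
  have hT' : b ≤ |w.1| := Real.sqrt_le_iff.2 ⟨abs_nonneg _, by rw [sq_abs]; exact hT⟩
  have h6 : b ^ 3 ≤ |w.1| * k0 w := by
    rw [k0, ← hb2, ← div_eq_mul_inv, ← mul_div_assoc, le_div_iff₀ h1, k1, ← sq_abs w.1]
    have h7 := abs_nonneg w.1
    nlinarith [mul_nonneg (sq_nonneg |w.1|) (sub_nonneg.2 hT'),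
      mul_nonneg (sq_nonneg b) (sub_nonneg.2 hT'), pow_le_of_le_one hb0.le hb1 (n := 3) (by norm_num)]
  set q := Real.exp (w.2 / 4) with hq
  have hq0 : 0 < q := Real.exp_pos _
  have hq1 : 1 + w.2 / 4 ≤ q := by
    have := Real.add_one_le_exp (w.2 / 4)
    linarith
  have q4 : Real.exp w.2 = q ^ 4 := by
    rw [hq, ← Real.exp_nat_mul]; congr 1; push_cast; ring
  have q2 : aa w.2 = (q ^ 2)⁻¹ / 2 := by
    rw [aa_exp hs, Real.exp_neg, hq, ← Real.exp_nat_mul]; congr 3; push_cast; ring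
  have hbq : 7 / 10 * q⁻¹ ≤ b := by
    refine (Real.le_sqrt' (by positivity)).2 ?_
    rw [q2, mul_pow, inv_pow]
    have : 0 < (q ^ 2)⁻¹ := by positivity
    linarith
  have h8 : 7 / 20 * q ≤ Real.exp w.2 * (|w.1| * k0 w) := by
    have h9 : (q ^ 2)⁻¹ / 2 * (7 / 10 * q⁻¹) ≤ b ^ 3 := by
      calc (q ^ 2)⁻¹ / 2 * (7 / 10 * q⁻¹) ≤ (q ^ 2)⁻¹ / 2 * b :=
            mul_le_mul_of_nonneg_left hbq (by positivity)
        _ = b ^ 3 := by rw [← q2, ← hb2]; ring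
    calc 7 / 20 * q = q ^ 4 * ((q ^ 2)⁻¹ / 2 * (7 / 10 * q⁻¹)) := by field_simp; norm_num
      _ ≤ q ^ 4 * (|w.1| * k0 w) := mul_le_mul_of_nonneg_left (h9.trans h6) (by positivity)
      _ = _ := by rw [q4]
  rw [e5]
  calc L + w.2 ≤ 4 * L * (7 / 20 * (1 + w.2 / 4)) := by nlinarith
    _ ≤ τ * r₁ * (Real.exp w.2 * (|w.1| * k0 w)) :=
        mul_le_mul hB ((mul_le_mul_of_nonneg_left hq1 (by norm_num)).trans h8)
          (by positivity) (by positivity)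

/-- The window condition. -/
theorem slow_key {C : ℝ} {Cb : ℕ → ℕ → ℝ} {τ r₁ L N c' : ℝ} (hτ : 0 < τ) (hr : 0 < r₁)
    (hc : 0 < c') (hL : 4 ≤ L) (hN : N = Real.exp L) (hr1 : r₁ = c' * N / 2)
    (hB : 4 * L ≤ τ * r₁) (hs : C * dl τ r₁ ≤ 1 / 100) {z : E2} (hz : 0 < z.2)
    (hcor : Zc τ r₁ z ∈ Om → Cor C Cb τ (dl τ r₁) (Zc τ r₁ z))
    (hG : 0 < Dp τ r₁ 1 0 z) (hg : 0 < Dp τ r₁ 2 0 z)
    (hk : Dp τ r₁ 2 0 z ≤ 6 / 5 * Dp τ r₁ 1 0 z) :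
    Dp τ r₁ 2 0 z ^ 2 * z.2 ≤ c' * (Dp τ r₁ 1 0 z * (N + Dp τ r₁ 1 0 z) ^ 2) := by
  have hN1 : 1 ≤ N := by rw [hN]; exact Real.one_le_exp (by linarith)
  set G := Dp τ r₁ 1 0 z with hGd
  set g := Dp τ r₁ 2 0 z with hgd
  have hAM : 4 * N * G ≤ (N + G) ^ 2 := by nlinarith [sq_nonneg (N - G)]
  have hgG : g ^ 2 ≤ 36 / 25 * G ^ 2 := by nlinarith
  have hAM' : c' * (4 * N * G ^ 2) ≤ c' * (G * (N + G) ^ 2) := by
    refine mul_le_mul_of_nonneg_left ?_ hc.le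
    calc 4 * N * G ^ 2 = G * (4 * N * G) := by ring
      _ ≤ _ := mul_le_mul_of_nonneg_left hAM hG.le
  have hG2 : 0 < G ^ 2 := by positivity
  have hN0 : 0 < N := by linarith
  rcases le_or_gt z.2 r₁ with h1 | h1
  · have h2 : g ^ 2 * z.2 ≤ 36 / 25 * G ^ 2 * (c' * N / 2) := by
      rw [← hr1]
      exact mul_le_mul hgG h1 hz.le (by positivity)
    refine h2.trans (le_trans ?_ hAM')
    have : 0 < c' * N * G ^ 2 := by positivity
    have e1 : 36 / 25 * G ^ 2 * (c' * N / 2) = 18 / 25 * (c' * N * G ^ 2) := by ring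
    have e2 : c' * (4 * N * G ^ 2) = 4 * (c' * N * G ^ 2) := by ring
    rw [e1, e2]
    exact mul_le_mul_of_nonneg_right (by norm_num) this.le
  · have hs0 : 0 < (Zc τ r₁ z).2 := Real.log_pos ((one_lt_div hr).2 h1)
    have hOm : Zc τ r₁ z ∈ Om := by
      show -1 ≤ (Zc τ r₁ z).2
      linarith
    have cr := hcor hOm
    have hE : 0 < Real.exp (uu τ r₁ z) := Real.exp_pos _
    rcases le_or_gt ((Zc τ r₁ z).1 ^ 2) (aa (Zc τ r₁ z).2) with h3 | h3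
    · have h4 := cr.kap_le hs
      have h5 := kh_le_aa _ h3
      have ha := aa_pos (Zc τ r₁ z).2
      have h6 : g ≤ 103 / 100 * (4 * aa (Zc τ r₁ z).2) * G := by
        rw [hgd, hGd, Dp, Dp]
        have h10 := (cr.R10_ge hs).1
        have h11 : 0 < RR τ (dl τ r₁) 1 0 (Zc τ r₁ z) := by linarith
        calc Real.exp (uu τ r₁ z) * RR τ (dl τ r₁) 2 0 (Zc τ r₁ z)
            ≤ Real.exp (uu τ r₁ z) * (103 / 100 * (4 * aa (Zc τ r₁ z).2) *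
              RR τ (dl τ r₁) 1 0 (Zc τ r₁ z)) := by
              refine mul_le_mul_of_nonneg_left (h4.trans ?_) hE.le
              exact mul_le_mul_of_nonneg_right (mul_le_mul_of_nonneg_left h5 (by norm_num)) h11.le
          _ = _ := by ring
      have h7 : aa (Zc τ r₁ z).2 ^ 2 * z.2 = r₁ / 4 := by
        have e1 : Real.exp (-(Zc τ r₁ z).2) = r₁ / z.2 := es_Zc hr hz
        have e2 : aa (Zc τ r₁ z).2 ^ 2 = Real.exp (-(Zc τ r₁ z).2) / 4 := by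
          rw [aa_exp hs0.le, div_pow, ← Real.exp_nat_mul]
          norm_num
          ring
        rw [e2, e1]
        field_simp
      have h8 : g ^ 2 ≤ (103 / 25) ^ 2 * (aa (Zc τ r₁ z).2 ^ 2 * G ^ 2) := by
        calc g ^ 2 ≤ (103 / 100 * (4 * aa (Zc τ r₁ z).2) * G) ^ 2 :=
              pow_le_pow_left₀ hg.le h6 2
          _ = _ := by ring
      have h9 : g ^ 2 * z.2 ≤ (103 / 25) ^ 2 * (c' * N / 8 * G ^ 2) := by
        calc g ^ 2 * z.2 ≤ (103 / 25) ^ 2 * (aa (Zc τ r₁ z).2 ^ 2 * G ^ 2) * z.2 :=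
              mul_le_mul_of_nonneg_right h8 hz.le
          _ = (103 / 25) ^ 2 * (aa (Zc τ r₁ z).2 ^ 2 * z.2 * G ^ 2) := by ring
          _ = _ := by rw [h7, hr1]; ring
      refine h9.trans (le_trans ?_ hAM')
      have : 0 < c' * N * G ^ 2 := by positivity
      have e1 : (103 / 25 : ℝ) ^ 2 * (c' * N / 8 * G ^ 2) =
        (103 / 25) ^ 2 / 8 * (c' * N * G ^ 2) := by ring
      have e2 : c' * (4 * N * G ^ 2) = 4 * (c' * N * G ^ 2) := by ring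
      rw [e1, e2]
      exact mul_le_mul_of_nonneg_right (by norm_num) this.le
    · have h4 := uu_large hτ hr hL hB hz hs0.le h3.le
      have h5 : 2 * z.2 / c' ≤ Real.exp |uu τ r₁ z| := by
        have e1 : Real.exp (Zc τ r₁ z).2 = z.2 / r₁ := exp_Zc hr hz
        have h6 : Real.exp (L + (Zc τ r₁ z).2) = 2 * z.2 / c' := by
          rw [Real.exp_add, e1, ← hN, hr1]
          field_simp
        rw [← h6]
        exact Real.exp_le_exp.2 h4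
      rw [div_le_iff₀ hc] at h5
      have h10 := cr.R10_ge hs
      have hGE : 99 / 100 * Real.exp (uu τ r₁ z) ≤ G ∧ G ≤ 101 / 100 * Real.exp (uu τ r₁ z) := by
        rw [hGd, Dp]
        constructor <;> nlinarith [h10.1, h10.2]
      rcases le_total 0 (uu τ r₁ z) with h6 | h6
      · rw [abs_of_nonneg h6] at h5
        have h7 : z.2 ≤ 100 / 198 * c' * G := by
          have h8 := mul_le_mul_of_nonneg_right hGE.1 hc.le
          linarith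
        calc g ^ 2 * z.2 ≤ 36 / 25 * G ^ 2 * (100 / 198 * c' * G) :=
              mul_le_mul hgG h7 hz.le (by positivity)
          _ = 72 / 99 * (c' * (G * G ^ 2)) := by ring
          _ ≤ 1 * (c' * (G * G ^ 2)) :=
              mul_le_mul_of_nonneg_right (by norm_num) (by positivity)
          _ = c' * (G * G ^ 2) := one_mul _
          _ ≤ c' * (G * (N + G) ^ 2) := by
              refine mul_le_mul_of_nonneg_left (mul_le_mul_of_nonneg_left ?_ hG.le) hc.le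
              exact pow_le_pow_left₀ hG.le (by linarith) 2
      · rw [abs_of_nonpos h6, Real.exp_neg] at h5
        have h7 : 2 * z.2 * Real.exp (uu τ r₁ z) ≤ c' := by
          calc 2 * z.2 * Real.exp (uu τ r₁ z) ≤
                (Real.exp (uu τ r₁ z))⁻¹ * c' * Real.exp (uu τ r₁ z) :=
                mul_le_mul_of_nonneg_right h5 hE.le
            _ = c' := by field_simp
        have h8 : G * z.2 ≤ 101 / 200 * c' := by
          calc G * z.2 ≤ 101 / 100 * Real.exp (uu τ r₁ z) * z.2 :=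
                mul_le_mul_of_nonneg_right hGE.2 hz.le
            _ = 101 / 200 * (2 * z.2 * Real.exp (uu τ r₁ z)) := by ring
            _ ≤ _ := mul_le_mul_of_nonneg_left h7 (by norm_num)
        calc g ^ 2 * z.2 ≤ 36 / 25 * G ^ 2 * z.2 := mul_le_mul_of_nonneg_right hgG hz.le
          _ = 36 / 25 * G * (G * z.2) := by ring
          _ ≤ 36 / 25 * G * (101 / 200 * c') := mul_le_mul_of_nonneg_left h8 (by positivity)
          _ = 36 * 101 / 5000 * (c' * (G * 1)) := by ring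
          _ ≤ 1 * (c' * (G * 1)) := mul_le_mul_of_nonneg_right (by norm_num) (by positivity)
          _ = c' * (G * 1) := one_mul _
          _ ≤ c' * (G * (N + G) ^ 2) := by
              refine mul_le_mul_of_nonneg_left (mul_le_mul_of_nonneg_left ?_ hG.le) hc.le
              exact one_le_pow₀ (by linarith)

end Vale.Agent.P088.R2.H768.W
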