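import Mathlib.Analysis.Calculus.ContDiff.Basic
import Mathlib.Analysis.Calculus.ContDiff.Operations
import Mathlib.Analysis.Calculus.FDeriv.Mul
import Mathlib.Analysis.Calculus.FDeriv.Symmetric
import Mathlib.Analysis.Calculus.Deriv.Inv
import Mathlib.Tactic

/-!
# Symbol classes in two variables `(T, s)`, uniformly in a family
-/

open scoped ContDiff

noncomputable section

namespace Vale.Agent.P088.R2.H768.W

/-- The plane. -/
abbrev E2 : Type := ℝ × ℝ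

/-- `∂_T`. -/
def dT (F : E2 → ℝ) (z : E2) : ℝ := fderiv ℝ F z (1, 0)

/-- `∂_s`. -/
def dS (F : E2 → ℝ) (z : E2) : ℝ := fderiv ℝ F z (0, 1)

section basic

variable {F G : E2 → ℝ}

theorem dT_sm (hF : ContDiff ℝ ∞ F) : ContDiff ℝ ∞ (dT F) :=
  (hF.fderiv_right (m := ∞) (by simp)).clm_apply contDiff_const

theorem dS_sm (hF : ContDiff ℝ ∞ F) : ContDiff ℝ ∞ (dS F) :=
  (hF.fderiv_right (m := ∞) (by simp)).clm_apply contDiff_const

theorem sm_diff (hF : ContDiff ℝ ∞ F) : Differentiable ℝ F := hF.differentiable (by simp)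

theorem dT_add (hF : ContDiff ℝ ∞ F) (hG : ContDiff ℝ ∞ G) :
    dT (fun z => F z + G z) = fun z => dT F z + dT G z := by
  funext z
  have h := (sm_diff hF z).hasFDerivAt.add (sm_diff hG z).hasFDerivAt
  have h2 : fderiv ℝ (fun z => F z + G z) z = fderiv ℝ F z + fderiv ℝ G z := h.fderiv
  simp [dT, h2]

theorem dS_add (hF : ContDiff ℝ ∞ F) (hG : ContDiff ℝ ∞ G) :
    dS (fun z => F z + G z) = fun z => dS F z + dS G z := by
  funext z
  have h := (sm_diff hF z).hasFDerivAt.add (sm_diff hG z).hasFDerivAt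
  have h2 : fderiv ℝ (fun z => F z + G z) z = fderiv ℝ F z + fderiv ℝ G z := h.fderiv
  simp [dS, h2]

theorem dT_mul (hF : ContDiff ℝ ∞ F) (hG : ContDiff ℝ ∞ G) :
    dT (fun z => F z * G z) = fun z => dT F z * G z + F z * dT G z := by
  funext z
  have h := (sm_diff hF z).hasFDerivAt.mul (sm_diff hG z).hasFDerivAt
  have h2 : fderiv ℝ (fun z => F z * G z) z = F z • fderiv ℝ G z + G z • fderiv ℝ F z :=
    h.fderiv
  simp [dT, h2]
  ring

theorem dS_mul (hF : ContDiff ℝ ∞ F) (hG : ContDiff ℝ ∞ G) :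
    dS (fun z => F z * G z) = fun z => dS F z * G z + F z * dS G z := by
  funext z
  have h := (sm_diff hF z).hasFDerivAt.mul (sm_diff hG z).hasFDerivAt
  have h2 : fderiv ℝ (fun z => F z * G z) z = F z • fderiv ℝ G z + G z • fderiv ℝ F z :=
    h.fderiv
  simp [dS, h2]
  ring

theorem dT_const (c : ℝ) : dT (fun _ => c) = fun _ => 0 := by
  funext z
  simp [dT]

theorem dS_const (c : ℝ) : dS (fun _ => c) = fun _ => 0 := by
  funext z
  simp [dS]

theorem dT_inv (hF : ContDiff ℝ ∞ F) (h0 : ∀ z, F z ≠ 0) :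
    dT (fun z => (F z)⁻¹) = fun z => -(dT F z * ((F z)⁻¹ * (F z)⁻¹)) := by
  funext z
  have h := (sm_diff hF z).hasFDerivAt
  have h1 := HasFDerivAt.comp z (hasDerivAt_inv (h0 z)).hasFDerivAt h
  have h2 : fderiv ℝ (fun z => (F z)⁻¹) z = _ := h1.fderiv
  rw [dT, h2]
  simp only [ContinuousLinearMap.coe_comp, Function.comp_apply,
    ContinuousLinearMap.toSpanSingleton_apply, smul_eq_mul, dT]
  rw [sq, mul_inv]
  ring

theorem dS_inv (hF : ContDiff ℝ ∞ F) (h0 : ∀ z, F z ≠ 0) :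
    dS (fun z => (F z)⁻¹) = fun z => -(dS F z * ((F z)⁻¹ * (F z)⁻¹)) := by
  funext z
  have h := (sm_diff hF z).hasFDerivAt
  have h1 := HasFDerivAt.comp z (hasDerivAt_inv (h0 z)).hasFDerivAt h
  have h2 : fderiv ℝ (fun z => (F z)⁻¹) z = _ := h1.fderiv
  rw [dS, h2]
  simp only [ContinuousLinearMap.coe_comp, Function.comp_apply,
    ContinuousLinearMap.toSpanSingleton_apply, smul_eq_mul, dS]
  rw [sq, mul_inv]
  ring

/-- Mixed derivatives commute. -/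
theorem dT_dS (hF : ContDiff ℝ ∞ F) : dT (dS F) = dS (dT F) := by
  funext z
  have h0 : ContDiff ℝ 2 F := by exact_mod_cast contDiff_infty.1 hF 2
  have h1 : ContDiffAt ℝ 2 F z := h0.contDiffAt
  have h2 := h1.isSymmSndFDerivAt (by simp)
  have h3 : Differentiable ℝ (fderiv ℝ F) :=
    (hF.fderiv_right (m := ∞) (by simp)).differentiable (by simp)
  have e1 : dT (dS F) z = fderiv ℝ (fderiv ℝ F) z (1, 0) (0, 1) := by
    unfold dT dS
    have := ((h3 z).hasFDerivAt.clm_apply (hasFDerivAt_const ((0 : ℝ), (1 : ℝ)) z)).fderiv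
    rw [this]
    simp
  have e2 : dS (dT F) z = fderiv ℝ (fderiv ℝ F) z (0, 1) (1, 0) := by
    unfold dT dS
    have := ((h3 z).hasFDerivAt.clm_apply (hasFDerivAt_const ((1 : ℝ), (0 : ℝ)) z)).fderiv
    rw [this]
    simp
  rw [e1, e2]
  exact h2 (1, 0) (0, 1)

end basic

variable {ι : Type}

/-- Bounds of order `n` on `Ω`: `∂_T` costs `1/h`, `∂_s` costs `1`. -/
def Sy (Ω : Set E2) (h : E2 → ℝ) : ℕ → (ι → E2 → ℝ) → (ι → E2 → ℝ) → Prop
  | 0, w, F => ∃ C : ℝ, ∀ i, ∀ z ∈ Ω, |F i z| ≤ C * w i z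
  | n + 1, w, F => (∃ C : ℝ, ∀ i, ∀ z ∈ Ω, |F i z| ≤ C * w i z) ∧
      Sy Ω h n (fun i z => w i z / h z) (fun i => dT (F i)) ∧ Sy Ω h n w (fun i => dS (F i))

/-- Symbols of weight `w`. -/
structure Sm (Ω : Set E2) (h : E2 → ℝ) (w F : ι → E2 → ℝ) : Prop where
  w0 : ∀ i, ∀ z ∈ Ω, 0 ≤ w i z
  sm : ∀ i, ContDiff ℝ ∞ (F i)
  bd : ∀ n, Sy Ω h n w F

section sy

variable {Ω : Set E2} {h : E2 → ℝ} {w w' F G : ι → E2 → ℝ}

theorem Sy.zero_le {n : ℕ} (hb : Sy Ω h n w F) : ∃ C : ℝ, ∀ i, ∀ z ∈ Ω, |F i z| ≤ C * w i z := by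
  cases n with
  | zero => exact hb
  | succ n => exact hb.1

theorem Sy.pred : ∀ {n : ℕ} {w F : ι → E2 → ℝ}, Sy Ω h (n + 1) w F → Sy Ω h n w F
  | 0, _, _, hb => hb.1
  | _ + 1, _, _, hb => ⟨hb.1, Sy.pred hb.2.1, Sy.pred hb.2.2⟩

theorem Sy.mono_w (hh : ∀ z, 0 < h z) : ∀ (n : ℕ) {w w' F : ι → E2 → ℝ} {K : ℝ},
    (∀ i, ∀ z ∈ Ω, 0 ≤ w i z) → (∀ i, ∀ z ∈ Ω, w i z ≤ K * w' i z) → Sy Ω h n w F →
    Sy Ω h n w' F := by
  have key : ∀ {w w' F : ι → E2 → ℝ} {K : ℝ}, (∀ i, ∀ z ∈ Ω, 0 ≤ w i z) →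
      (∀ i, ∀ z ∈ Ω, w i z ≤ K * w' i z) → (∃ C : ℝ, ∀ i, ∀ z ∈ Ω, |F i z| ≤ C * w i z) →
      ∃ C : ℝ, ∀ i, ∀ z ∈ Ω, |F i z| ≤ C * w' i z := by
    intro w w' F K h0 h1 ⟨C, hC⟩
    refine ⟨|C| * K, fun i z hz => ?_⟩
    calc |F i z| ≤ C * w i z := hC i z hz
      _ ≤ |C| * w i z := mul_le_mul_of_nonneg_right (le_abs_self C) (h0 i z hz)
      _ ≤ |C| * (K * w' i z) := mul_le_mul_of_nonneg_left (h1 i z hz) (abs_nonneg C)
      _ = |C| * K * w' i z := by ring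
  intro n
  induction n with
  | zero => intro w w' F K h0 h1 hb; exact key h0 h1 hb
  | succ n ih =>
    intro w w' F K h0 h1 hb
    refine ⟨key h0 h1 hb.1, ih (K := K) (fun i z hz => div_nonneg (h0 i z hz) (hh z).le)
      (fun i z hz => ?_) hb.2.1, ih h0 h1 hb.2.2⟩
    rw [← mul_div_assoc]
    exact div_le_div_of_nonneg_right (h1 i z hz) (hh z).le

theorem Sy.add : ∀ (n : ℕ) {w F G : ι → E2 → ℝ}, (∀ i, ContDiff ℝ ∞ (F i)) →
    (∀ i, ContDiff ℝ ∞ (G i)) → Sy Ω h n w F → Sy Ω h n w G →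
    Sy Ω h n w (fun i z => F i z + G i z) := by
  have key : ∀ {w F G : ι → E2 → ℝ}, (∃ C : ℝ, ∀ i, ∀ z ∈ Ω, |F i z| ≤ C * w i z) →
      (∃ C : ℝ, ∀ i, ∀ z ∈ Ω, |G i z| ≤ C * w i z) →
      ∃ C : ℝ, ∀ i, ∀ z ∈ Ω, |F i z + G i z| ≤ C * w i z := by
    rintro w F G ⟨C, hC⟩ ⟨C', hC'⟩
    refine ⟨C + C', fun i z hz => ?_⟩
    calc |F i z + G i z| ≤ |F i z| + |G i z| := abs_add_le _ _
      _ ≤ C * w i z + C' * w i z := add_le_add (hC i z hz) (hC' i z hz)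
      _ = (C + C') * w i z := by ring
  intro n
  induction n with
  | zero => intro w F G _ _ h1 h2; exact key h1 h2
  | succ n ih =>
    intro w F G hF hG h1 h2
    refine ⟨key h1.1 h2.1, ?_, ?_⟩
    · have e : (fun i => dT (fun z => F i z + G i z)) = fun i z => dT (F i) z + dT (G i) z := by
        funext i; exact dT_add (hF i) (hG i)
      rw [e]
      exact ih (fun i => dT_sm (hF i)) (fun i => dT_sm (hG i)) h1.2.1 h2.2.1
    · have e : (fun i => dS (fun z => F i z + G i z)) = fun i z => dS (F i) z + dS (G i) z := by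
        funext i; exact dS_add (hF i) (hG i)
      rw [e]
      exact ih (fun i => dS_sm (hF i)) (fun i => dS_sm (hG i)) h1.2.2 h2.2.2

theorem Sy.mul (hh : ∀ z, 0 < h z) : ∀ (n : ℕ) {w w' F G : ι → E2 → ℝ},
    (∀ i, ∀ z ∈ Ω, 0 ≤ w i z) → (∀ i, ∀ z ∈ Ω, 0 ≤ w' i z) → (∀ i, ContDiff ℝ ∞ (F i)) →
    (∀ i, ContDiff ℝ ∞ (G i)) → Sy Ω h n w F → Sy Ω h n w' G →
    Sy Ω h n (fun i z => w i z * w' i z) (fun i z => F i z * G i z) := by
  have key : ∀ {w w' F G : ι → E2 → ℝ}, (∀ i, ∀ z ∈ Ω, 0 ≤ w i z) →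
      (∀ i, ∀ z ∈ Ω, 0 ≤ w' i z) →
      (∃ C : ℝ, ∀ i, ∀ z ∈ Ω, |F i z| ≤ C * w i z) →
      (∃ C : ℝ, ∀ i, ∀ z ∈ Ω, |G i z| ≤ C * w' i z) →
      ∃ C : ℝ, ∀ i, ∀ z ∈ Ω, |F i z * G i z| ≤ C * (w i z * w' i z) := by
    rintro w w' F G w0 w1 ⟨C, hC⟩ ⟨C', hC'⟩
    refine ⟨|C| * |C'|, fun i z hz => ?_⟩
    rw [abs_mul]
    calc |F i z| * |G i z| ≤ (|C| * w i z) * (|C'| * w' i z) := by
          refine mul_le_mul ?_ ?_ (abs_nonneg _) (mul_nonneg (abs_nonneg _) (w0 i z hz))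
          · exact (hC i z hz).trans (mul_le_mul_of_nonneg_right (le_abs_self C) (w0 i z hz))
          · exact (hC' i z hz).trans (mul_le_mul_of_nonneg_right (le_abs_self C') (w1 i z hz))
      _ = |C| * |C'| * (w i z * w' i z) := by ring
  intro n
  induction n with
  | zero => intro w w' F G w0 w1 _ _ h1 h2; exact key w0 w1 h1 h2
  | succ n ih =>
    intro w w' F G w0 w1 hF hG h1 h2
    refine ⟨key w0 w1 h1.1 h2.1, ?_, ?_⟩
    · have e : (fun i => dT (fun z => F i z * G i z)) =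
          fun i z => dT (F i) z * G i z + F i z * dT (G i) z := by
        funext i; exact dT_mul (hF i) (hG i)
      rw [e]
      have a1 := ih (w := fun i z => w i z / h z) (w' := w')
        (fun i z hz => div_nonneg (w0 i z hz) (hh z).le) w1 (fun i => dT_sm (hF i)) hG h1.2.1
        (Sy.pred h2)
      have a2 := ih (w := w) (w' := fun i z => w' i z / h z) w0
        (fun i z hz => div_nonneg (w1 i z hz) (hh z).le) hF (fun i => dT_sm (hG i))
        (Sy.pred h1) h2.2.1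
      have b1 : (fun (i : ι) z => w i z / h z * w' i z) = fun i z => w i z * w' i z / h z := by
        funext i z; ring
      have b2 : (fun (i : ι) z => w i z * (w' i z / h z)) = fun i z => w i z * w' i z / h z := by
        funext i z; ring
      rw [b1] at a1
      rw [b2] at a2
      exact Sy.add n (fun i => (dT_sm (hF i)).mul (hG i)) (fun i => (hF i).mul (dT_sm (hG i)))
        a1 a2
    · have e : (fun i => dS (fun z => F i z * G i z)) =
          fun i z => dS (F i) z * G i z + F i z * dS (G i) z := by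
        funext i; exact dS_mul (hF i) (hG i)
      rw [e]
      exact Sy.add n (fun i => (dS_sm (hF i)).mul (hG i)) (fun i => (hF i).mul (dS_sm (hG i)))
        (ih w0 w1 (fun i => dS_sm (hF i)) hG h1.2.2 (Sy.pred h2))
        (ih w0 w1 hF (fun i => dS_sm (hG i)) (Sy.pred h1) h2.2.2)

theorem Sy.zero (hh : ∀ z, 0 < h z) : ∀ (n : ℕ) {w : ι → E2 → ℝ},
    (∀ i, ∀ z ∈ Ω, 0 ≤ w i z) → Sy Ω h n w (fun _ _ => 0) := by
  intro n
  induction n with
  | zero => intro w w0; exact ⟨1, fun i z hz => by simpa using w0 i z hz⟩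
  | succ n ih =>
    intro w w0
    refine ⟨⟨1, fun i z hz => by simpa using w0 i z hz⟩, ?_, ?_⟩
    · rw [show (fun _ : ι => dT fun _ => (0 : ℝ)) = fun _ _ => 0 from by
        funext i; exact dT_const 0]
      exact ih fun i z hz => div_nonneg (w0 i z hz) (hh z).le
    · rw [show (fun _ : ι => dS fun _ => (0 : ℝ)) = fun _ _ => 0 from by
        funext i; exact dS_const 0]
      exact ih w0

theorem Sy.const (hh : ∀ z, 0 < h z) (n : ℕ) (c : ι → ℝ) {u : ι → E2 → ℝ}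
    (u0 : ∀ i, ∀ z ∈ Ω, 0 ≤ u i z) (hu : ∃ C : ℝ, ∀ i, ∀ z ∈ Ω, |c i| ≤ C * u i z) :
    Sy Ω h n u (fun i _ => c i) := by
  cases n with
  | zero => exact hu
  | succ n =>
    refine ⟨hu, ?_, ?_⟩
    · rw [show (fun i : ι => dT fun _ => c i) = fun _ _ => 0 from by
        funext i; exact dT_const _]
      exact Sy.zero hh n fun i z hz => div_nonneg (u0 i z hz) (hh z).le
    · rw [show (fun i : ι => dS fun _ => c i) = fun _ _ => 0 from by
        funext i; exact dS_const _]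
      exact Sy.zero hh n u0

theorem Sy.inv (hh : ∀ z, 0 < h z) {w F : ι → E2 → ℝ} {c : ℝ} (hc : 0 < c)
    (w0 : ∀ i, ∀ z ∈ Ω, 0 < w i z) (hF : ∀ i, ContDiff ℝ ∞ (F i)) (h0 : ∀ i z, F i z ≠ 0)
    (hb : ∀ n, Sy Ω h n w F) (hl : ∀ i, ∀ z ∈ Ω, c * w i z ≤ |F i z|) :
    ∀ n : ℕ, Sy Ω h n (fun i z => (w i z)⁻¹) (fun i z => (F i z)⁻¹) := by
  have hI : ∀ i, ContDiff ℝ ∞ fun z => (F i z)⁻¹ := fun i => (hF i).inv (h0 i)
  have key : ∃ C : ℝ, ∀ i, ∀ z ∈ Ω, |(F i z)⁻¹| ≤ C * (w i z)⁻¹ := by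
    refine ⟨c⁻¹, fun i z hz => ?_⟩
    rw [abs_inv, ← mul_inv]
    exact inv_anti₀ (mul_pos hc (w0 i z hz)) (hl i z hz)
  have hwi : ∀ i, ∀ z ∈ Ω, 0 ≤ (w i z)⁻¹ := fun i z hz => inv_nonneg.2 (w0 i z hz).le
  have aux : ∀ (n : ℕ) {v D : ι → E2 → ℝ}, (∀ i, ∀ z ∈ Ω, 0 ≤ v i z) →
      (∀ i, ContDiff ℝ ∞ (D i)) → Sy Ω h n v D →
      Sy Ω h n (fun i z => (w i z)⁻¹) (fun i z => (F i z)⁻¹) →
      Sy Ω h n (fun i z => v i z * ((w i z)⁻¹ * (w i z)⁻¹))
        (fun i z => -(D i z * ((F i z)⁻¹ * (F i z)⁻¹))) := by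
    intro n v D v0 hD h1 h2
    have a1 := Sy.mul hh n hwi hwi hI hI h2 h2
    have a2 := Sy.mul hh n v0 (fun i z hz => mul_nonneg (hwi i z hz) (hwi i z hz)) hD
      (fun i => (hI i).mul (hI i)) h1 a1
    have c1 : Sy Ω h n (fun (_ : ι) (_ : E2) => (1 : ℝ)) (fun _ _ => (-1 : ℝ)) :=
      Sy.const hh n (fun _ => -1) (fun _ _ _ => zero_le_one) ⟨1, fun i z _ => by simp⟩
    have a3 := Sy.mul hh n (w := fun _ _ => 1) (F := fun _ _ => (-1 : ℝ))
      (fun _ _ _ => zero_le_one) (fun i z hz => mul_nonneg (v0 i z hz)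
        (mul_nonneg (hwi i z hz) (hwi i z hz))) (fun _ => contDiff_const)
      (fun i => (hD i).mul ((hI i).mul (hI i))) c1 a2
    simpa using a3
  intro n
  induction n with
  | zero => exact key
  | succ n ih =>
    refine ⟨key, ?_, ?_⟩
    · have e : (fun i => dT (fun z => (F i z)⁻¹)) =
          fun i z => -(dT (F i) z * ((F i z)⁻¹ * (F i z)⁻¹)) := by
        funext i; exact dT_inv (hF i) (h0 i)
      rw [e]
      have := aux n (fun i z hz => div_nonneg (w0 i z hz).le (hh z).le)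
        (fun i => dT_sm (hF i)) (hb (n + 1)).2.1 ih
      refine Sy.mono_w hh n (K := 1) (fun i z hz => mul_nonneg
        (div_nonneg (w0 i z hz).le (hh z).le) (mul_nonneg (hwi i z hz) (hwi i z hz)))
        (fun i z hz => le_of_eq ?_) this
      have := (w0 i z hz).ne'
      have := (hh z).ne'
      field_simp
    · have e : (fun i => dS (fun z => (F i z)⁻¹)) =
          fun i z => -(dS (F i) z * ((F i z)⁻¹ * (F i z)⁻¹)) := by
        funext i; exact dS_inv (hF i) (h0 i)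
      rw [e]
      have := aux n (fun i z hz => (w0 i z hz).le) (fun i => dS_sm (hF i)) (hb (n + 1)).2.2 ih
      refine Sy.mono_w hh n (K := 1) (fun i z hz => mul_nonneg
        (w0 i z hz).le (mul_nonneg (hwi i z hz) (hwi i z hz)))
        (fun i z hz => le_of_eq ?_) this
      have := (w0 i z hz).ne'
      field_simp

end sy

namespace Sm

variable {Ω : Set E2} {h : E2 → ℝ} {w w' F G : ι → E2 → ℝ}

theorem bound (hF : Sm Ω h w F) : ∃ C : ℝ, 0 ≤ C ∧ ∀ i, ∀ z ∈ Ω, |F i z| ≤ C * w i z := by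
  obtain ⟨C, hC⟩ := (hF.bd 0).zero_le
  exact ⟨|C|, abs_nonneg C, fun i z hz =>
    (hC i z hz).trans (mul_le_mul_of_nonneg_right (le_abs_self C) (hF.w0 i z hz))⟩

theorem mono (hh : ∀ z, 0 < h z) (hF : Sm Ω h w F) (K : ℝ) (w1 : ∀ i, ∀ z ∈ Ω, 0 ≤ w' i z)
    (hle : ∀ i, ∀ z ∈ Ω, w i z ≤ K * w' i z) : Sm Ω h w' F :=
  ⟨w1, hF.sm, fun n => Sy.mono_w hh n hF.w0 hle (hF.bd n)⟩

theorem congr (hF : Sm Ω h w F) (he : ∀ i z, F i z = G i z) : Sm Ω h w G := by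
  have : F = G := funext fun i => funext fun z => he i z
  rwa [this] at hF

theorem add (hF : Sm Ω h w F) (hG : Sm Ω h w G) : Sm Ω h w (fun i z => F i z + G i z) :=
  ⟨hF.w0, fun i => (hF.sm i).add (hG.sm i), fun n => Sy.add n hF.sm hG.sm (hF.bd n) (hG.bd n)⟩

theorem mul (hh : ∀ z, 0 < h z) (hF : Sm Ω h w F) (hG : Sm Ω h w' G) :
    Sm Ω h (fun i z => w i z * w' i z) (fun i z => F i z * G i z) :=
  ⟨fun i z hz => mul_nonneg (hF.w0 i z hz) (hG.w0 i z hz), fun i => (hF.sm i).mul (hG.sm i),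
    fun n => Sy.mul hh n hF.w0 hG.w0 hF.sm hG.sm (hF.bd n) (hG.bd n)⟩

theorem const (hh : ∀ z, 0 < h z) (c : ι → ℝ) :
    Sm Ω h (fun i _ => |c i|) (fun i _ => c i) :=
  ⟨fun i z _ => abs_nonneg _, fun i => contDiff_const, fun n =>
    Sy.const hh n c (fun i z _ => abs_nonneg _) ⟨1, fun i z _ => by simp⟩⟩

theorem one (hh : ∀ z, 0 < h z) (c : ℝ) :
    Sm Ω h (fun (_ : ι) _ => 1) (fun _ _ => c) :=
  (const hh fun _ => c).mono hh |c| (fun _ _ _ => zero_le_one) fun _ _ _ => by simp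

theorem smul (hh : ∀ z, 0 < h z) (c : ι → ℝ) (hF : Sm Ω h w F) :
    Sm Ω h (fun i z => |c i| * w i z) (fun i z => c i * F i z) := mul hh (const hh c) hF

theorem rsmul (hh : ∀ z, 0 < h z) (c : ℝ) (hF : Sm Ω h w F) :
    Sm Ω h w (fun i z => c * F i z) :=
  mono hh (smul hh (fun _ => c) hF) |c| hF.w0 fun _ _ _ => le_rfl

theorem neg (hh : ∀ z, 0 < h z) (hF : Sm Ω h w F) : Sm Ω h w (fun i z => -F i z) :=
  (rsmul hh (-1) hF).congr fun i z => by ring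

theorem sub (hh : ∀ z, 0 < h z) (hF : Sm Ω h w F) (hG : Sm Ω h w G) :
    Sm Ω h w (fun i z => F i z - G i z) :=
  (hF.add (hG.neg hh)).congr fun i z => by ring

theorem inv (hh : ∀ z, 0 < h z) (hF : Sm Ω h w F) (h0 : ∀ i z, F i z ≠ 0)
    (w1 : ∀ i, ∀ z ∈ Ω, 0 < w i z) {c : ℝ} (hc : 0 < c)
    (hl : ∀ i, ∀ z ∈ Ω, c * w i z ≤ |F i z|) :
    Sm Ω h (fun i z => (w i z)⁻¹) (fun i z => (F i z)⁻¹) :=
  ⟨fun i z hz => inv_nonneg.2 (w1 i z hz).le, fun i => (hF.sm i).inv (h0 i),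
    Sy.inv hh hc w1 hF.sm h0 hF.bd hl⟩

theorem dT (hh : ∀ z, 0 < h z) (hF : Sm Ω h w F) :
    Sm Ω h (fun i z => w i z / h z) (fun i => dT (F i)) :=
  ⟨fun i z hz => div_nonneg (hF.w0 i z hz) (hh z).le, fun i => dT_sm (hF.sm i),
    fun n => (hF.bd (n + 1)).2.1⟩

theorem dS (hF : Sm Ω h w F) : Sm Ω h w (fun i => dS (F i)) :=
  ⟨hF.w0, fun i => dS_sm (hF.sm i), fun n => (hF.bd (n + 1)).2.2⟩

/-- Sum of weights. -/
theorem add' (hh : ∀ z, 0 < h z) (hF : Sm Ω h w F) (hG : Sm Ω h w' G) :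
    Sm Ω h (fun i z => w i z + w' i z) (fun i z => F i z + G i z) :=
  (hF.mono hh 1 (fun i z hz => add_nonneg (hF.w0 i z hz) (hG.w0 i z hz)) fun i z hz => by
    linarith [hG.w0 i z hz]).add
  (hG.mono hh 1 (fun i z hz => add_nonneg (hF.w0 i z hz) (hG.w0 i z hz)) fun i z hz => by
    linarith [hF.w0 i z hz])

/-- A family which does not depend on the index. -/
theorem of_unit {w F : E2 → ℝ} (hF : Sm Ω h (fun (_ : Unit) => w) fun _ => F) :
    Sm Ω h (fun (_ : ι) => w) fun _ => F := by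
  have key : ∀ (n : ℕ) {w F : E2 → ℝ}, Sy Ω h n (fun (_ : Unit) => w) (fun _ => F) →
      Sy Ω h n (fun (_ : ι) => w) (fun _ => F) := by
    intro n
    induction n with
    | zero => rintro w F ⟨C, hC⟩; exact ⟨C, fun _ => hC ()⟩
    | succ n ih =>
      rintro w F ⟨⟨C, hC⟩, h1, h2⟩
      exact ⟨⟨C, fun _ => hC ()⟩, ih h1, ih h2⟩
  exact ⟨fun _ => hF.w0 (), fun _ => hF.sm (), fun n => key n (hF.bd n)⟩

end Sm

end Vale.Agent.P088.R2.H768.W
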